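import Mathlib

/-! Row 82 (S0109), piece (D): semi-discrete optimal transport: existence of a potential with
prescribed cell masses, and duality. -/

set_option autoImplicit false
set_option linter.unusedSectionVars false
open MeasureTheory Set Filter Topology
open scoped ENNReal NNReal

namespace Crest.Agent.R82

section Basic

variable {E : Type*} [NormedAddCommGroup E] [InnerProductSpace ℝ E]
variable {ι : Type*} [Fintype ι] [Nonempty ι]

/-- The semi-discrete potential `φ_ψ(x) = max_i (⟨x, y_i⟩ - ψ_i)`. -/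
noncomputable def phi (y : ι → E) (ψ : ι → ℝ) (x : E) : ℝ := ⨆ i, (inner ℝ x (y i) - ψ i)

/-- The Laguerre cell of the label `i`. -/
def cell (y : ι → E) (ψ : ι → ℝ) (i : ι) : Set E :=
  {x | ∀ j, inner ℝ x (y j) - ψ j ≤ inner ℝ x (y i) - ψ i}

omit [Nonempty ι] in
theorem le_phi (y : ι → E) (ψ : ι → ℝ) (x : E) (i : ι) : inner ℝ x (y i) - ψ i ≤ phi y ψ x :=
  le_ciSup (f := fun i => inner ℝ x (y i) - ψ i) (Set.finite_range _).bddAbove i

theorem phi_le {y : ι → E} {ψ : ι → ℝ} {x : E} {c : ℝ} (h : ∀ i, inner ℝ x (y i) - ψ i ≤ c) :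
    phi y ψ x ≤ c :=
  ciSup_le h

theorem exists_phi_eq (y : ι → E) (ψ : ι → ℝ) (x : E) :
    ∃ i, phi y ψ x = inner ℝ x (y i) - ψ i := by
  obtain ⟨i, hi⟩ := exists_eq_ciSup_of_finite (f := fun i => inner ℝ x (y i) - ψ i)
  exact ⟨i, hi.symm⟩

theorem phi_eq_of_mem_cell {y : ι → E} {ψ : ι → ℝ} {x : E} {i : ι} (h : x ∈ cell y ψ i) :
    phi y ψ x = inner ℝ x (y i) - ψ i :=
  le_antisymm (phi_le h) (le_phi y ψ x i)

theorem mem_cell_iff {y : ι → E} {ψ : ι → ℝ} {x : E} {i : ι} :
    x ∈ cell y ψ i ↔ phi y ψ x = inner ℝ x (y i) - ψ i := by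
  refine ⟨phi_eq_of_mem_cell, fun h j => ?_⟩
  rw [← h]
  exact le_phi y ψ x j

theorem iUnion_cell (y : ι → E) (ψ : ι → ℝ) : ⋃ i, cell y ψ i = univ := by
  rw [eq_univ_iff_forall]
  intro x
  obtain ⟨i, hi⟩ := exists_phi_eq y ψ x
  exact mem_iUnion.2 ⟨i, mem_cell_iff.2 hi⟩

omit [Nonempty ι] in
theorem isClosed_cell (y : ι → E) (ψ : ι → ℝ) (i : ι) : IsClosed (cell y ψ i) := by
  have : cell y ψ i = ⋂ j, {x | inner ℝ x (y j) - ψ j ≤ inner ℝ x (y i) - ψ i} := by
    ext x; simp [cell]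
  rw [this]
  refine isClosed_iInter fun j => isClosed_le ?_ ?_ <;> fun_prop

theorem phi_lipschitz_psi (y : ι → E) (ψ ψ' : ι → ℝ) (c : ℝ) (h : ∀ i, |ψ i - ψ' i| ≤ c) (x : E) :
    |phi y ψ x - phi y ψ' x| ≤ c := by
  rw [abs_sub_le_iff]
  constructor
  · rw [sub_le_iff_le_add]
    refine phi_le fun i => ?_
    have := le_phi y ψ' x i
    have h2 := (abs_sub_le_iff.1 (h i)).2
    linarith
  · rw [sub_le_iff_le_add]
    refine phi_le fun i => ?_
    have := le_phi y ψ x i
    have h2 := (abs_sub_le_iff.1 (h i)).1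
    linarith

theorem convexOn_phi (y : ι → E) (ψ : ι → ℝ) : ConvexOn ℝ univ (phi y ψ) := by
  refine ⟨convex_univ, fun x _ x' _ a b ha hb hab => ?_⟩
  refine phi_le fun i => ?_
  have h1 := le_phi y ψ x i
  have h2 := le_phi y ψ x' i
  have h3 : inner ℝ (a • x + b • x') (y i) - ψ i
      = a * (inner ℝ x (y i) - ψ i) + b * (inner ℝ x' (y i) - ψ i) := by
    rw [inner_add_left, inner_smul_left, inner_smul_left]
    simp only [conj_trivial]
    have : ψ i = (a + b) * ψ i := by rw [hab, one_mul]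
    linear_combination -this
  rw [h3]
  simp only [smul_eq_mul]
  gcongr

theorem lipschitzWith_phi (y : ι → E) (ψ : ι → ℝ) (L : ℝ≥0) (hL : ∀ i, ‖y i‖ ≤ L) :
    LipschitzWith L (phi y ψ) := by
  refine LipschitzWith.of_le_add_mul L fun x x' => ?_
  refine phi_le fun i => ?_
  have h1 := le_phi y ψ x' i
  have h2 : inner ℝ x (y i) - inner ℝ x' (y i) ≤ L * dist x x' := by
    rw [← inner_sub_left, dist_eq_norm, mul_comm]
    exact (real_inner_le_norm _ _).trans (by gcongr; exact hL i)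
  linarith

theorem continuous_phi (y : ι → E) (ψ : ι → ℝ) : Continuous (phi y ψ) := by
  obtain ⟨L, hL⟩ := (Set.finite_range fun i => ‖y i‖₊).bddAbove
  exact (lipschitzWith_phi y ψ L fun i => by
    have := hL (mem_range_self i); exact_mod_cast this).continuous

theorem phi_add_const (y : ι → E) (ψ : ι → ℝ) (c : ℝ) (x : E) :
    phi y (fun i => ψ i + c) x = phi y ψ x - c := by
  apply le_antisymm
  · refine phi_le fun i => ?_
    have := le_phi y ψ x i
    linarith
  · rw [sub_le_iff_le_add]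
    refine phi_le fun i => ?_
    have := le_phi y (fun i => ψ i + c) x i
    linarith

end Basic

section Meas

variable {E : Type*} [NormedAddCommGroup E] [InnerProductSpace ℝ E] [FiniteDimensional ℝ E]
  [MeasurableSpace E] [BorelSpace E]

/-- Affine hyperplanes are Lebesgue null. -/
theorem volume_hyperplane (v : E) (hv : v ≠ 0) (c : ℝ) :
    volume {x : E | inner ℝ x v = c} = 0 := by
  by_cases h : ∃ p : E, inner ℝ p v = c
  · obtain ⟨p, hp⟩ := h
    let S : AffineSubspace ℝ E := AffineSubspace.mk' p (LinearMap.ker (innerₛₗ ℝ v))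
    have hS : {x : E | inner ℝ x v = c} = (S : Set E) := by
      ext x
      simp only [Set.mem_ofPred_eq, S, SetLike.mem_coe, AffineSubspace.mem_mk', vsub_eq_sub,
        LinearMap.mem_ker, innerₛₗ_apply_apply, inner_sub_right]
      have e1 := real_inner_comm v x
      have e2 := real_inner_comm v p
      constructor <;> intro h <;> linarith
    rw [hS]
    refine Measure.addHaar_affineSubspace _ S fun htop => ?_
    have : p + v ∈ S := by rw [htop]; trivial
    rw [AffineSubspace.mem_mk'] at this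
    simp [innerₛₗ_apply_apply] at this
    exact hv this
  · have : {x : E | inner ℝ x v = c} = ∅ := by
      ext x; simp only [Set.mem_ofPred_eq, mem_empty_iff_false, iff_false]; exact fun hx => h ⟨x, hx⟩
    rw [this, measure_empty]

variable {ι : Type*} [Fintype ι] [Nonempty ι]

omit [Nonempty ι] in
/-- Distinct cells overlap in a null set. -/
theorem cell_inter_null {σ : Measure E} (hσ : σ ≪ volume) {y : ι → E} (hy : Function.Injective y)
    (ψ : ι → ℝ) {i j : ι} (hij : i ≠ j) : σ (cell y ψ i ∩ cell y ψ j) = 0 := by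
  apply hσ
  refine measure_mono_null ?_ (volume_hyperplane (y i - y j) (sub_ne_zero.2 (hy.ne hij)) (ψ i - ψ j))
  intro x hx
  have h1 := hx.1 j
  have h2 := hx.2 i
  simp only [Set.mem_ofPred_eq, inner_sub_right]
  linarith

omit [Nonempty ι] in
theorem measurableSet_cell (y : ι → E) (ψ : ι → ℝ) (i : ι) : MeasurableSet (cell y ψ i) :=
  (isClosed_cell y ψ i).measurableSet

omit [Nonempty ι] in
theorem cell_pairwise_aedisjoint {σ : Measure E} (hσ : σ ≪ volume) {y : ι → E}
    (hy : Function.Injective y) (ψ : ι → ℝ) :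
    Pairwise (Function.onFun (AEDisjoint σ) (cell y ψ)) :=
  fun _ _ hij => cell_inter_null hσ hy ψ hij

theorem integrable_phi {σ : Measure E} [IsFiniteMeasure σ] {R : ℝ} (hR : ∀ᵐ x ∂σ, ‖x‖ ≤ R)
    (y : ι → E) (ψ : ι → ℝ) : Integrable (phi y ψ) σ := by
  obtain ⟨L, hL⟩ := (Set.finite_range fun i => ‖y i‖₊).bddAbove
  have hlip := lipschitzWith_phi y ψ L fun i => by
    have := hL (mem_range_self i); exact_mod_cast this
  refine Integrable.of_bound (continuous_phi y ψ).aestronglyMeasurable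
    (|phi y ψ 0| + L * R) ?_
  filter_upwards [hR] with x hx
  have h1 := hlip.dist_le_mul x 0
  rw [Real.dist_eq, dist_zero_right] at h1
  rw [Real.norm_eq_abs]
  have h2 : |phi y ψ x| ≤ |phi y ψ x - phi y ψ 0| + |phi y ψ 0| := by
    have := abs_add_le (phi y ψ x - phi y ψ 0) (phi y ψ 0)
    simpa using this
  have h3 : (L : ℝ) * ‖x‖ ≤ L * R := by gcongr
  linarith

/-- The semi-dual functional. -/
noncomputable def semiDual (σ : Measure E) (m : ι → ℝ) (y : ι → E) (ψ : ι → ℝ) : ℝ :=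
  ∫ x, phi y ψ x ∂σ + ∑ i, m i * ψ i

theorem measurable_phi (y : ι → E) (ψ : ι → ℝ) : Measurable (phi y ψ) :=
  (continuous_phi y ψ).measurable

theorem semiDual_add_const {σ : Measure E} [IsFiniteMeasure σ] {R : ℝ} (hR : ∀ᵐ x ∂σ, ‖x‖ ≤ R)
    {m : ι → ℝ} (hm : ∑ i, m i = σ.real univ) (y : ι → E) (ψ : ι → ℝ) (c : ℝ) :
    semiDual σ m y (fun i => ψ i + c) = semiDual σ m y ψ := by
  unfold semiDual
  simp_rw [phi_add_const, mul_add]
  rw [integral_sub (integrable_phi hR y ψ) (integrable_const c), Finset.sum_add_distrib,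
    ← Finset.sum_mul, hm, integral_const, smul_eq_mul]
  ring

theorem continuous_semiDual {σ : Measure E} [IsFiniteMeasure σ] {R : ℝ} (hR : ∀ᵐ x ∂σ, ‖x‖ ≤ R)
    (m : ι → ℝ) (y : ι → E) : Continuous (semiDual σ m y) := by
  unfold semiDual
  refine Continuous.add ?_ (by fun_prop)
  have : LipschitzWith (σ.real univ).toNNReal fun ψ : ι → ℝ => ∫ x, phi y ψ x ∂σ := by
    refine LipschitzWith.of_dist_le_mul fun ψ ψ' => ?_
    rw [Real.dist_eq, ← integral_sub (integrable_phi hR y ψ) (integrable_phi hR y ψ'),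
      Real.coe_toNNReal _ measureReal_nonneg, mul_comm, ← Real.norm_eq_abs]
    refine norm_integral_le_of_norm_le_const (Eventually.of_forall fun x => ?_)
    rw [Real.norm_eq_abs]
    refine phi_lipschitz_psi y ψ ψ' _ (fun i => ?_) x
    rw [← Real.dist_eq]
    exact dist_le_pi_dist ψ ψ' i
  exact this.continuous

/-- Existence of a minimiser of the semi-dual functional. -/
theorem exists_min_semiDual (σ : Measure E) [IsFiniteMeasure σ] (R : ℝ)
    (hR : ∀ᵐ x ∂σ, ‖x‖ ≤ R) (y : ι → E) (m : ι → ℝ) (hm : ∀ i, 0 < m i)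
    (hsum : ∑ i, m i = σ.real univ) : ∃ ψ, ∀ ψ', semiDual σ m y ψ ≤ semiDual σ m y ψ' := by
  classical
  obtain ⟨L, hL⟩ := (Set.finite_range fun i => ‖y i‖).bddAbove
  have hL' : ∀ i, ‖y i‖ ≤ L := fun i => hL (mem_range_self i)
  have hR0 : ∀ᵐ x ∂σ, ‖x‖ ≤ |R| := hR.mono fun x hx => hx.trans (le_abs_self R)
  have hL0 : 0 ≤ L := (norm_nonneg _).trans (hL' (Classical.arbitrary ι))
  -- smallest mass
  obtain ⟨i₀, hi₀⟩ := Finite.exists_min m
  set B : ℝ := |R| * L * σ.real univ with hB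
  set M : ℝ := (semiDual σ m y 0 + B) / m i₀ with hM
  have hcompact : IsCompact (Set.Icc (0 : ι → ℝ) (fun _ => max M 0)) := isCompact_Icc
  have hne : (Set.Icc (0 : ι → ℝ) (fun _ => max M 0)).Nonempty :=
    ⟨0, le_rfl, fun _ => le_max_right _ _⟩
  obtain ⟨ψ, hψ, hmin⟩ := hcompact.exists_isMinOn hne (continuous_semiDual hR m y).continuousOn
  refine ⟨ψ, fun ψ' => ?_⟩
  -- translate `ψ'` so that its minimum is zero
  obtain ⟨j, hj⟩ := Finite.exists_min ψ'
  rw [← semiDual_add_const hR hsum y ψ' (-ψ' j)]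
  set ψ'' : ι → ℝ := fun i => ψ' i + -ψ' j with hψ''
  have h0 : ∀ i, 0 ≤ ψ'' i := fun i => by simp only [hψ'']; linarith [hj i]
  have hj0 : ψ'' j = 0 := by simp [hψ'']
  by_cases hle : ∀ i, ψ'' i ≤ max M 0
  · exact hmin ⟨h0, hle⟩
  · push Not at hle
    obtain ⟨k, hk⟩ := hle
    have h1 : -B ≤ ∫ x, phi y ψ'' x ∂σ := by
      have : ∫ x, (-(|R| * L)) ∂σ ≤ ∫ x, phi y ψ'' x ∂σ := by
        refine integral_mono_ae (integrable_const _) (integrable_phi hR y ψ'') ?_
        filter_upwards [hR0] with x hx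
        have h2 := le_phi y ψ'' x j
        rw [hj0, sub_zero] at h2
        have h3 : |inner ℝ x (y j)| ≤ |R| * L :=
          (abs_real_inner_le_norm x (y j)).trans (by gcongr; exact hL' j)
        have h4 := (abs_le.1 h3).1
        linarith
      rw [integral_const, smul_eq_mul] at this
      rw [hB]
      linarith
    have h2 : m i₀ * ψ'' k ≤ ∑ i, m i * ψ'' i := by
      calc m i₀ * ψ'' k ≤ m k * ψ'' k := by gcongr; exacts [h0 k, hi₀ k]
        _ ≤ ∑ i, m i * ψ'' i :=
          Finset.single_le_sum (f := fun i => m i * ψ'' i)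
            (fun i _ => mul_nonneg (hm i).le (h0 i)) (Finset.mem_univ k)
    have h3 : semiDual σ m y 0 + B ≤ m i₀ * ψ'' k := by
      have : M ≤ ψ'' k := (le_max_left _ _).trans hk.le
      rw [hM, div_le_iff₀ (hm i₀)] at this
      linarith
    have h4 : semiDual σ m y 0 ≤ semiDual σ m y ψ'' := by
      rw [semiDual.eq_def σ m y ψ'']
      linarith
    exact (hmin ⟨le_rfl, fun _ => le_max_right _ _⟩).trans h4

omit [Nonempty ι] in
/-- Almost every point has no tie between two distinct labels. -/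
theorem ae_no_tie {σ : Measure E} (hσ : σ ≪ volume) {y : ι → E} (hy : Function.Injective y)
    (ψ : ι → ℝ) : ∀ᵐ x ∂σ, ∀ i j, i ≠ j → inner ℝ x (y i) - ψ i ≠ inner ℝ x (y j) - ψ j := by
  rw [ae_all_iff]; intro i
  rw [ae_all_iff]; intro j
  by_cases hij : i = j
  · exact Eventually.of_forall fun x h => absurd hij h
  · have h0 : σ {x | inner ℝ x (y i - y j) = ψ i - ψ j} = 0 :=
      hσ (volume_hyperplane (y i - y j) (sub_ne_zero.2 (hy.ne hij)) (ψ i - ψ j))
    have : ∀ᵐ x ∂σ, ¬ (inner ℝ x (y i - y j) = ψ i - ψ j) := by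
      rw [ae_iff]; simpa using h0
    filter_upwards [this] with x hx _ h
    refine hx ?_
    rw [inner_sub_right]
    linarith

/-- Derivative of the potential in the direction of one label, away from ties. -/
theorem hasDerivAt_phi [DecidableEq ι] (y : ι → E) (ψ : ι → ℝ) (i : ι) (x : E)
    (hx : ∀ i j, i ≠ j → inner ℝ x (y i) - ψ i ≠ inner ℝ x (y j) - ψ j) :
    HasDerivAt (fun t : ℝ => phi y (fun k => ψ k + if k = i then t else 0) x)
      ((cell y ψ i).indicator (fun _ => (-1 : ℝ)) x) 0 := by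
  by_cases hi : x ∈ cell y ψ i
  · rw [indicator_of_mem hi]
    have hev : ∀ᶠ t in 𝓝 (0 : ℝ), phi y (fun k => ψ k + if k = i then t else 0) x
        = (inner ℝ x (y i) - ψ i) - t := by
      have h1 : ∀ j, ∀ᶠ t in 𝓝 (0 : ℝ), j ≠ i →
          inner ℝ x (y j) - ψ j < (inner ℝ x (y i) - ψ i) - t := by
        intro j
        by_cases hj : j = i
        · exact Eventually.of_forall fun t h => absurd hj h
        · have hlt : inner ℝ x (y j) - ψ j < (inner ℝ x (y i) - ψ i) - 0 := by
            rw [sub_zero]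
            exact lt_of_le_of_ne (hi j) (hx j i hj)
          have hc : ContinuousAt (fun t : ℝ => (inner ℝ x (y i) - ψ i) - t) 0 := by fun_prop
          filter_upwards [hc.eventually (lt_mem_nhds hlt)] with t ht _
          exact ht
      filter_upwards [eventually_all.2 h1] with t ht
      apply le_antisymm
      · refine phi_le fun j => ?_
        by_cases hj : j = i
        · subst hj; simp only [if_true]; linarith
        · simp only [if_neg hj, add_zero]; exact (ht j hj).le
      · have := le_phi y (fun k => ψ k + if k = i then t else 0) x i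
        simp only [if_true] at this
        linarith
    have h2 : HasDerivAt (fun t : ℝ => (inner ℝ x (y i) - ψ i) - t) (-1) 0 := by
      simpa using (hasDerivAt_id (0 : ℝ)).const_sub (inner ℝ x (y i) - ψ i)
    exact h2.congr_of_eventuallyEq hev
  · rw [indicator_of_notMem hi]
    obtain ⟨k, hk⟩ := exists_phi_eq y ψ x
    have hki : k ≠ i := by
      rintro rfl
      exact hi (mem_cell_iff.2 hk)
    have hlt : inner ℝ x (y i) - ψ i < inner ℝ x (y k) - ψ k := by
      refine lt_of_le_of_ne ?_ (hx i k hki.symm)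
      rw [← hk]; exact le_phi y ψ x i
    have hev : ∀ᶠ t in 𝓝 (0 : ℝ), phi y (fun k => ψ k + if k = i then t else 0) x
        = inner ℝ x (y k) - ψ k := by
      have hc : ContinuousAt (fun t : ℝ => (inner ℝ x (y i) - ψ i) - t) 0 := by fun_prop
      have hlt' : (inner ℝ x (y i) - ψ i) - 0 < inner ℝ x (y k) - ψ k := by simpa using hlt
      filter_upwards [hc.eventually (gt_mem_nhds hlt')] with t ht
      apply le_antisymm
      · refine phi_le fun j => ?_
        by_cases hj : j = i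
        · subst hj; simp only [if_true]; linarith
        · simp only [if_neg hj, add_zero]; rw [← hk]; exact le_phi y ψ x j
      · have := le_phi y (fun k => ψ k + if k = i then t else 0) x k
        simp only [if_neg hki, add_zero] at this
        linarith
    exact (hasDerivAt_const (0 : ℝ) _).congr_of_eventuallyEq hev

/-- A minimiser of the semi-dual functional has cells of the prescribed masses. -/
theorem cell_mass_of_isMin {σ : Measure E} [IsFiniteMeasure σ] (hσ : σ ≪ volume) {R : ℝ}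
    (hR : ∀ᵐ x ∂σ, ‖x‖ ≤ R) {y : ι → E} (hy : Function.Injective y) (m : ι → ℝ) (ψ : ι → ℝ)
    (hmin : ∀ ψ', semiDual σ m y ψ ≤ semiDual σ m y ψ') (i : ι) : σ.real (cell y ψ i) = m i := by
  classical
  have hF : HasDerivAt (fun t : ℝ => ∫ x, phi y (fun k => ψ k + if k = i then t else 0) x ∂σ)
      (∫ x, (cell y ψ i).indicator (fun _ => (-1 : ℝ)) x ∂σ) 0 := by
    refine (hasDerivAt_integral_of_dominated_loc_of_lip (bound := fun _ => 1)
      (F := fun t x => phi y (fun k => ψ k + if k = i then t else 0) x) (x₀ := 0)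
      (s := univ) Filter.univ_mem ?_ ?_ ?_ ?_ (integrable_const _) ?_).2
    · exact Eventually.of_forall fun t => (continuous_phi y _).aestronglyMeasurable
    · exact integrable_phi hR y _
    · exact (measurable_const.indicator (measurableSet_cell y ψ i)).aestronglyMeasurable
    · refine Eventually.of_forall fun x => ?_
      rw [lipschitzOnWith_univ]
      refine LipschitzWith.of_dist_le_mul fun s t => ?_
      rw [Real.dist_eq, Real.dist_eq]
      refine phi_lipschitz_psi y _ _ _ (fun k => ?_) x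
      by_cases hk : k = i
      · simp [hk]
      · simp [hk]
    · filter_upwards [ae_no_tie hσ hy ψ] with x hx
      exact hasDerivAt_phi y ψ i x hx
  have hS : HasDerivAt (fun t : ℝ => ∑ k, m k * (ψ k + if k = i then t else 0)) (m i) 0 := by
    have : (fun t : ℝ => ∑ k, m k * (ψ k + if k = i then t else 0))
        = fun t : ℝ => (∑ k, m k * ψ k) + m i * t := by
      ext t
      simp only [mul_add, Finset.sum_add_distrib, mul_ite, mul_zero, Finset.sum_ite_eq',
        Finset.mem_univ, if_true]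
    rw [this]
    simpa using ((hasDerivAt_id (0 : ℝ)).const_mul (m i)).const_add (∑ k, m k * ψ k)
  have hJ := hF.add hS
  have hloc : IsLocalMin ((fun t : ℝ => ∫ x, phi y (fun k => ψ k + if k = i then t else 0) x ∂σ)
      + fun t : ℝ => ∑ k, m k * (ψ k + if k = i then t else 0)) 0 := by
    refine Eventually.of_forall fun t => ?_
    have h0 : (fun k => ψ k + if k = i then (0 : ℝ) else 0) = ψ := by ext k; simp
    have := hmin (fun k => ψ k + if k = i then t else 0)
    unfold semiDual at this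
    change (∫ x, phi y (fun k => ψ k + if k = i then (0 : ℝ) else 0) x ∂σ)
        + ∑ k, m k * (ψ k + if k = i then (0 : ℝ) else 0)
      ≤ (∫ x, phi y (fun k => ψ k + if k = i then t else 0) x ∂σ)
        + ∑ k, m k * (ψ k + if k = i then t else 0)
    rw [h0]
    have h1 : ∑ k, m k * (ψ k + if k = i then (0 : ℝ) else 0) = ∑ k, m k * ψ k := by
      simp
    rw [h1]
    exact this
  have hz := hloc.hasDerivAt_eq_zero hJ
  rw [integral_indicator (measurableSet_cell y ψ i), integral_const, smul_eq_mul,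
    measureReal_restrict_apply_univ] at hz
  linarith

/-- **Semi-discrete optimal transport**: existence of a potential with prescribed cell masses. -/
theorem exists_potential (σ : Measure E) [IsFiniteMeasure σ] (hσ : σ ≪ volume) (R : ℝ)
    (hR : ∀ᵐ x ∂σ, ‖x‖ ≤ R) (y : ι → E) (hy : Function.Injective y) (m : ι → ℝ)
    (hm : ∀ i, 0 < m i) (hsum : ∑ i, m i = σ.real univ) :
    ∃ ψ : ι → ℝ, ∀ i, σ.real (cell y ψ i) = m i := by
  obtain ⟨ψ, hψ⟩ := exists_min_semiDual σ R hR y m hm hsum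
  exact ⟨ψ, cell_mass_of_isMin hσ hR hy m ψ hψ⟩

omit [FiniteDimensional ℝ E] [Nonempty ι] in
/-- `x ↦ ⟨x, v⟩` is integrable for a finite measure carried by a bounded set. -/
theorem integrable_inner_const {σ : Measure E} [IsFiniteMeasure σ] {R : ℝ}
    (hR : ∀ᵐ x ∂σ, ‖x‖ ≤ R) (v : E) : Integrable (fun x => inner ℝ x v) σ := by
  refine Integrable.of_bound (C := R * ‖v‖) (by fun_prop) ?_
  filter_upwards [hR] with x hx
  exact (norm_inner_le_norm x v).trans (by gcongr)

omit [FiniteDimensional ℝ E] [Nonempty ι] in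
/-- Splitting an integral along a finite a.e. partition. -/
theorem integral_eq_sum_of_ae_partition {σ : Measure E} {A : ι → Set E}
    (hA : ∀ i, MeasurableSet (A i)) (hdisj : Pairwise (Function.onFun (AEDisjoint σ) A))
    (hcov : ∀ᵐ x ∂σ, ∃ i, x ∈ A i) {f : E → ℝ} (hf : Integrable f σ) :
    ∫ x, f x ∂σ = ∑ i, ∫ x in A i, f x ∂σ := by
  have h1 : σ.restrict (⋃ i, A i) = σ := by
    have : (⋃ i, A i) =ᵐ[σ] (univ : Set E) := by
      rw [eventuallyEq_univ]
      filter_upwards [hcov] with x hx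
      exact mem_iUnion.2 hx
    rw [Measure.restrict_congr_set this, Measure.restrict_univ]
  have h2 := integral_iUnion_ae (μ := σ) (f := f) (s := A) (fun i => (hA i).nullMeasurableSet)
    hdisj hf.integrableOn
  rw [h1] at h2
  rw [h2, tsum_fintype]

/-- Weak duality: the value of a labelled a.e. partition with masses `m` is at most the semi-dual
functional at any `ψ`. -/
theorem weak_duality {σ : Measure E} [IsFiniteMeasure σ] {R : ℝ} (hR : ∀ᵐ x ∂σ, ‖x‖ ≤ R)
    {m : ι → ℝ} {A : ι → Set E} (hA : ∀ i, MeasurableSet (A i))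
    (hdisj : Pairwise (Function.onFun (AEDisjoint σ) A)) (hcov : ∀ᵐ x ∂σ, ∃ i, x ∈ A i)
    (hmass : ∀ i, σ.real (A i) = m i) (y : ι → E) (ψ : ι → ℝ) :
    ∑ i, ∫ x in A i, inner ℝ x (y i) ∂σ ≤ semiDual σ m y ψ := by
  unfold semiDual
  rw [integral_eq_sum_of_ae_partition hA hdisj hcov (integrable_phi hR y ψ),
    ← Finset.sum_add_distrib]
  refine Finset.sum_le_sum fun i _ => ?_
  have h1 : ∫ x in A i, (inner ℝ x (y i) - ψ i) ∂σ ≤ ∫ x in A i, phi y ψ x ∂σ := by
    refine integral_mono ?_ (integrable_phi hR y ψ).integrableOn fun x => le_phi y ψ x i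
    exact ((integrable_inner_const hR (y i)).sub (integrable_const _)).integrableOn
  rw [integral_sub (integrable_inner_const hR (y i)).integrableOn (integrable_const _).integrableOn,
    integral_const, smul_eq_mul, measureReal_restrict_apply_univ, hmass i] at h1
  linarith

/-- Strong duality for the cells of a potential with the right masses. -/
theorem duality {σ : Measure E} [IsFiniteMeasure σ] (hσ : σ ≪ volume) {R : ℝ}
    (hR : ∀ᵐ x ∂σ, ‖x‖ ≤ R) {y : ι → E} (hy : Function.Injective y) {m : ι → ℝ} {ψ : ι → ℝ}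
    (hψ : ∀ i, σ.real (cell y ψ i) = m i) :
    ∑ i, ∫ x in cell y ψ i, inner ℝ x (y i) ∂σ = semiDual σ m y ψ := by
  unfold semiDual
  rw [integral_eq_sum_of_ae_partition (measurableSet_cell y ψ) (cell_pairwise_aedisjoint hσ hy ψ)
    (Eventually.of_forall fun x => mem_iUnion.1 (iUnion_cell y ψ ▸ mem_univ x))
    (integrable_phi hR y ψ), ← Finset.sum_add_distrib]
  refine Finset.sum_congr rfl fun i _ => ?_
  have h1 : ∫ x in cell y ψ i, phi y ψ x ∂σ = ∫ x in cell y ψ i, (inner ℝ x (y i) - ψ i) ∂σ :=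
    setIntegral_congr_fun (measurableSet_cell y ψ i) fun x hx => phi_eq_of_mem_cell hx
  rw [h1, integral_sub (integrable_inner_const hR (y i)).integrableOn
    (integrable_const _).integrableOn,
    integral_const, smul_eq_mul, measureReal_restrict_apply_univ, hψ i]
  ring

/-- A potential whose cells have the right masses minimises the semi-dual functional. -/
theorem semiDual_min_of_cell_mass {σ : Measure E} [IsFiniteMeasure σ] (hσ : σ ≪ volume) {R : ℝ}
    (hR : ∀ᵐ x ∂σ, ‖x‖ ≤ R) {y : ι → E} (hy : Function.Injective y) {m : ι → ℝ} {ψ : ι → ℝ}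
    (hψ : ∀ i, σ.real (cell y ψ i) = m i) (ψ' : ι → ℝ) :
    semiDual σ m y ψ ≤ semiDual σ m y ψ' := by
  rw [← duality hσ hR hy hψ]
  exact weak_duality hR (measurableSet_cell y ψ) (cell_pairwise_aedisjoint hσ hy ψ)
    (Eventually.of_forall fun x => mem_iUnion.1 (iUnion_cell y ψ ▸ mem_univ x)) hψ y ψ'

/-- The transport value `TT(σ, Σ m_i δ_{y_i})` (maximal correlation), defined by duality. -/
noncomputable def TT (σ : Measure E) (m : ι → ℝ) (y : ι → E) : ℝ := ⨅ ψ : ι → ℝ, semiDual σ m y ψ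

theorem exists_TT_eq (σ : Measure E) [IsFiniteMeasure σ] (R : ℝ)
    (hR : ∀ᵐ x ∂σ, ‖x‖ ≤ R) (y : ι → E) (m : ι → ℝ) (hm : ∀ i, 0 < m i)
    (hsum : ∑ i, m i = σ.real univ) :
    ∃ ψ, TT σ m y = semiDual σ m y ψ ∧ ∀ ψ', semiDual σ m y ψ ≤ semiDual σ m y ψ' := by
  obtain ⟨ψ, hψ⟩ := exists_min_semiDual σ R hR y m hm hsum
  refine ⟨ψ, le_antisymm ?_ ?_, hψ⟩
  · exact ciInf_le ⟨semiDual σ m y ψ, by rintro _ ⟨ψ', rfl⟩; exact hψ ψ'⟩ ψ
  · exact le_ciInf hψ

theorem TT_eq_of_isMin {σ : Measure E} {y : ι → E} {m : ι → ℝ} {ψ : ι → ℝ}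
    (hψ : ∀ ψ', semiDual σ m y ψ ≤ semiDual σ m y ψ') : TT σ m y = semiDual σ m y ψ := by
  refine le_antisymm ?_ ?_
  · exact ciInf_le ⟨semiDual σ m y ψ, by rintro _ ⟨ψ', rfl⟩; exact hψ ψ'⟩ ψ
  · exact le_ciInf hψ

theorem TT_le_semiDual {σ : Measure E} [IsFiniteMeasure σ] {R : ℝ}
    (hR : ∀ᵐ x ∂σ, ‖x‖ ≤ R) (y : ι → E) {m : ι → ℝ} (hm : ∀ i, 0 < m i)
    (hsum : ∑ i, m i = σ.real univ) (ψ : ι → ℝ) : TT σ m y ≤ semiDual σ m y ψ := by
  obtain ⟨ψ₀, h1, h2⟩ := exists_TT_eq σ R hR y m hm hsum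
  rw [h1]; exact h2 ψ

/-- `TT` is attained by the cells of a potential with the right masses. -/
theorem TT_eq_of_cell_mass {σ : Measure E} [IsFiniteMeasure σ] (hσ : σ ≪ volume) {R : ℝ}
    (hR : ∀ᵐ x ∂σ, ‖x‖ ≤ R) {y : ι → E} (hy : Function.Injective y) {m : ι → ℝ} {ψ : ι → ℝ}
    (hψ : ∀ i, σ.real (cell y ψ i) = m i) :
    TT σ m y = semiDual σ m y ψ ∧
      TT σ m y = ∑ i, ∫ x in cell y ψ i, inner ℝ x (y i) ∂σ := by
  have h := TT_eq_of_isMin (semiDual_min_of_cell_mass hσ hR hy hψ)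
  exact ⟨h, by rw [h, duality hσ hR hy hψ]⟩

/-- Weak duality with `TT`: any labelled a.e. partition with masses `m` has value at most `TT`. -/
theorem partition_le_TT {σ : Measure E} [IsFiniteMeasure σ] {R : ℝ} (hR : ∀ᵐ x ∂σ, ‖x‖ ≤ R)
    {m : ι → ℝ} {A : ι → Set E} (hA : ∀ i, MeasurableSet (A i))
    (hdisj : Pairwise (Function.onFun (AEDisjoint σ) A)) (hcov : ∀ᵐ x ∂σ, ∃ i, x ∈ A i)
    (hmass : ∀ i, σ.real (A i) = m i) (y : ι → E) :
    ∑ i, ∫ x in A i, inner ℝ x (y i) ∂σ ≤ TT σ m y :=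
  le_ciInf fun ψ => weak_duality hR hA hdisj hcov hmass y ψ

theorem phi_sub_phi_le_of_dist (y y' : ι → E) (ψ : ι → ℝ) (x : E) (δ : ℝ)
    (h : ∀ i, ‖y i - y' i‖ ≤ δ) : phi y ψ x - phi y' ψ x ≤ ‖x‖ * δ := by
  rw [sub_le_iff_le_add]
  refine phi_le fun i => ?_
  have h1 := le_phi y' ψ x i
  have h2 : inner ℝ x (y i) - inner ℝ x (y' i) ≤ ‖x‖ * δ := by
    rw [← inner_sub_right]
    exact (real_inner_le_norm _ _).trans (by gcongr; exact h i)
  linarith

/-- `TT` is Lipschitz in the target points. -/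
theorem TT_le_TT_add {σ : Measure E} [IsFiniteMeasure σ] {R : ℝ}
    (hR : ∀ᵐ x ∂σ, ‖x‖ ≤ R) (y y' : ι → E) {m : ι → ℝ} (hm : ∀ i, 0 < m i)
    (hsum : ∑ i, m i = σ.real univ) (δ : ℝ) (h : ∀ i, ‖y i - y' i‖ ≤ δ) :
    TT σ m y ≤ TT σ m y' + R * δ * σ.real univ := by
  have hδ : 0 ≤ δ := (norm_nonneg _).trans (h (Classical.arbitrary ι))
  obtain ⟨ψ, h1, h2⟩ := exists_TT_eq σ R hR y' m hm hsum
  rw [h1]
  refine (TT_le_semiDual hR y hm hsum ψ).trans ?_
  unfold semiDual
  have h3 : ∫ x, phi y ψ x ∂σ - ∫ x, phi y' ψ x ∂σ ≤ R * δ * σ.real univ := by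
    rw [← integral_sub (integrable_phi hR y ψ) (integrable_phi hR y' ψ)]
    have : ∫ x, (phi y ψ x - phi y' ψ x) ∂σ ≤ ∫ _x, R * δ ∂σ := by
      refine integral_mono_ae ((integrable_phi hR y ψ).sub (integrable_phi hR y' ψ))
        (integrable_const _) ?_
      filter_upwards [hR] with x hx
      exact (phi_sub_phi_le_of_dist y y' ψ x δ h).trans (by gcongr)
    rw [integral_const, smul_eq_mul] at this
    linarith
  linarith

end Meas

end Crest.Agent.R82
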