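import Crest.Prelude.Def_QuadraticTransport
import Crest.Agent.R82.SemiDiscrete

/-! Row 82 (S0109), piece (B): barycentre estimate for Laguerre cells from Prekopa-Leindler. -/

set_option autoImplicit false
set_option linter.unusedSectionVars false
open MeasureTheory Set Filter Topology
open scoped ENNReal NNReal
open Crest.AnalysisR.OT

namespace Crest.Agent.R82.CellB

/-- Statement of the midpoint Prekopa-Leindler inequality. -/
def PLHalf (d : ℕ) : Prop := ∀ (f g h : EuclideanSpace ℝ (Fin d) → ℝ≥0∞),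
    Measurable f → Measurable g → Measurable h →
    (∀ x y, f x * g y ≤ h ((1 / 2 : ℝ) • (x + y)) ^ 2) →
    (∫⁻ x, f x) * (∫⁻ x, g x) ≤ (∫⁻ x, h x) ^ 2

variable {d : ℕ}


/-- PL for the uniform measure and sets. -/
lemma pl_rho (hPL : PLHalf d) {K : Set (EuclideanSpace ℝ (Fin d))} (hK : MeasurableSet K) {A B M : Set (EuclideanSpace ℝ (Fin d))}
    (hA : MeasurableSet A) (hB : MeasurableSet B) (hM : MeasurableSet M)
    (hmid : ∀ x ∈ A ∩ K, ∀ y ∈ B ∩ K, (1 / 2 : ℝ) • (x + y) ∈ M ∩ K)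
    {f g h : EuclideanSpace ℝ (Fin d) → ℝ≥0∞} (hf : Measurable f) (hg : Measurable g) (hh : Measurable h)
    (H : ∀ x ∈ A ∩ K, ∀ y ∈ B ∩ K, f x * g y ≤ h ((1 / 2 : ℝ) • (x + y)) ^ 2) :
    (∫⁻ x in A, f x ∂(uniformProbOn K)) * (∫⁻ x in B, g x ∂(uniformProbOn K))
      ≤ (∫⁻ x in M, h x ∂(uniformProbOn K)) ^ 2 := by
  have key := hPL ((A ∩ K).indicator f) ((B ∩ K).indicator g) ((M ∩ K).indicator h)
    (hf.indicator (hA.inter hK)) (hg.indicator (hB.inter hK)) (hh.indicator (hM.inter hK)) (by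
      intro x y
      by_cases hx : x ∈ A ∩ K
      · by_cases hy : y ∈ B ∩ K
        · rw [indicator_of_mem hx, indicator_of_mem hy, indicator_of_mem (hmid x hx y hy)]
          exact H x hx y hy
        · rw [indicator_of_notMem hy, mul_zero]; exact zero_le
      · rw [indicator_of_notMem hx, zero_mul]; exact zero_le)
  rw [lintegral_indicator (hA.inter hK), lintegral_indicator (hB.inter hK),
    lintegral_indicator (hM.inter hK)] at key
  have e : ∀ (S : Set (EuclideanSpace ℝ (Fin d))) (hS : MeasurableSet S) (φ : EuclideanSpace ℝ (Fin d) → ℝ≥0∞),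
      ∫⁻ x in S, φ x ∂(uniformProbOn K) = (volume K)⁻¹ * ∫⁻ x in S ∩ K, φ x := by
    intro S hS φ
    unfold uniformProbOn
    rw [Measure.restrict_smul, lintegral_smul_measure, Measure.restrict_restrict hS, smul_eq_mul]
  rw [e A hA, e B hB, e M hM]
  calc (volume K)⁻¹ * (∫⁻ x in A ∩ K, f x) * ((volume K)⁻¹ * ∫⁻ x in B ∩ K, g x)
      = (volume K)⁻¹ ^ 2 * ((∫⁻ x in A ∩ K, f x) * ∫⁻ x in B ∩ K, g x) := by ring
    _ ≤ (volume K)⁻¹ ^ 2 * (∫⁻ x in M ∩ K, h x) ^ 2 := by gcongr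
    _ = ((volume K)⁻¹ * ∫⁻ x in M ∩ K, h x) ^ 2 := by ring

/-- the Gaussian weight -/
noncomputable def wt (κ : ℝ) (x : EuclideanSpace ℝ (Fin d)) : ℝ := Real.exp (-(κ / 2) * ‖x‖ ^ 2)

lemma wt_pos (κ : ℝ) (x : EuclideanSpace ℝ (Fin d)) : 0 < wt κ x := Real.exp_pos _

lemma continuous_wt (κ : ℝ) : Continuous (wt κ : EuclideanSpace ℝ (Fin d) → ℝ) := by unfold wt; fun_prop

lemma pl_exponent {κ L : ℝ} (hκ : 0 < κ) (x y : EuclideanSpace ℝ (Fin d)) {t : ℝ} (ht : t ≤ L * ‖x - y‖) :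
    -(κ / 2) * ‖x‖ ^ 2 + -(κ / 2) * ‖y‖ ^ 2 + t
      ≤ 2 * (-(κ / 2) * ‖(1 / 2 : ℝ) • (x + y)‖ ^ 2 + L ^ 2 / (2 * κ)) := by
  have h1 := parallelogram_law_with_norm ℝ x y
  rw [norm_smul, mul_pow]
  have h2 : ‖(1 / 2 : ℝ)‖ ^ 2 = 1 / 4 := by norm_num
  rw [h2]
  have h3 : L * ‖x - y‖ ≤ κ / 4 * ‖x - y‖ ^ 2 + L ^ 2 / κ := by
    have : 0 ≤ κ / 4 * (‖x - y‖ - 2 * L / κ) ^ 2 := by positivity
    have e : κ / 4 * (‖x - y‖ - 2 * L / κ) ^ 2
        = κ / 4 * ‖x - y‖ ^ 2 - L * ‖x - y‖ + L ^ 2 / κ := by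
      field_simp; ring
    linarith
  have e2 : 2 * (L ^ 2 / (2 * κ)) = L ^ 2 / κ := by field_simp
  nlinarith

section
variable {K : Set (EuclideanSpace ℝ (Fin d))}

lemma isProb (hKc : IsCompact K) (hKi : (interior K).Nonempty) :
    IsProbabilityMeasure (uniformProbOn K) := by
  constructor
  unfold uniformProbOn
  have h0 : volume K ≠ 0 := by
    intro h
    have h1 : volume (interior K) = 0 := measure_mono_null interior_subset h
    exact (isOpen_interior.measure_pos volume hKi).ne' h1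
  rw [Measure.smul_apply, Measure.restrict_apply MeasurableSet.univ, univ_inter, smul_eq_mul]
  exact ENNReal.inv_mul_cancel h0 hKc.measure_lt_top.ne

lemma ae_mem (hKc : IsCompact K) : ∀ᵐ x ∂(uniformProbOn K), x ∈ K := by
  unfold uniformProbOn
  exact Measure.ae_smul_measure (ae_restrict_mem hKc.measurableSet) _

/-- bounded on K implies integrable -/
lemma integrable_of_bdd (hKc : IsCompact K) (hKi : (interior K).Nonempty) {f : EuclideanSpace ℝ (Fin d) → ℝ}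
    (hf : Measurable f) {C : ℝ} (hC : ∀ x ∈ K, |f x| ≤ C) : Integrable f (uniformProbOn K) := by
  have := isProb hKc hKi
  refine Integrable.of_bound hf.aestronglyMeasurable C ?_
  filter_upwards [ae_mem hKc] with x hx
  simpa using hC x hx

/-- exponential Jensen -/
lemma jensen_exp {ν : Measure (EuclideanSpace ℝ (Fin d))} {w u : EuclideanSpace ℝ (Fin d) → ℝ} (hw : ∀ x, 0 ≤ w x)
    (hi0 : Integrable w ν) (hi1 : Integrable (fun x => u x * w x) ν)
    (hi2 : Integrable (fun x => Real.exp (u x) * w x) ν) (ha : 0 < ∫ x, w x ∂ν) :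
    (∫ x, w x ∂ν) * Real.exp ((∫ x, u x * w x ∂ν) / ∫ x, w x ∂ν)
      ≤ ∫ x, Real.exp (u x) * w x ∂ν := by
  set a := ∫ x, w x ∂ν with haa
  set p := (∫ x, u x * w x ∂ν) / a with hp
  have h1 : ∀ x, Real.exp p * (1 - p) * w x + Real.exp p * (u x * w x)
      ≤ Real.exp (u x) * w x := by
    intro x
    have h2 := Real.add_one_le_exp (u x - p)
    have h3 : Real.exp (u x) = Real.exp p * Real.exp (u x - p) := by
      rw [← Real.exp_add]; congr 1; ring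
    rw [h3]
    have h4 := mul_le_mul_of_nonneg_left h2 (Real.exp_pos p).le
    have h5 := mul_le_mul_of_nonneg_right h4 (hw x)
    nlinarith
  have h2 := integral_mono ((hi0.const_mul (Real.exp p * (1 - p))).add
    (hi1.const_mul (Real.exp p))) hi2 h1
  have h3 : ∫ x, (Real.exp p * (1 - p) * w x + Real.exp p * (u x * w x)) ∂ν
      = a * Real.exp p := by
    rw [integral_add (hi0.const_mul _) (hi1.const_mul _), integral_const_mul, integral_const_mul]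
    have : ∫ x, u x * w x ∂ν = p * a := by rw [hp]; field_simp
    rw [this]; ring
  calc a * Real.exp p = _ := h3.symm
    _ ≤ _ := h2


lemma integrable_cont (hKc : IsCompact K) (hKi : (interior K).Nonempty)
    {f : EuclideanSpace ℝ (Fin d) → ℝ} (hf : Continuous f) : Integrable f (uniformProbOn K) := by
  obtain ⟨C, hC⟩ := hKc.exists_bound_of_continuousOn hf.continuousOn
  exact integrable_of_bdd hKc hKi hf.measurable (C := C) (fun x hx => by simpa using hC x hx)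

/-- The key inequality on one cell. -/
lemma cell_key (hPL : PLHalf d) (hKc : IsCompact K) (hKi : (interior K).Nonempty)
    {κ : ℝ} (hκ : 0 < κ) {A B M : Set (EuclideanSpace ℝ (Fin d))}
    (hA : MeasurableSet A) (hB : MeasurableSet B) (hM : MeasurableSet M)
    (hmid : ∀ x ∈ A ∩ K, ∀ y ∈ B ∩ K, (1 / 2 : ℝ) • (x + y) ∈ M ∩ K)
    {u : EuclideanSpace ℝ (Fin d) → ℝ} (hu : Continuous u)
    (hlip : ∀ x ∈ K, ∀ y ∈ K, u x - u y ≤ ‖x - y‖)
    (ha : 0 < ∫ x in A, wt κ x ∂(uniformProbOn K)) (hb : 0 < ∫ x in B, wt κ x ∂(uniformProbOn K)) :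
    2 * (∫ x in A, wt κ x ∂(uniformProbOn K)) * (∫ x in B, wt κ x ∂(uniformProbOn K))
      / ((∫ x in A, wt κ x ∂(uniformProbOn K)) + ∫ x in B, wt κ x ∂(uniformProbOn K))
      * (1 + κ / 8 * ((∫ x in A, u x * wt κ x ∂(uniformProbOn K))
            / (∫ x in A, wt κ x ∂(uniformProbOn K))
          - (∫ x in B, u x * wt κ x ∂(uniformProbOn K))
            / (∫ x in B, wt κ x ∂(uniformProbOn K))) ^ 2)
      ≤ ∫ x in M, wt κ x ∂(uniformProbOn K) := by
  set ρ := uniformProbOn K with hρ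
  set a := ∫ x in A, wt κ x ∂ρ with haa
  set b := ∫ x in B, wt κ x ∂ρ with hbb
  set c := ∫ x in M, wt κ x ∂ρ with hcc
  set p := (∫ x in A, u x * wt κ x ∂ρ) / a with hp
  set q := (∫ x in B, u x * wt κ x ∂ρ) / b with hq
  set Δ := p - q with hΔ
  set β := κ * Δ / 2 with hβ
  have hcw : Continuous (wt κ : EuclideanSpace ℝ (Fin d) → ℝ) := continuous_wt κ
  have hc0 : 0 ≤ c := integral_nonneg (fun x => (wt_pos κ x).le)
  -- PL
  have hPL1 := pl_rho hPL hKc.measurableSet hA hB hM hmid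
    (f := fun x => ENNReal.ofReal (Real.exp (β * u x) * wt κ x))
    (g := fun x => ENNReal.ofReal (Real.exp (-β * u x) * wt κ x))
    (h := fun x => ENNReal.ofReal (Real.exp (β ^ 2 / (2 * κ)) * wt κ x))
    (by exact ENNReal.measurable_ofReal.comp (by fun_prop : Continuous fun x => Real.exp (β * u x) * wt κ x).measurable)
    (by exact ENNReal.measurable_ofReal.comp (by fun_prop : Continuous fun x => Real.exp (-β * u x) * wt κ x).measurable)
    (by exact ENNReal.measurable_ofReal.comp (by fun_prop : Continuous fun x => Real.exp (β ^ 2 / (2 * κ)) * wt κ x).measurable)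
    (by
      intro x hx y hy
      have hx0 := wt_pos κ x
      have hy0 := wt_pos κ y
      rw [← ENNReal.ofReal_mul (by positivity), ← ENNReal.ofReal_pow (by
        have := wt_pos κ ((1 / 2 : ℝ) • (x + y)); positivity)]
      apply ENNReal.ofReal_le_ofReal
      unfold wt
      rw [← Real.exp_add, ← Real.exp_add, ← Real.exp_add, ← Real.exp_add, ← Real.exp_nat_mul]
      apply Real.exp_le_exp.mpr
      have ht : β * (u x - u y) ≤ |β| * ‖x - y‖ := by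
        have h1 := hlip x hx.2 y hy.2
        have h2 := hlip y hy.2 x hx.2
        rw [norm_sub_rev] at h2
        calc β * (u x - u y) ≤ |β * (u x - u y)| := le_abs_self _
          _ = |β| * |u x - u y| := abs_mul _ _
          _ ≤ |β| * ‖x - y‖ := mul_le_mul_of_nonneg_left (abs_le.mpr ⟨by linarith, h1⟩) (abs_nonneg _)
      have h3 := pl_exponent hκ x y ht
      rw [sq_abs] at h3
      push_cast
      linarith)
  have eA : ∫⁻ x in A, ENNReal.ofReal (Real.exp (β * u x) * wt κ x) ∂ρ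
      = ENNReal.ofReal (∫ x in A, Real.exp (β * u x) * wt κ x ∂ρ) := by
    rw [ofReal_integral_eq_lintegral_ofReal]
    · exact (integrable_cont hKc hKi (by fun_prop)).restrict
    · exact Eventually.of_forall fun x => by have := wt_pos κ x; positivity
  have eB : ∫⁻ x in B, ENNReal.ofReal (Real.exp (-β * u x) * wt κ x) ∂ρ
      = ENNReal.ofReal (∫ x in B, Real.exp (-β * u x) * wt κ x ∂ρ) := by
    rw [ofReal_integral_eq_lintegral_ofReal]
    · exact (integrable_cont hKc hKi (by fun_prop)).restrict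
    · exact Eventually.of_forall fun x => by have := wt_pos κ x; positivity
  have eM : ∫⁻ x in M, ENNReal.ofReal (Real.exp (β ^ 2 / (2 * κ)) * wt κ x) ∂ρ
      = ENNReal.ofReal (Real.exp (β ^ 2 / (2 * κ)) * c) := by
    rw [← integral_const_mul, ofReal_integral_eq_lintegral_ofReal]
    · exact (integrable_cont hKc hKi (by fun_prop)).restrict
    · exact Eventually.of_forall fun x => by have := wt_pos κ x; positivity
  rw [eA, eB, eM] at hPL1
  have hIA : 0 ≤ ∫ x in A, Real.exp (β * u x) * wt κ x ∂ρ :=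
    integral_nonneg (fun x => by have := wt_pos κ x; positivity)
  rw [← ENNReal.ofReal_mul hIA, ← ENNReal.ofReal_pow (by positivity),
    ENNReal.ofReal_le_ofReal_iff (by positivity)] at hPL1
  -- Jensen
  have jA := jensen_exp (ν := ρ.restrict A) (w := wt κ) (u := fun x => β * u x)
    (fun x => (wt_pos κ x).le) (integrable_cont hKc hKi hcw).restrict
    (integrable_cont hKc hKi (by fun_prop)).restrict
    (integrable_cont hKc hKi (by fun_prop)).restrict ha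
  have jB := jensen_exp (ν := ρ.restrict B) (w := wt κ) (u := fun x => -β * u x)
    (fun x => (wt_pos κ x).le) (integrable_cont hKc hKi hcw).restrict
    (integrable_cont hKc hKi (by fun_prop)).restrict
    (integrable_cont hKc hKi (by fun_prop)).restrict hb
  have e1 : (∫ x in A, β * u x * wt κ x ∂ρ) / a = β * p := by
    rw [hp, ← mul_div_assoc, ← integral_const_mul]
    congr 2
    funext x; ring
  have e2 : (∫ x in B, -β * u x * wt κ x ∂ρ) / b = -β * q := by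
    rw [hq, ← mul_div_assoc, ← integral_const_mul]
    congr 2
    funext x; ring
  rw [← haa, e1] at jA
  rw [← hbb, e2] at jB
  have hab : a * b * Real.exp (β * Δ) ≤ (Real.exp (β ^ 2 / (2 * κ)) * c) ^ 2 := by
    calc a * b * Real.exp (β * Δ) = (a * Real.exp (β * p)) * (b * Real.exp (-β * q)) := by
          rw [hΔ]
          have : Real.exp (β * (p - q)) = Real.exp (β * p) * Real.exp (-β * q) := by
            rw [← Real.exp_add]; congr 1; ring
          rw [this]; ring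
      _ ≤ _ := mul_le_mul jA jB (by positivity) hIA
      _ ≤ _ := hPL1
  have hfin : a * b * (Real.exp (κ * Δ ^ 2 / 8)) ^ 2 ≤ c ^ 2 := by
    have h1 : Real.exp (β * Δ) = (Real.exp (β ^ 2 / (2 * κ))) ^ 2 * (Real.exp (κ * Δ ^ 2 / 8)) ^ 2 := by
      rw [← Real.exp_nat_mul, ← Real.exp_nat_mul, ← Real.exp_add]
      congr 1
      rw [hβ]; push_cast; field_simp; ring
    rw [h1, mul_pow] at hab
    have h2 : 0 < (Real.exp (β ^ 2 / (2 * κ))) ^ 2 := by positivity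
    have h3 : (Real.exp (β ^ 2 / (2 * κ))) ^ 2 * (a * b * (Real.exp (κ * Δ ^ 2 / 8)) ^ 2)
        ≤ (Real.exp (β ^ 2 / (2 * κ))) ^ 2 * c ^ 2 := by
      calc _ = a * b * ((Real.exp (β ^ 2 / (2 * κ))) ^ 2 * (Real.exp (κ * Δ ^ 2 / 8)) ^ 2) := by ring
        _ ≤ _ := hab
    exact le_of_mul_le_mul_left h3 h2
  have hsq : (2 * a * b / (a + b) * (1 + κ / 8 * Δ ^ 2)) ^ 2 ≤ c ^ 2 := by
    refine le_trans ?_ hfin
    rw [mul_pow]
    have h1 : (2 * a * b / (a + b)) ^ 2 ≤ a * b := by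
      rw [div_pow, div_le_iff₀ (by positivity)]
      nlinarith [mul_pos ha hb, sq_nonneg (a - b), mul_nonneg (mul_pos ha hb).le (sq_nonneg (a - b))]
    have h2 : (1 + κ / 8 * Δ ^ 2) ^ 2 ≤ (Real.exp (κ * Δ ^ 2 / 8)) ^ 2 := by
      apply pow_le_pow_left₀ (by positivity)
      have := Real.add_one_le_exp (κ * Δ ^ 2 / 8)
      linarith
    exact mul_le_mul h1 h2 (by positivity) (by positivity)
  exact (pow_le_pow_iff_left₀ (by positivity) hc0 (by norm_num)).mp hsq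

end


section Alg

variable {ι : Type*} [Fintype ι]

lemma alg_one {m a b c δ κ : ℝ} (hm : 0 < m) (ha : 99 / 100 * m ≤ a) (hb : 3 / 5 * m ≤ b)
    (hκ : 0 < κ) (h : 2 * a * b / (a + b) * (1 + κ / 8 * δ ^ 2) ≤ c) :
    (a + b) / 2 - (a - b) ^ 2 / (a + b) / 2 + κ / 16 * (m * δ ^ 2) ≤ c := by
  have ha0 : 0 < a := by linarith
  have hb0 : 0 < b := by linarith
  have h1 : 2 * a * b / (a + b) = (a + b) / 2 - (a - b) ^ 2 / (a + b) / 2 := by
    field_simp; ring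
  have h2 : 1 / 2 * m ≤ 2 * a * b / (a + b) := by
    rw [le_div_iff₀ (by positivity)]
    nlinarith [mul_le_mul_of_nonneg_left hb ha0.le, mul_le_mul_of_nonneg_left ha hb0.le]
  have h3 : 0 ≤ κ / 8 * δ ^ 2 := by positivity
  have h4 : 1 / 2 * m * (κ / 8 * δ ^ 2) ≤ 2 * a * b / (a + b) * (κ / 8 * δ ^ 2) :=
    mul_le_mul_of_nonneg_right h2 h3
  rw [← h1]
  nlinarith

lemma alg_sum {m a b c δ : ι → ℝ} {κ Γ : ℝ} (hm : ∀ i, 0 < m i) (ha : ∀ i, 99 / 100 * m i ≤ a i)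
    (hb : ∀ i, 3 / 5 * m i ≤ b i) (hκ : 0 < κ) (hΓa : ∑ i, a i = Γ) (hΓb : ∑ i, b i = Γ)
    (hΓc : ∑ i, c i ≤ Γ)
    (h : ∀ i, 2 * a i * b i / (a i + b i) * (1 + κ / 8 * δ i ^ 2) ≤ c i) :
    ∑ i, m i * δ i ^ 2 ≤ 8 / κ * ∑ i, (a i - b i) ^ 2 / (a i + b i) := by
  have h1 : ∑ i, ((a i + b i) / 2 - (a i - b i) ^ 2 / (a i + b i) / 2 + κ / 16 * (m i * δ i ^ 2))
      ≤ ∑ i, c i := Finset.sum_le_sum fun i _ => alg_one (hm i) (ha i) (hb i) hκ (h i)
  rw [Finset.sum_add_distrib, Finset.sum_sub_distrib, ← Finset.sum_div, ← Finset.sum_div,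
    Finset.sum_add_distrib, ← Finset.mul_sum, hΓa, hΓb] at h1
  set S := ∑ i, (a i - b i) ^ 2 / (a i + b i) with hS
  have h2 : κ / 16 * ∑ i, m i * δ i ^ 2 ≤ S / 2 := by linarith
  rw [div_mul_eq_mul_div, le_div_iff₀ hκ]
  linarith

lemma alg_S {m a b G g2 δ : ℝ} (hm : 0 < m) (ha : 99 / 100 * m ≤ a) (hb : 3 / 5 * m ≤ b)
    (hb2 : b ≤ 2 * m) (hG : G ^ 2 ≤ 2 * m * g2) (hg2 : 0 ≤ g2)
    (hab : |b - a| ≤ b * |δ| + |G|) :
    (a - b) ^ 2 / (a + b) ≤ 4 * (m * δ ^ 2) + 4 * g2 := by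
  have ha0 : 0 < a := by linarith
  have hb0 : 0 < b := by linarith
  rw [div_le_iff₀ (by positivity)]
  have h1 : (a - b) ^ 2 ≤ (b * |δ| + |G|) ^ 2 := by
    rw [← sq_abs (a - b), abs_sub_comm]
    exact pow_le_pow_left₀ (abs_nonneg _) hab 2
  have h2 : (b * |δ| + |G|) ^ 2 ≤ 2 * (b ^ 2 * δ ^ 2) + 2 * G ^ 2 := by
    have := sq_nonneg (b * |δ| - |G|)
    have e1 := sq_abs δ
    have e2 := sq_abs G
    have e3 : (b * |δ|) ^ 2 = b ^ 2 * δ ^ 2 := by rw [mul_pow, sq_abs]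
    nlinarith
  have h3 : b ^ 2 * δ ^ 2 ≤ 2 * (m * δ ^ 2) * (a + b) := by
    have : b ^ 2 ≤ 2 * m * (a + b) := by nlinarith
    nlinarith [mul_le_mul_of_nonneg_right this (sq_nonneg δ)]
  have h4 : 2 * m * g2 ≤ 2 * g2 * (a + b) := by nlinarith
  nlinarith

/-- final algebraic step -/
lemma alg_final {m a b c δ D G g2 : ι → ℝ} {κ Γ R : ℝ} (hR : 1 ≤ R)
    (hκR : 1000 * κ * R ^ 2 = 1) (hm : ∀ i, 0 < m i) (ha : ∀ i, 99 / 100 * m i ≤ a i)
    (hb : ∀ i, 3 / 5 * m i ≤ b i) (hb2 : ∀ i, b i ≤ 2 * m i)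
    (hΓa : ∑ i, a i = Γ) (hΓb : ∑ i, b i = Γ) (hΓc : ∑ i, c i ≤ Γ)
    (hG : ∀ i, G i ^ 2 ≤ 2 * m i * g2 i) (hg2 : ∀ i, 0 ≤ g2 i)
    (hab : ∀ i, |b i - a i| ≤ b i * |δ i| + |G i|)
    (h1 : ∀ i, 2 * a i * b i / (a i + b i) * (1 + κ / 8 * (δ i / (2 * κ * R)) ^ 2) ≤ c i)
    (h2 : ∀ i, 2 * a i * b i / (a i + b i) * (1 + κ / 8 * (D i / 2) ^ 2) ≤ c i) :
    ∑ i, (a i - b i) ^ 2 / (a i + b i) ≤ 5 * ∑ i, g2 i ∧
    ∑ i, m i * D i ^ 2 ≤ 160000 * R ^ 2 * ∑ i, g2 i := by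
  have hR0 : 0 < R := by linarith
  have hκ : 0 < κ := by
    by_contra hcon
    push Not at hcon
    have : 1000 * κ * R ^ 2 ≤ 0 := by nlinarith [pow_pos hR0 2]
    linarith
  have s1 := alg_sum hm ha hb hκ hΓa hΓb hΓc h1
  have s2 := alg_sum hm ha hb hκ hΓa hΓb hΓc h2
  set S := ∑ i, (a i - b i) ^ 2 / (a i + b i) with hS
  have e1 : ∑ i, m i * (δ i / (2 * κ * R)) ^ 2 = (∑ i, m i * δ i ^ 2) / (2 * κ * R) ^ 2 := by
    rw [Finset.sum_div]
    apply Finset.sum_congr rfl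
    intro i _
    rw [div_pow]; ring
  have e2 : ∑ i, m i * (D i / 2) ^ 2 = (∑ i, m i * D i ^ 2) / 4 := by
    rw [Finset.sum_div]
    apply Finset.sum_congr rfl
    intro i _
    ring
  rw [e1] at s1
  rw [e2] at s2
  have hS1 : S ≤ 4 * (∑ i, m i * δ i ^ 2) + 4 * ∑ i, g2 i := by
    rw [hS, Finset.mul_sum, Finset.mul_sum, ← Finset.sum_add_distrib]
    exact Finset.sum_le_sum fun i _ =>
      alg_S (hm i) (ha i) (hb i) (hb2 i) (hG i) (hg2 i) (hab i)
  have s1' : ∑ i, m i * δ i ^ 2 ≤ 32 / 1000 * S := by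
    rw [div_le_iff₀ (by positivity)] at s1
    refine s1.trans (le_of_eq ?_)
    field_simp
    linear_combination (32 * S) * hκR
  have hS5 : S ≤ 5 * ∑ i, g2 i := by linarith [Finset.sum_nonneg (fun i (_ : i ∈ Finset.univ) => hg2 i)]
  refine ⟨hS5, ?_⟩
  have h8 : 8 / κ = 8000 * R ^ 2 := by
    field_simp
    linarith
  rw [h8] at s2
  have : 8000 * R ^ 2 * S ≤ 8000 * R ^ 2 * (5 * ∑ i, g2 i) :=
    mul_le_mul_of_nonneg_left hS5 (by positivity)
  linarith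

end Alg

section Main

variable {K : Set (EuclideanSpace ℝ (Fin d))}

lemma mono_K (hKc : IsCompact K) (A : Set (EuclideanSpace ℝ (Fin d)))
    {f g : EuclideanSpace ℝ (Fin d) → ℝ} (hf : Integrable f (uniformProbOn K))
    (hg : Integrable g (uniformProbOn K)) (h : ∀ x ∈ K, f x ≤ g x) :
    ∫ x in A, f x ∂(uniformProbOn K) ≤ ∫ x in A, g x ∂(uniformProbOn K) :=
  integral_mono_ae hf.restrict hg.restrict (ae_restrict_of_ae ((ae_mem hKc).mono h))

lemma rho_ac : (uniformProbOn K : Measure (EuclideanSpace ℝ (Fin d))) ≪ volume := by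
  unfold uniformProbOn
  exact Measure.AbsolutelyContinuous.trans (Measure.smul_absolutelyContinuous)
    Measure.restrict_le_self.absolutelyContinuous

/-- Cauchy-Schwarz on a set -/
lemma cs_set {ν : Measure (EuclideanSpace ℝ (Fin d))} [IsFiniteMeasure ν]
    {f : EuclideanSpace ℝ (Fin d) → ℝ} (hf : Integrable f ν)
    (hf2 : Integrable (fun x => f x ^ 2) ν) :
    (∫ x, f x ∂ν) ^ 2 ≤ ν.real univ * ∫ x, f x ^ 2 ∂ν := by
  set w := ν.real univ with hw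
  set G := ∫ x, f x ∂ν with hG
  set g2 := ∫ x, f x ^ 2 ∂ν with hg2
  have key : ∀ t : ℝ, 0 ≤ g2 - 2 * t * G + t ^ 2 * w := by
    intro t
    have h1 : 0 ≤ ∫ x, (f x - t) ^ 2 ∂ν := integral_nonneg (fun x => sq_nonneg _)
    have h2 : ∫ x, (f x - t) ^ 2 ∂ν = g2 - 2 * t * G + t ^ 2 * w := by
      have e : ∀ x, (f x - t) ^ 2 = (f x ^ 2 - 2 * t * f x) + t ^ 2 := by intro x; ring
      simp_rw [e]
      have hi : Integrable (fun x => f x ^ 2 - 2 * t * f x) ν := hf2.sub (hf.const_mul (2 * t))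
      rw [integral_add hi (integrable_const _),
        integral_sub hf2 (hf.const_mul _), integral_const_mul, integral_const, smul_eq_mul]
      ring
    linarith
  have hw0 : 0 ≤ w := measureReal_nonneg
  rcases hw0.eq_or_lt with h | h
  · have hν : ν = 0 := by
      have : ν univ = 0 := by
        have := h.symm
        rw [hw, measureReal_def, ENNReal.toReal_eq_zero_iff] at this
        exact this.resolve_right (measure_ne_top _ _)
      exact Measure.measure_univ_eq_zero.mp this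
    rw [hG, hν]; simp [← h]
  · have := key (G / w)
    have e : g2 - 2 * (G / w) * G + (G / w) ^ 2 * w = g2 - G ^ 2 / w := by field_simp; ring
    rw [e] at this
    have h3 : G ^ 2 / w ≤ g2 := by linarith
    rw [div_le_iff₀ h] at h3
    linarith

/-- `1 / wt` -/
noncomputable def iw (κ : ℝ) (x : EuclideanSpace ℝ (Fin d)) : ℝ := Real.exp (κ / 2 * ‖x‖ ^ 2)

lemma continuous_iw (κ : ℝ) : Continuous (iw κ : EuclideanSpace ℝ (Fin d) → ℝ) := by
  unfold iw; fun_prop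

lemma iw_mul_wt (κ : ℝ) (x : EuclideanSpace ℝ (Fin d)) : iw κ x * wt κ x = 1 := by
  unfold iw wt
  rw [← Real.exp_add]
  have : κ / 2 * ‖x‖ ^ 2 + -(κ / 2) * ‖x‖ ^ 2 = 0 := by ring
  rw [this, Real.exp_zero]

lemma iw_le {κ R : ℝ} (hκ : 0 < κ) (hR : 1 ≤ R) (hκR : 1000 * κ * R ^ 2 = 1)
    {x : EuclideanSpace ℝ (Fin d)} (hx : ‖x‖ ≤ R) : iw κ x ≤ 11 / 10 := by
  unfold iw
  have h1 : κ / 2 * ‖x‖ ^ 2 ≤ 1 / 2000 := by
    have : ‖x‖ ^ 2 ≤ R ^ 2 := pow_le_pow_left₀ (norm_nonneg _) hx 2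
    nlinarith
  have h2 := Real.add_one_le_exp (-(κ / 2 * ‖x‖ ^ 2))
  have h3 : (10 / 11 : ℝ) ≤ Real.exp (-(κ / 2 * ‖x‖ ^ 2)) := by linarith
  have h4 : Real.exp (κ / 2 * ‖x‖ ^ 2) * Real.exp (-(κ / 2 * ‖x‖ ^ 2)) = 1 := by
    rw [← Real.exp_add]; simp
  have h5 := Real.exp_pos (κ / 2 * ‖x‖ ^ 2)
  nlinarith

lemma wt_le (κ : ℝ) (hκ : 0 < κ) (x : EuclideanSpace ℝ (Fin d)) : wt κ x ≤ 1 := by
  unfold wt
  apply Real.exp_le_one_iff.mpr
  have : 0 ≤ κ / 2 * ‖x‖ ^ 2 := by positivity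
  linarith

lemma wt_ge {κ R : ℝ} (hκ : 0 < κ) (hR : 1 ≤ R) (hκR : 1000 * κ * R ^ 2 = 1)
    {x : EuclideanSpace ℝ (Fin d)} (hx : ‖x‖ ≤ R) : 99 / 100 ≤ wt κ x := by
  unfold wt
  have h1 : κ / 2 * ‖x‖ ^ 2 ≤ 1 / 2000 := by
    have : ‖x‖ ^ 2 ≤ R ^ 2 := pow_le_pow_left₀ (norm_nonneg _) hx 2
    nlinarith
  have h2 := Real.add_one_le_exp (-(κ / 2) * ‖x‖ ^ 2)
  linarith

lemma iw_lip {κ R : ℝ} (hκ : 0 < κ) (hR : 1 ≤ R) (hκR : 1000 * κ * R ^ 2 = 1)
    {x y : EuclideanSpace ℝ (Fin d)} (hx : ‖x‖ ≤ R) (hy : ‖y‖ ≤ R) :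
    iw κ x - iw κ y ≤ 2 * κ * R * ‖x - y‖ := by
  rcases le_total (‖x‖) (‖y‖) with h | h
  · have : iw κ x ≤ iw κ y := by
      unfold iw
      apply Real.exp_le_exp.mpr
      have : ‖x‖ ^ 2 ≤ ‖y‖ ^ 2 := pow_le_pow_left₀ (norm_nonneg _) h 2
      nlinarith
    have h2 : 0 ≤ 2 * κ * R * ‖x - y‖ := by positivity
    linarith
  · have h1 : ‖x‖ ^ 2 - ‖y‖ ^ 2 ≤ 2 * R * ‖x - y‖ := by
      have h3 : ‖x‖ - ‖y‖ ≤ ‖x - y‖ := norm_sub_norm_le x y
      have h4 : ‖x‖ ^ 2 - ‖y‖ ^ 2 = (‖x‖ - ‖y‖) * (‖x‖ + ‖y‖) := by ring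
      rw [h4]
      have h5 : 0 ≤ ‖x‖ - ‖y‖ := by linarith
      nlinarith [norm_nonneg x, norm_nonneg y, norm_nonneg (x - y)]
    have h2 : iw κ x - iw κ y ≤ iw κ x * (κ / 2 * (‖x‖ ^ 2 - ‖y‖ ^ 2)) := by
      have h3 := Real.add_one_le_exp (κ / 2 * ‖y‖ ^ 2 - κ / 2 * ‖x‖ ^ 2)
      have h4 : iw κ y = iw κ x * Real.exp (κ / 2 * ‖y‖ ^ 2 - κ / 2 * ‖x‖ ^ 2) := by
        unfold iw; rw [← Real.exp_add]; congr 1; ring
      have h5 : 0 < iw κ x := Real.exp_pos _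
      have h6 := mul_le_mul_of_nonneg_left h3 h5.le
      rw [← h4] at h6
      nlinarith
    have h3 := iw_le hκ hR hκR hx
    have h4 : 0 < iw κ x := Real.exp_pos _
    have h5 : 0 ≤ κ / 2 * (‖x‖ ^ 2 - ‖y‖ ^ 2) := by
      have : ‖y‖ ^ 2 ≤ ‖x‖ ^ 2 := pow_le_pow_left₀ (norm_nonneg _) h 2
      have : 0 ≤ ‖x‖ ^ 2 - ‖y‖ ^ 2 := by linarith
      positivity
    have h6 : iw κ x * (κ / 2 * (‖x‖ ^ 2 - ‖y‖ ^ 2)) ≤ 2 * (κ / 2 * (2 * R * ‖x - y‖)) := by
      have h7 : κ / 2 * (‖x‖ ^ 2 - ‖y‖ ^ 2) ≤ κ / 2 * (2 * R * ‖x - y‖) :=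
        mul_le_mul_of_nonneg_left h1 (by positivity)
      nlinarith
    linarith

/-- Lipschitz bound for `⟨x, e⟩ / wt` -/
lemma iw_inner_lip {κ R : ℝ} (hκ : 0 < κ) (hR : 1 ≤ R) (hκR : 1000 * κ * R ^ 2 = 1)
    {e : EuclideanSpace ℝ (Fin d)} (he : ‖e‖ ≤ 1)
    {x y : EuclideanSpace ℝ (Fin d)} (hx : ‖x‖ ≤ R) (hy : ‖y‖ ≤ R) :
    inner ℝ x e / 2 * iw κ x - inner ℝ y e / 2 * iw κ y ≤ ‖x - y‖ := by
  have h1 : inner ℝ x e / 2 * iw κ x - inner ℝ y e / 2 * iw κ y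
      = inner ℝ (x - y) e / 2 * iw κ x + inner ℝ y e / 2 * (iw κ x - iw κ y) := by
    rw [inner_sub_left]; ring
  rw [h1]
  have h2 : inner ℝ (x - y) e ≤ ‖x - y‖ := by
    calc inner ℝ (x - y) e ≤ ‖x - y‖ * ‖e‖ := real_inner_le_norm _ _
      _ ≤ ‖x - y‖ * 1 := by gcongr
      _ = _ := mul_one _
  have h3 : |inner ℝ y e| ≤ R := by
    calc |inner ℝ y e| ≤ ‖y‖ * ‖e‖ := abs_real_inner_le_norm _ _
      _ ≤ R * 1 := by gcongr
      _ = R := mul_one _
  have h4 : |iw κ x - iw κ y| ≤ 2 * κ * R * ‖x - y‖ := by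
    rw [abs_le]
    constructor
    · have := iw_lip hκ hR hκR hy hx
      rw [norm_sub_rev] at this
      linarith
    · exact iw_lip hκ hR hκR hx hy
  have h5 : inner ℝ y e / 2 * (iw κ x - iw κ y) ≤ R / 2 * (2 * κ * R * ‖x - y‖) := by
    calc inner ℝ y e / 2 * (iw κ x - iw κ y) ≤ |inner ℝ y e / 2 * (iw κ x - iw κ y)| := le_abs_self _
      _ = |inner ℝ y e| / 2 * |iw κ x - iw κ y| := by rw [abs_mul, abs_div, abs_two]
      _ ≤ R / 2 * (2 * κ * R * ‖x - y‖) := by gcongr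
  have h6 : R / 2 * (2 * κ * R * ‖x - y‖) = (κ * R ^ 2) * ‖x - y‖ := by ring
  have h7 : κ * R ^ 2 = 1 / 1000 := by linarith
  rw [h6, h7] at h5
  have h8 := iw_le hκ hR hκR hx
  have h9 : 0 < iw κ x := Real.exp_pos _
  have h10 : inner ℝ (x - y) e / 2 * iw κ x ≤ ‖x - y‖ / 2 * (11 / 10) := by
    have : inner ℝ (x - y) e / 2 * iw κ x ≤ ‖x - y‖ / 2 * iw κ x :=
      mul_le_mul_of_nonneg_right (by linarith) h9.le
    nlinarith [norm_nonneg (x - y)]
  linarith [norm_nonneg (x - y)]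

end Main

end Crest.Agent.R82.CellB
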