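import Mathlib
import Crest.Prelude.Def_QuadraticTransport
import Crest.Agent.R82.SemiDiscrete

/-! Row 82 (S0109): the perturbed source `(1+g)ρ` and its basic properties. -/

set_option autoImplicit false
open MeasureTheory Set
open scoped ENNReal NNReal
open Crest.AnalysisR.OT

namespace Crest.Agent.R82

/-- The perturbed source `(1+g)ρ`. -/
noncomputable def tilt {d : ℕ} (K : Set (EuclideanSpace ℝ (Fin d)))
    (g : EuclideanSpace ℝ (Fin d) → ℝ) : Measure (EuclideanSpace ℝ (Fin d)) :=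
  (uniformProbOn K).withDensity fun x => ENNReal.ofReal (1 + g x)

variable {d : ℕ} {K : Set (EuclideanSpace ℝ (Fin d))}

theorem uniform_isProb (hKc : IsCompact K) (hKi : (interior K).Nonempty) :
    IsProbabilityMeasure (uniformProbOn K) := by
  refine ⟨?_⟩
  unfold uniformProbOn
  rw [Measure.smul_apply, Measure.restrict_apply_univ, smul_eq_mul]
  refine ENNReal.inv_mul_cancel ?_ hKc.measure_lt_top.ne
  exact (hKi.mono (by rfl) |> fun _ => (Measure.measure_pos_of_nonempty_interior volume hKi).ne')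

theorem uniform_ac : uniformProbOn K ≪ volume :=
  (Measure.AbsolutelyContinuous.smul_left Measure.restrict_le_self.absolutelyContinuous _)

theorem uniform_ae_mem (hKc : IsCompact K) : ∀ᵐ x ∂(uniformProbOn K), x ∈ K := by
  unfold uniformProbOn
  exact Measure.ae_smul_measure (ae_restrict_mem hKc.measurableSet) _

theorem exists_bound (hKc : IsCompact K) :
    ∃ R : ℝ, 0 ≤ R ∧ (∀ x ∈ K, ‖x‖ ≤ R) ∧ ∀ᵐ x ∂(uniformProbOn K), ‖x‖ ≤ R := by
  obtain ⟨R, hR⟩ := hKc.isBounded.exists_norm_le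
  refine ⟨max R 0, le_max_right _ _, fun x hx => (hR x hx).trans (le_max_left _ _), ?_⟩
  filter_upwards [uniform_ae_mem hKc] with x hx
  exact (hR x hx).trans (le_max_left _ _)

theorem tilt_ac_uniform (g : EuclideanSpace ℝ (Fin d) → ℝ) : tilt K g ≪ uniformProbOn K :=
  withDensity_absolutelyContinuous _ _

theorem tilt_ac (g : EuclideanSpace ℝ (Fin d) → ℝ) : tilt K g ≪ volume :=
  (tilt_ac_uniform g).trans uniform_ac

theorem tilt_isFinite [IsFiniteMeasure (uniformProbOn K)] {g : EuclideanSpace ℝ (Fin d) → ℝ}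
    {B : ℝ} (hg : ∀ x, |g x| ≤ B) : IsFiniteMeasure (tilt K g) := by
  refine isFiniteMeasure_withDensity ?_
  refine ne_of_lt ?_
  calc ∫⁻ x, ENNReal.ofReal (1 + g x) ∂(uniformProbOn K)
      ≤ ∫⁻ _x, ENNReal.ofReal (1 + B) ∂(uniformProbOn K) := by
        refine lintegral_mono fun x => ENNReal.ofReal_le_ofReal ?_
        linarith [(abs_le.1 (hg x)).2]
    _ < ∞ := by
        rw [lintegral_const]
        exact ENNReal.mul_lt_top ENNReal.ofReal_lt_top (measure_lt_top _ _)

theorem integral_tilt {g : EuclideanSpace ℝ (Fin d) → ℝ} (hgm : Measurable g)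
    (hg : ∀ x, |g x| ≤ 1 / 2) {F : Type*} [NormedAddCommGroup F] [NormedSpace ℝ F]
    (f : EuclideanSpace ℝ (Fin d) → F) :
    ∫ x, f x ∂(tilt K g) = ∫ x, (1 + g x) • f x ∂(uniformProbOn K) := by
  have h0 : ∀ x, 0 ≤ 1 + g x := fun x => by linarith [(abs_le.1 (hg x)).1]
  unfold tilt
  rw [show (fun x => ENNReal.ofReal (1 + g x)) = fun x => ((Real.toNNReal (1 + g x) : ℝ≥0) : ℝ≥0∞)
    from rfl]
  rw [integral_withDensity_eq_integral_smul (by fun_prop)]
  refine integral_congr_ae (Filter.Eventually.of_forall fun x => ?_)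
  simp only [NNReal.smul_def, Real.coe_toNNReal _ (h0 x)]

theorem tilt_integrable {g : EuclideanSpace ℝ (Fin d) → ℝ}
    [IsProbabilityMeasure (uniformProbOn K)] (hgm : Measurable g)
    {B : ℝ} (hg : ∀ x, |g x| ≤ B) : Integrable g (uniformProbOn K) :=
  Integrable.of_bound hgm.aestronglyMeasurable B (Filter.Eventually.of_forall hg)

theorem tilt_real_univ [IsProbabilityMeasure (uniformProbOn K)]
    {g : EuclideanSpace ℝ (Fin d) → ℝ} (hgm : Measurable g)
    (hg : ∀ x, |g x| ≤ 1 / 2) (h0 : ∫ x, g x ∂(uniformProbOn K) = 0) :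
    (tilt K g).real univ = 1 := by
  have := tilt_isFinite hg (K := K)
  have h1 : ∫ x, (1 : ℝ) ∂(tilt K g) = (tilt K g).real univ := by simp
  rw [← h1, integral_tilt hgm hg]
  simp only [smul_eq_mul, mul_one]
  rw [integral_add (integrable_const _) (tilt_integrable hgm hg), h0]
  simp

end Crest.Agent.R82
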