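import Mathlib
import Crest.Prelude.Def_QuadraticTransport
import Crest.Agent.R82.SemiDiscrete
import Crest.Agent.R82.Tilt

/-! Row 82 (S0109), piece (E): the mixed difference estimate, from the cell estimate (B). -/

set_option autoImplicit false
set_option linter.unusedSectionVars false
open MeasureTheory Set Filter Topology
open scoped ENNReal NNReal
open Crest.AnalysisR.OT

namespace Crest.Agent.R82

section General

variable {E : Type*} [NormedAddCommGroup E] [InnerProductSpace ℝ E] [FiniteDimensional ℝ E]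
  [MeasurableSpace E] [BorelSpace E]
variable {ι : Type*} [Fintype ι] [Nonempty ι]

theorem integrable_id_of_bound {σ : Measure E} [IsFiniteMeasure σ] {R : ℝ}
    (hR : ∀ᵐ x ∂σ, ‖x‖ ≤ R) : Integrable (fun x : E => x) σ :=
  Integrable.of_bound (C := R) (by fun_prop) hR

/-- The barycentres of the optimal cells form a subgradient of `TT` in the target points. -/
theorem TT_subgrad {σ : Measure E} [IsFiniteMeasure σ] (hσ : σ ≪ volume) {R : ℝ}
    (hR : ∀ᵐ x ∂σ, ‖x‖ ≤ R) {y : ι → E} (hy : Function.Injective y) {m : ι → ℝ} {ψ : ι → ℝ}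
    (hψ : ∀ i, σ.real (cell y ψ i) = m i) (y' : ι → E) :
    TT σ m y + ∑ i, inner ℝ (∫ x in cell y ψ i, x ∂σ) (y' i - y i) ≤ TT σ m y' := by
  have h1 := (TT_eq_of_cell_mass hσ hR hy hψ).2
  have h2 := partition_le_TT hR (measurableSet_cell y ψ) (cell_pairwise_aedisjoint hσ hy ψ)
    (Eventually.of_forall fun x => mem_iUnion.1 (iUnion_cell y ψ ▸ mem_univ x)) hψ y'
  have h3 : ∀ (i : ι) (v : E), inner ℝ (∫ x in cell y ψ i, x ∂σ) v
      = ∫ x in cell y ψ i, inner ℝ x v ∂σ := by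
    intro i v
    rw [real_inner_comm, ← integral_inner (integrable_id_of_bound hR).integrableOn v]
    refine integral_congr_ae (Eventually.of_forall fun x => ?_)
    exact real_inner_comm _ _
  refine le_trans (le_of_eq ?_) h2
  rw [h1, ← Finset.sum_add_distrib]
  refine Finset.sum_congr rfl fun i _ => ?_
  rw [inner_sub_right, h3, h3]; ring

theorem norm_bary_le {σ : Measure E} [IsFiniteMeasure σ] {R : ℝ}
    (hR : ∀ᵐ x ∂σ, ‖x‖ ≤ R) (y : ι → E) {m : ι → ℝ} {ψ : ι → ℝ}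
    (hψ : ∀ i, σ.real (cell y ψ i) = m i) (i : ι) :
    ‖∫ x in cell y ψ i, x ∂σ‖ ≤ R * m i := by
  rw [← hψ i]
  exact norm_setIntegral_le_of_norm_le_const_ae (measure_lt_top _ _)
    (ae_restrict_of_ae hR)

theorem abs_sum_inner_le {σ : Measure E} [IsFiniteMeasure σ] {R : ℝ}
    (hR : ∀ᵐ x ∂σ, ‖x‖ ≤ R) (y : ι → E) {m : ι → ℝ} {ψ : ι → ℝ}
    (hψ : ∀ i, σ.real (cell y ψ i) = m i) (v : ι → E) :
    |∑ i, inner ℝ (∫ x in cell y ψ i, x ∂σ) (v i)| ≤ R * ∑ i, m i * ‖v i‖ := by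
  refine (Finset.abs_sum_le_sum_abs _ _).trans ?_
  rw [Finset.mul_sum]
  refine Finset.sum_le_sum fun i _ => ?_
  calc |inner ℝ (∫ x in cell y ψ i, x ∂σ) (v i)| ≤ ‖∫ x in cell y ψ i, x ∂σ‖ * ‖v i‖ :=
        abs_real_inner_le_norm _ _
    _ ≤ (R * m i) * ‖v i‖ := by gcongr; exact norm_bary_le hR y hψ i
    _ = R * (m i * ‖v i‖) := by ring

/-- The mixed difference, when the rational points of the segment are all injective. -/
theorem mixed_of_good {ρ σ : Measure E} [IsFiniteMeasure ρ] [IsFiniteMeasure σ]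
    (hρ : ρ ≪ volume) (hσ : σ ≪ volume) {R : ℝ} (hRρ : ∀ᵐ x ∂ρ, ‖x‖ ≤ R)
    (hRσ : ∀ᵐ x ∂σ, ‖x‖ ≤ R) {m : ι → ℝ} (hm : ∀ i, 0 < m i)
    (hsρ : ∑ i, m i = ρ.real univ) (hsσ : ∑ i, m i = σ.real univ) (y z : ι → E)
    (hgood : ∀ t : ℚ, Function.Injective (fun i => y i + (t : ℝ) • (z i - y i))) (M : ℝ)
    (hM : ∀ (w : ι → E) (ψ₀ ψ₁ : ι → ℝ), Function.Injective w →
      (∀ i, ρ.real (cell w ψ₀ i) = m i) → (∀ i, σ.real (cell w ψ₁ i) = m i) →
      ∑ i, inner ℝ ((∫ x in cell w ψ₀ i, x ∂ρ) - ∫ x in cell w ψ₁ i, x ∂σ) (z i - y i) ≤ M) :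
    (TT ρ m z - TT ρ m y) - (TT σ m z - TT σ m y) ≤ M := by
  set w : ℚ → ι → E := fun t i => y i + (t : ℝ) • (z i - y i) with hw
  choose ψ₀ hψ₀ using fun t : ℚ => exists_potential ρ hρ R hRρ (w t) (hgood t) m hm hsρ
  choose ψ₁ hψ₁ using fun t : ℚ => exists_potential σ hσ R hRσ (w t) (hgood t) m hm hsσ
  set v₀ : ℚ → ℝ := fun t => ∑ i, inner ℝ (∫ x in cell (w t) (ψ₀ t) i, x ∂ρ) (z i - y i) with hv₀
  set v₁ : ℚ → ℝ := fun t => ∑ i, inner ℝ (∫ x in cell (w t) (ψ₁ t) i, x ∂σ) (z i - y i) with hv₁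
  set D : ℝ := R * ∑ i, m i * ‖z i - y i‖ with hD
  have hv01 : ∀ t, v₀ t - v₁ t ≤ M := by
    intro t
    have := hM (w t) (ψ₀ t) (ψ₁ t) (hgood t) (hψ₀ t) (hψ₁ t)
    simp only [inner_sub_left, Finset.sum_sub_distrib] at this
    exact this
  have hv₁D : ∀ t, |v₁ t| ≤ D := fun t => abs_sum_inner_le hRσ (w t) (hψ₁ t) _
  have hD0 : 0 ≤ D := (abs_nonneg _).trans (hv₁D 0)
  have hstep₀ : ∀ s t : ℚ, TT ρ m (w t) - TT ρ m (w s) ≤ ((t : ℝ) - s) * v₀ t := by
    intro s t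
    have h1 := TT_subgrad hρ hRρ (hgood t) (hψ₀ t) (w s)
    have h2 : ∑ i, inner ℝ (∫ x in cell (w t) (ψ₀ t) i, x ∂ρ) (w s i - w t i)
        = ((s : ℝ) - t) * v₀ t := by
      rw [hv₀, Finset.mul_sum]
      refine Finset.sum_congr rfl fun i _ => ?_
      have : w s i - w t i = ((s : ℝ) - t) • (z i - y i) := by
        simp only [hw]; rw [sub_smul]; abel
      rw [this, inner_smul_right]
    have h3 : TT ρ m (w t) + ∑ i, inner ℝ (∫ x in cell (w t) (ψ₀ t) i, x ∂ρ) (w s i - w t i)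
        ≤ TT ρ m (w s) := h1
    rw [h2] at h3
    nlinarith [h3]
  have hstep₁ : ∀ s t : ℚ, ((t : ℝ) - s) * v₁ s ≤ TT σ m (w t) - TT σ m (w s) := by
    intro s t
    have h1 := TT_subgrad hσ hRσ (hgood s) (hψ₁ s) (w t)
    have h2 : ∑ i, inner ℝ (∫ x in cell (w s) (ψ₁ s) i, x ∂σ) (w t i - w s i)
        = ((t : ℝ) - s) * v₁ s := by
      rw [hv₁, Finset.mul_sum]
      refine Finset.sum_congr rfl fun i _ => ?_
      have : w t i - w s i = ((t : ℝ) - s) • (z i - y i) := by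
        simp only [hw]; rw [sub_smul]; abel
      rw [this, inner_smul_right]
    have h3 : TT σ m (w s) + ∑ i, inner ℝ (∫ x in cell (w s) (ψ₁ s) i, x ∂σ) (w t i - w s i)
        ≤ TT σ m (w t) := h1
    rw [h2] at h3
    linarith
  have hw0 : w 0 = y := by funext i; simp [hw]
  have hw1 : w 1 = z := by funext i; simp [hw]
  have hmain : ∀ n : ℕ, 0 < n →
      (TT ρ m z - TT ρ m y) - (TT σ m z - TT σ m y) ≤ M + 2 * D / n := by
    intro n hn
    have hn' : (0 : ℝ) < n := by exact_mod_cast hn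
    set t : ℕ → ℚ := fun k => (k : ℚ) / n with ht
    have ht0 : t 0 = 0 := by simp [ht]
    have htn : t n = 1 := by
      have : (n : ℚ) ≠ 0 := by exact_mod_cast hn.ne'
      simp [ht, this]
    have htd : ∀ k, ((t (k + 1) : ℚ) : ℝ) - (t k : ℚ) = 1 / n := by
      intro k
      simp only [ht]; push_cast; field_simp; ring
    have e1 : TT ρ m z - TT ρ m y = ∑ k ∈ Finset.range n,
        (TT ρ m (w (t (k + 1))) - TT ρ m (w (t k))) := by
      rw [Finset.sum_range_sub (fun k => TT ρ m (w (t k))), ht0, htn, hw0, hw1]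
    have e2 : TT σ m z - TT σ m y = ∑ k ∈ Finset.range n,
        (TT σ m (w (t (k + 1))) - TT σ m (w (t k))) := by
      rw [Finset.sum_range_sub (fun k => TT σ m (w (t k))), ht0, htn, hw0, hw1]
    have e3 : v₁ (t n) - v₁ (t 0) = ∑ k ∈ Finset.range n, (v₁ (t (k + 1)) - v₁ (t k)) := by
      rw [Finset.sum_range_sub (fun k => v₁ (t k))]
    have e4 : (TT ρ m z - TT ρ m y) - (TT σ m z - TT σ m y)
        ≤ ∑ k ∈ Finset.range n, (1 / (n : ℝ)) * (M + (v₁ (t (k + 1)) - v₁ (t k))) := by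
      rw [e1, e2, ← Finset.sum_sub_distrib]
      refine Finset.sum_le_sum fun k _ => ?_
      have a1 := hstep₀ (t k) (t (k + 1))
      have a2 := hstep₁ (t k) (t (k + 1))
      rw [htd] at a1 a2
      have a3 : (1 / (n : ℝ)) * v₀ (t (k + 1)) ≤ (1 / (n : ℝ)) * (M + v₁ (t (k + 1))) := by
        have := hv01 (t (k + 1))
        gcongr
        linarith
      calc TT ρ m (w (t (k + 1))) - TT ρ m (w (t k)) - (TT σ m (w (t (k + 1))) - TT σ m (w (t k)))
          ≤ (1 / (n : ℝ)) * v₀ (t (k + 1)) - (1 / (n : ℝ)) * v₁ (t k) := by linarith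
        _ ≤ (1 / (n : ℝ)) * (M + v₁ (t (k + 1))) - (1 / (n : ℝ)) * v₁ (t k) := by linarith
        _ = (1 / (n : ℝ)) * (M + (v₁ (t (k + 1)) - v₁ (t k))) := by ring
    refine e4.trans ?_
    rw [← Finset.mul_sum, Finset.sum_add_distrib, ← e3, Finset.sum_const, Finset.card_range,
      nsmul_eq_mul]
    have b1 := (abs_le.1 (hv₁D (t n))).2
    have b2 := (abs_le.1 (hv₁D (t 0))).1
    calc 1 / (n : ℝ) * (n * M + (v₁ (t n) - v₁ (t 0)))
        ≤ 1 / (n : ℝ) * (n * M + 2 * D) := by gcongr; linarith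
      _ = M + 2 * D / n := by field_simp
  refine le_of_forall_pos_le_add fun ε hε => ?_
  obtain ⟨n, hn⟩ := exists_nat_gt (2 * D / ε)
  have hn0 : 0 < n := by
    have : (0 : ℝ) < n := lt_of_le_of_lt (by positivity) hn
    exact_mod_cast this
  refine (hmain n hn0).trans ?_
  have hn' : (0 : ℝ) < n := by exact_mod_cast hn0
  have : 2 * D / n ≤ ε := by
    rw [div_le_iff₀ hn']
    rw [div_lt_iff₀ hε] at hn
    linarith
  linarith

/-- The mixed difference estimate without genericity assumption. -/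
theorem mixed_of_bound {ρ σ : Measure E} [IsFiniteMeasure ρ] [IsFiniteMeasure σ]
    (hρ : ρ ≪ volume) (hσ : σ ≪ volume) {R : ℝ} (hRρ : ∀ᵐ x ∂ρ, ‖x‖ ≤ R)
    (hRσ : ∀ᵐ x ∂σ, ‖x‖ ≤ R) {m : ι → ℝ} (hm : ∀ i, 0 < m i)
    (hsρ : ∑ i, m i = ρ.real univ) (hsσ : ∑ i, m i = σ.real univ) (y z : ι → E) (M : ℝ)
    (hM0 : 0 ≤ M)
    (hM : ∀ (w : ι → E) (ψ₀ ψ₁ : ι → ℝ), Function.Injective w →
      (∀ i, ρ.real (cell w ψ₀ i) = m i) → (∀ i, σ.real (cell w ψ₁ i) = m i) →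
      ∑ i, inner ℝ ((∫ x in cell w ψ₀ i, x ∂ρ) - ∫ x in cell w ψ₁ i, x ∂σ) (z i - y i) ≤ M) :
    (TT ρ m z - TT ρ m y) - (TT σ m z - TT σ m y) ≤ M := by
  rcases subsingleton_or_nontrivial E with hE | hE
  · have : y = z := funext fun i => Subsingleton.elim _ _
    rw [this]; simpa using hM0
  obtain ⟨e, he⟩ := exists_norm_eq E (zero_le_one (α := ℝ))
  have he0 : e ≠ 0 := by
    intro h; rw [h, norm_zero] at he; exact zero_ne_one he
  set k : ι → ℝ := fun i => ((Fintype.equivFin ι i : ℕ) : ℝ) with hk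
  have hkinj : Function.Injective k := by
    intro i j hij
    simp only [hk, Nat.cast_inj] at hij
    exact (Fintype.equivFin ι).injective (Fin.ext hij)
  set N : ℝ := ((Fintype.card ι : ℕ) : ℝ) with hN
  have hk0 : ∀ i, 0 ≤ k i := fun i => by simp [hk]
  have hkN : ∀ i, k i ≤ N := fun i => by
    simp only [hk, hN]
    exact_mod_cast (Fintype.equivFin ι i).2.le
  -- the bad set of perturbation parameters
  set bad : Set ℝ := ⋃ (t : ℚ) (i : ι) (j : ι) (_ : i ≠ j),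
    {ε : ℝ | y i + ε • (k i • e) + (t : ℝ) • (z i - y i)
      = y j + ε • (k j • e) + (t : ℝ) • (z j - y j)} with hbad
  have hcount : bad.Countable := by
    refine countable_iUnion fun t => countable_iUnion fun i => countable_iUnion fun j =>
      countable_iUnion fun hij => ?_
    refine Set.Subsingleton.countable ?_
    intro ε₁ h1 ε₂ h2
    simp only [mem_ofPred_eq] at h1 h2
    have h3 : (ε₁ - ε₂) • ((k i - k j) • e) = 0 := by
      have h4 : (y i + ε₁ • (k i • e) + (t : ℝ) • (z i - y i)) -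
            (y i + ε₂ • (k i • e) + (t : ℝ) • (z i - y i))
            = (y j + ε₁ • (k j • e) + (t : ℝ) • (z j - y j)) -
            (y j + ε₂ • (k j • e) + (t : ℝ) • (z j - y j)) := by rw [h1, h2]
      have h5 : (ε₁ - ε₂) • ((k i - k j) • e)
          = ((y i + ε₁ • (k i • e) + (t : ℝ) • (z i - y i)) -
            (y i + ε₂ • (k i • e) + (t : ℝ) • (z i - y i)))
            - ((y j + ε₁ • (k j • e) + (t : ℝ) • (z j - y j)) -
            (y j + ε₂ • (k j • e) + (t : ℝ) • (z j - y j))) := by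
        module
      rw [h5, h4, sub_self]
    rcases smul_eq_zero.1 h3 with h | h
    · linarith
    · exfalso
      rcases smul_eq_zero.1 h with h | h
      · exact hij (hkinj (by linarith))
      · exact he0 h
  have hdense : Dense badᶜ := hcount.dense_compl ℝ
  have hgoodε : ∀ ε : ℝ, ε ∉ bad →
      (TT ρ m (fun i => z i + ε • (k i • e)) - TT ρ m (fun i => y i + ε • (k i • e)))
        - (TT σ m (fun i => z i + ε • (k i • e)) - TT σ m (fun i => y i + ε • (k i • e))) ≤ M := by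
    intro ε hε
    refine mixed_of_good hρ hσ hRρ hRσ hm hsρ hsσ _ _ ?_ M ?_
    · intro t i j hij
      by_contra hne
      apply hε
      simp only [hbad, mem_iUnion, mem_ofPred_eq]
      refine ⟨t, i, j, hne, ?_⟩
      simpa only [add_sub_add_right_eq_sub] using hij
    · intro w ψ₀ ψ₁ hw h0 h1
      simpa only [add_sub_add_right_eq_sub] using hM w ψ₀ ψ₁ hw h0 h1
  -- continuity
  refine le_of_forall_pos_le_add fun η hη => ?_
  have hR0 : 0 ≤ |R| := abs_nonneg R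
  have hRρ' : ∀ᵐ x ∂ρ, ‖x‖ ≤ |R| := by
    filter_upwards [hRρ] with x hx; exact hx.trans (le_abs_self R)
  have hRσ' : ∀ᵐ x ∂σ, ‖x‖ ≤ |R| := by
    filter_upwards [hRσ] with x hx; exact hx.trans (le_abs_self R)
  set S : ℝ := ρ.real univ + 1 with hS
  have hS1 : 0 < S := by have : 0 ≤ ρ.real univ := measureReal_nonneg; linarith
  have hσρ : σ.real univ = ρ.real univ := by rw [← hsσ, hsρ]
  set τ : ℝ := η / (4 * ((|R| + 1) * (N + 1) * S)) with hτ
  have hN0 : 0 ≤ N := by positivity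
  have hτ0 : 0 < τ := by positivity
  obtain ⟨ε, hε1, hε2⟩ := hdense.exists_mem_open isOpen_Ioo (nonempty_Ioo.2 hτ0)
  have hdist : ∀ (u : ι → E) (i : ι), ‖u i - (u i + ε • (k i • e))‖ ≤ ε * N := by
    intro u i
    rw [sub_add_cancel_left, norm_neg, norm_smul, norm_smul, he, mul_one,
      Real.norm_of_nonneg hε2.1.le, Real.norm_of_nonneg (hk0 i)]
    exact mul_le_mul_of_nonneg_left (hkN i) hε2.1.le
  have hdist' : ∀ (u : ι → E) (i : ι), ‖(u i + ε • (k i • e)) - u i‖ ≤ ε * N := by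
    intro u i; rw [norm_sub_rev]; exact hdist u i
  have hsmall : |R| * (ε * N) * ρ.real univ ≤ η / 4 := by
    have h1 : ε * ((|R| + 1) * (N + 1) * S) ≤ η / 4 := by
      have h2 : τ * ((|R| + 1) * (N + 1) * S) = η / 4 := by
        rw [hτ]; field_simp
      rw [← h2]
      have := hε2.2.le
      gcongr
    refine le_trans ?_ h1
    have h3 : |R| * (ε * N) * ρ.real univ = ε * (|R| * N * ρ.real univ) := by ring
    rw [h3]
    have h4 : 0 ≤ ρ.real univ := measureReal_nonneg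
    have := hε2.1.le
    gcongr <;> linarith
  have a1 := TT_le_TT_add hRρ' z (fun i => z i + ε • (k i • e)) hm hsρ (ε * N) (hdist z)
  have a2 := TT_le_TT_add hRρ' (fun i => y i + ε • (k i • e)) y hm hsρ (ε * N) (hdist' y)
  have a3 := TT_le_TT_add hRσ' (fun i => z i + ε • (k i • e)) z hm hsσ (ε * N) (hdist' z)
  have a4 := TT_le_TT_add hRσ' y (fun i => y i + ε • (k i • e)) hm hsσ (ε * N) (hdist y)
  rw [hσρ] at a3 a4
  have a5 := hgoodε ε hε1
  linarith

end General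

section Mixed

/-- Statement of the cell estimate (B), with its constant. -/
def CellEstimate (d : ℕ) (K : Set (EuclideanSpace ℝ (Fin d))) (C : ℝ) : Prop :=
  ∀ (ι : Type) [Fintype ι] [Nonempty ι] (m : ι → ℝ)
      (y : ι → EuclideanSpace ℝ (Fin d)) (ψ₀ ψ₁ : ι → ℝ) (g : EuclideanSpace ℝ (Fin d) → ℝ),
      (∀ i, 0 < m i) → Function.Injective y → Measurable g → (∀ x, |g x| ≤ 1 / 2) →
      (∀ i, (uniformProbOn K).real (cell y ψ₀ i) = m i) →
      (∀ i, (tilt K g).real (cell y ψ₁ i) = m i) →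
      ∑ i, (m i)⁻¹ * ‖(∫ x in cell y ψ₀ i, x ∂(uniformProbOn K))
          - ∫ x in cell y ψ₁ i, x ∂(tilt K g)‖ ^ 2 ≤ C * ∫ x, g x ^ 2 ∂(uniformProbOn K)

/-- (E) from (B). -/
theorem mixed_difference_of_cell (d : ℕ) (K : Set (EuclideanSpace ℝ (Fin d))) (hKc : IsCompact K)
    (hKi : (interior K).Nonempty) {C : ℝ} (hC : 0 ≤ C) (hB : CellEstimate d K C) :
    ∀ (ι : Type) [Fintype ι] [Nonempty ι] (m : ι → ℝ)
      (y z : ι → EuclideanSpace ℝ (Fin d)) (g : EuclideanSpace ℝ (Fin d) → ℝ),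
      (∀ i, 0 < m i) → ∑ i, m i = 1 → Measurable g → (∀ x, |g x| ≤ 1 / 2) →
      ∫ x, g x ∂(uniformProbOn K) = 0 →
      (TT (uniformProbOn K) m z - TT (uniformProbOn K) m y)
        - (TT (tilt K g) m z - TT (tilt K g) m y) ≤
      √C * √(∫ x, g x ^ 2 ∂(uniformProbOn K)) * √(∑ i, m i * ‖y i - z i‖ ^ 2) := by
  intro ι _ _ m y z g hm hsum hgm hg hg0
  have hprob := uniform_isProb hKc hKi
  have hfin := tilt_isFinite hg (K := K)
  obtain ⟨R, hR0, hRK, hRρ⟩ := exists_bound hKc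
  have hRσ : ∀ᵐ x ∂(tilt K g), ‖x‖ ≤ R := (tilt_ac_uniform g) hRρ
  refine mixed_of_bound uniform_ac (tilt_ac g) hRρ hRσ hm ?_ ?_ y z _ (by positivity) ?_
  · rw [hsum]; simp
  · rw [hsum, tilt_real_univ hgm hg hg0]
  intro w ψ₀ ψ₁ hw h0 h1
  have hcell := hB ι m w ψ₀ ψ₁ g hm hw hgm hg h0 h1
  set b : ι → EuclideanSpace ℝ (Fin d) := fun i => (∫ x in cell w ψ₀ i, x ∂(uniformProbOn K))
          - ∫ x in cell w ψ₁ i, x ∂(tilt K g) with hb
  have hCS : ∑ i, (√((m i)⁻¹) * ‖b i‖) * (√(m i) * ‖y i - z i‖)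
      ≤ √(∑ i, (√((m i)⁻¹) * ‖b i‖) ^ 2) * √(∑ i, (√(m i) * ‖y i - z i‖) ^ 2) :=
    Real.sum_mul_le_sqrt_mul_sqrt _ _ _
  have e1 : ∀ i, (√((m i)⁻¹) * ‖b i‖) ^ 2 = (m i)⁻¹ * ‖b i‖ ^ 2 := fun i => by
    rw [mul_pow, Real.sq_sqrt (inv_nonneg.2 (hm i).le)]
  have e2 : ∀ i, (√(m i) * ‖y i - z i‖) ^ 2 = m i * ‖y i - z i‖ ^ 2 := fun i => by
    rw [mul_pow, Real.sq_sqrt (hm i).le]
  simp only [e1, e2] at hCS
  calc ∑ i, inner ℝ (b i) (z i - y i)
      ≤ ∑ i, (√((m i)⁻¹) * ‖b i‖) * (√(m i) * ‖y i - z i‖) := by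
        refine Finset.sum_le_sum fun i _ => ?_
        refine (real_inner_le_norm _ _).trans (le_of_eq ?_)
        have h2 : √((m i)⁻¹) * √(m i) = 1 := by
          rw [← Real.sqrt_mul (inv_nonneg.2 (hm i).le), inv_mul_cancel₀ (hm i).ne', Real.sqrt_one]
        rw [norm_sub_rev (z i)]
        calc ‖b i‖ * ‖y i - z i‖ = (√((m i)⁻¹) * √(m i)) * (‖b i‖ * ‖y i - z i‖) := by
              rw [h2, one_mul]
          _ = _ := by ring
    _ ≤ √(∑ i, (m i)⁻¹ * ‖b i‖ ^ 2) * √(∑ i, m i * ‖y i - z i‖ ^ 2) := hCS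
    _ ≤ √(C * ∫ x, g x ^ 2 ∂(uniformProbOn K)) * √(∑ i, m i * ‖y i - z i‖ ^ 2) := by
        gcongr
    _ = √C * √(∫ x, g x ^ 2 ∂(uniformProbOn K)) * √(∑ i, m i * ‖y i - z i‖ ^ 2) := by
        rw [Real.sqrt_mul hC]

end Mixed

end Crest.Agent.R82
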