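import Mathlib
import Crest.Prelude.Def_QuadraticTransport
import Crest.Agent.R82.SemiDiscrete

/-! Row 82 (S0109), piece (C): strong convexity of the semi-dual functional, from the midpoint
Prekopa-Leindler inequality (taken as the hypothesis `PLHalf d`). -/

set_option autoImplicit false
open MeasureTheory Set
open scoped ENNReal NNReal
open Crest.AnalysisR.OT

namespace Crest.Agent.R82.StrongConv

/-- The midpoint Prekopa-Leindler inequality in dimension `d`. -/
def PLHalf (d : ℕ) : Prop :=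
  ∀ (f g h : EuclideanSpace ℝ (Fin d) → ℝ≥0∞), Measurable f → Measurable g → Measurable h →
    (∀ x y, f x * g y ≤ h ((1 / 2 : ℝ) • (x + y)) ^ 2) →
    (∫⁻ x, f x) * (∫⁻ x, g x) ≤ (∫⁻ x, h x) ^ 2

/-- Quadratic lower bound for the exponential on a bounded interval. -/
lemma exp_lower {t T : ℝ} (hT : 0 ≤ T) (ht : |t| ≤ T) :
    1 + t + t ^ 2 / (4 + 2 * T) ≤ Real.exp t := by
  have hpos : (0 : ℝ) < 4 + 2 * T := by linarith
  rcases le_or_gt (-2) t with h | h
  · have h1 : 1 + t / 2 ≤ Real.exp (t / 2) := by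
      have := Real.add_one_le_exp (t / 2); linarith
    have h2 : 0 ≤ 1 + t / 2 := by linarith
    have h3 : (1 + t / 2) ^ 2 ≤ Real.exp (t / 2) ^ 2 := by gcongr
    have h4 : Real.exp (t / 2) ^ 2 = Real.exp t := by
      rw [← Real.exp_nat_mul]; congr 1; push_cast; ring
    rw [h4] at h3
    have h5 : t ^ 2 / (4 + 2 * T) ≤ t ^ 2 / 4 := by
      gcongr; linarith
    nlinarith
  · have h0 : 0 < Real.exp t := Real.exp_pos t
    have h1 : -t ≤ T := by
      rw [abs_le] at ht; linarith
    have h2 : t ^ 2 / (4 + 2 * T) ≤ -t / 2 := by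
      rw [div_le_div_iff₀ hpos (by norm_num)]
      nlinarith
    linarith

lemma exp_upper {D M : ℝ} (h0 : 0 ≤ D) (hM : D ≤ M) : Real.exp D ≤ 1 + Real.exp M * D := by
  have h1 : 1 - D ≤ Real.exp (-D) := by
    have := Real.add_one_le_exp (-D); linarith
  have h2 : Real.exp (-D) * Real.exp D = 1 := by rw [← Real.exp_add]; simp
  have h3 : 0 < Real.exp D := Real.exp_pos D
  have h4 : Real.exp D ≤ Real.exp M := Real.exp_le_exp.2 hM
  have h5 : (1 - D) * Real.exp D ≤ 1 := by
    calc (1 - D) * Real.exp D ≤ Real.exp (-D) * Real.exp D := by gcongr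
      _ = 1 := h2
  have h6 : D * Real.exp D ≤ Real.exp M * D := by
    rw [mul_comm]; gcongr
  linarith

variable {d : ℕ}

lemma setInt_ofReal (K : Set (EuclideanSpace ℝ (Fin d))) (hKc : IsCompact K)
    (F : EuclideanSpace ℝ (Fin d) → ℝ) (hF : Continuous F) (hF0 : ∀ x, 0 ≤ F x) :
    ∫⁻ x, K.indicator (fun x => ENNReal.ofReal (F x)) x = ENNReal.ofReal (∫ x in K, F x) := by
  rw [lintegral_indicator hKc.measurableSet,
    ofReal_integral_eq_lintegral_ofReal (hF.continuousOn.integrableOn_compact hKc)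
      (Filter.Eventually.of_forall hF0)]

/-- The inequality `(∫ f)(∫ g) ≤ (∫ h)²` for exponentials on a convex compact set. -/
lemma pl_exp (hPL : PLHalf d) (K : Set (EuclideanSpace ℝ (Fin d))) (hKc : IsCompact K)
    (hKv : Convex ℝ K) (F G H : EuclideanSpace ℝ (Fin d) → ℝ) (hF : Continuous F)
    (hG : Continuous G) (hH : Continuous H)
    (hmid : ∀ x ∈ K, ∀ y ∈ K, F x + G y ≤ 2 * H ((1 / 2 : ℝ) • (x + y))) :
    (∫ x in K, Real.exp (F x)) * (∫ x in K, Real.exp (G x)) ≤ (∫ x in K, Real.exp (H x)) ^ 2 := by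
  have key := hPL (K.indicator fun x => ENNReal.ofReal (Real.exp (F x)))
    (K.indicator fun x => ENNReal.ofReal (Real.exp (G x)))
    (K.indicator fun x => ENNReal.ofReal (Real.exp (H x)))
    ((by fun_prop : Measurable fun x => ENNReal.ofReal (Real.exp (F x))).indicator
      hKc.measurableSet)
    ((by fun_prop : Measurable fun x => ENNReal.ofReal (Real.exp (G x))).indicator
      hKc.measurableSet)
    ((by fun_prop : Measurable fun x => ENNReal.ofReal (Real.exp (H x))).indicator
      hKc.measurableSet) ?_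
  · rw [setInt_ofReal K hKc _ (by fun_prop) (fun x => (Real.exp_pos _).le),
      setInt_ofReal K hKc _ (by fun_prop) (fun x => (Real.exp_pos _).le),
      setInt_ofReal K hKc _ (by fun_prop) (fun x => (Real.exp_pos _).le),
      ← ENNReal.ofReal_mul (by positivity), ← ENNReal.ofReal_pow (by positivity),
      ENNReal.ofReal_le_ofReal_iff (by positivity)] at key
    exact key
  · intro x y
    by_cases hx : x ∈ K
    · by_cases hy : y ∈ K
      · have hz : (1 / 2 : ℝ) • (x + y) ∈ K := by
          have := hKv hx hy (by norm_num : (0 : ℝ) ≤ 1 / 2) (by norm_num : (0 : ℝ) ≤ 1 / 2)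
            (by norm_num)
          rwa [smul_add]
        rw [indicator_of_mem hx, indicator_of_mem hy, indicator_of_mem hz,
          ← ENNReal.ofReal_mul (Real.exp_pos _).le, ← ENNReal.ofReal_pow (Real.exp_pos _).le]
        apply ENNReal.ofReal_le_ofReal
        rw [← Real.exp_add, ← Real.exp_nat_mul]
        apply Real.exp_le_exp.2
        have := hmid x hx y hy
        push_cast
        linarith
      · rw [indicator_of_notMem hy, mul_zero]; exact zero_le
    · rw [indicator_of_notMem hx, zero_mul]; exact zero_le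

/-- Core estimate. -/
theorem core (hPL : PLHalf d) (K : Set (EuclideanSpace ℝ (Fin d))) (hKc : IsCompact K)
    (hKv : Convex ℝ K) (hKne : K.Nonempty) (hvol : 0 < volume K) (B : ℝ) (hB : 0 ≤ B)
    (φ₀ φ₁ φh : EuclideanSpace ℝ (Fin d) → ℝ) (c0 : Continuous φ₀) (c1 : Continuous φ₁)
    (ch : Continuous φh) (h0 : ∀ x ∈ K, ∀ y ∈ K, φ₀ x - φ₀ y ≤ B)
    (h1 : ∀ x ∈ K, ∀ y ∈ K, φ₁ x - φ₁ y ≤ B)
    (hmid : ∀ x ∈ K, ∀ y ∈ K, φh ((1 / 2 : ℝ) • (x + y)) ≤ (φ₀ x + φ₁ y) / 2) :
    ∃ a : ℝ, Real.exp (-(3 * B)) / (16 * (1 + B)) * ∫ x in K, (φ₁ x - φ₀ x - a) ^ 2 ≤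
      ∫ x in K, ((φ₀ x + φ₁ x) / 2 - φh x) := by
  obtain ⟨x₀, hx₀⟩ := hKne
  set a := φ₀ x₀ with ha
  set b := φ₁ x₀ with hb
  set S : EuclideanSpace ℝ (Fin d) → ℝ := fun x => (φ₀ x + φ₁ x) / 2 - (a + b) / 2 with hS
  set U : EuclideanSpace ℝ (Fin d) → ℝ := fun x => (φ₁ x - b) - (φ₀ x - a) with hU
  set D : EuclideanSpace ℝ (Fin d) → ℝ := fun x => min ((φ₀ x + φ₁ x) / 2 - φh x) B with hD
  have cS : Continuous S := by simp only [hS]; fun_prop
  have cU : Continuous U := by simp only [hU]; fun_prop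
  have cD : Continuous D := by simp only [hD]; fun_prop
  have bS : ∀ x ∈ K, |S x| ≤ B := by
    intro x hx
    have e1 := h0 x hx x₀ hx₀
    have e2 := h0 x₀ hx₀ x hx
    have e3 := h1 x hx x₀ hx₀
    have e4 := h1 x₀ hx₀ x hx
    rw [abs_le]
    constructor <;> simp only [hS, ha, hb] <;> linarith
  have bU : ∀ x ∈ K, |U x| ≤ 2 * B := by
    intro x hx
    have e1 := h0 x hx x₀ hx₀
    have e2 := h0 x₀ hx₀ x hx
    have e3 := h1 x hx x₀ hx₀
    have e4 := h1 x₀ hx₀ x hx
    rw [abs_le]
    constructor <;> simp only [hU, ha, hb] <;> linarith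
  have bD0 : ∀ x ∈ K, 0 ≤ D x := by
    intro x hx
    have e := hmid x hx x hx
    have e2 : (1 / 2 : ℝ) • (x + x) = x := by
      rw [← two_smul ℝ x, smul_smul]; norm_num
    rw [e2] at e
    simp only [hD]
    exact le_min (by linarith) hB
  have bDB : ∀ x, D x ≤ B := fun x => min_le_right _ _
  have int : ∀ {F : EuclideanSpace ℝ (Fin d) → ℝ}, Continuous F → IntegrableOn F K volume :=
    fun hF => hF.continuousOn.integrableOn_compact hKc
  -- Prekopa-Leindler
  have hpl := pl_exp hPL K hKc hKv (fun x => -S x + U x / 2) (fun x => -S x - U x / 2)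
    (fun x => -S x + D x) (by fun_prop) (by fun_prop) (by fun_prop) (by
      intro x hx y hy
      have hz : (1 / 2 : ℝ) • (x + y) ∈ K := by
        have := hKv hx hy (by norm_num : (0 : ℝ) ≤ 1 / 2) (by norm_num : (0 : ℝ) ≤ 1 / 2)
          (by norm_num)
        rwa [smul_add]
      set z := (1 / 2 : ℝ) • (x + y) with hzdef
      have e1 := hmid x hx y hy
      rw [← hzdef] at e1
      have e2 := h0 z hz x hx
      have e3 := h1 z hz y hy
      have e4 : (φ₀ z + φ₁ z - φ₀ x - φ₁ y) / 2 ≤ D z := by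
        simp only [hD]
        refine le_min ?_ ?_ <;> linarith
      simp only [hS, hU]
      linarith)
  set w : EuclideanSpace ℝ (Fin d) → ℝ := fun x => Real.exp (-S x) with hw
  have cw : Continuous w := by simp only [hw]; fun_prop
  have wpos : ∀ x, 0 < w x := fun x => Real.exp_pos _
  set W := ∫ x in K, w x with hW
  have hWpos : 0 < W := by
    rw [hW]
    rw [setIntegral_pos_iff_support_of_nonneg_ae (Filter.Eventually.of_forall fun x => (wpos x).le)
      (int cw)]
    have : Function.support w ∩ K = K := by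
      ext x; simp [(wpos x).ne']
    rw [this]; exact hvol
  set c := (∫ x in K, w x * U x) / W with hc
  have bc : |c| ≤ 2 * B := by
    rw [hc, abs_div, abs_of_pos hWpos, div_le_iff₀ hWpos]
    calc |∫ x in K, w x * U x| ≤ ∫ x in K, |w x * U x| := abs_integral_le_integral_abs
      _ ≤ ∫ x in K, 2 * B * w x := by
          refine setIntegral_mono_on (int (by fun_prop)) (int (by fun_prop)) hKc.measurableSet
            fun x hx => ?_
          rw [abs_mul, abs_of_pos (wpos x), mul_comm]
          exact mul_le_mul_of_nonneg_right (bU x hx) (wpos x).le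
      _ = 2 * B * W := by rw [integral_const_mul]
  set Q := ∫ x in K, w x * ((U x - c) / 2) ^ 2 with hQ
  set ε : ℝ := 1 / (4 + 2 * (2 * B)) with hε
  have hεpos : 0 < ε := by rw [hε]; positivity
  have ht : ∀ x ∈ K, |(U x - c) / 2| ≤ 2 * B := by
    intro x hx
    have e1 := abs_le.1 (bU x hx)
    have e2 := abs_le.1 bc
    rw [abs_le]; constructor <;> linarith [e1.1, e1.2, e2.1, e2.2]
  have hzero : ∫ x in K, w x * ((U x - c) / 2) = 0 := by
    have e1 : ∀ x, w x * ((U x - c) / 2) = (1 / 2) * (w x * U x) - (c / 2) * w x := by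
      intro x; ring
    simp_rw [e1]
    rw [integral_sub ((int (by fun_prop))) (int (by fun_prop)), integral_const_mul,
      integral_const_mul, ← hW]
    have : (∫ x in K, w x * U x) = c * W := by rw [hc]; field_simp
    rw [this]; ring
  have hI1 : Real.exp (c / 2) * (W + ε * Q) ≤ ∫ x in K, Real.exp (-S x + U x / 2) := by
    have e1 : Real.exp (c / 2) * (W + ε * Q)
        = ∫ x in K, Real.exp (c / 2) * (w x + w x * ((U x - c) / 2)
          + ε * (w x * ((U x - c) / 2) ^ 2)) := by
      rw [integral_const_mul, integral_add ((int (by fun_prop))) (int (by fun_prop)),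
        integral_add ((int (by fun_prop))) (int (by fun_prop)), hzero, integral_const_mul]
      ring
    rw [e1]
    refine setIntegral_mono_on (int (by fun_prop)) (int (by fun_prop)) hKc.measurableSet
      fun x hx => ?_
    have e2 := exp_lower (by linarith : (0 : ℝ) ≤ 2 * B) (ht x hx)
    have e3 : Real.exp (-S x + U x / 2) = Real.exp (c / 2) * (w x * Real.exp ((U x - c) / 2)) := by
      simp only [hw]
      rw [← Real.exp_add, ← Real.exp_add]; congr 1; ring
    rw [e3]
    refine mul_le_mul_of_nonneg_left ?_ (Real.exp_pos _).le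
    calc w x + w x * ((U x - c) / 2) + ε * (w x * ((U x - c) / 2) ^ 2)
        = w x * (1 + (U x - c) / 2 + ((U x - c) / 2) ^ 2 / (4 + 2 * (2 * B))) := by
          rw [hε]; ring
      _ ≤ w x * Real.exp ((U x - c) / 2) := mul_le_mul_of_nonneg_left e2 (wpos x).le
  have hI2 : Real.exp (-(c / 2)) * (W + ε * Q) ≤ ∫ x in K, Real.exp (-S x - U x / 2) := by
    have e1 : Real.exp (-(c / 2)) * (W + ε * Q)
        = ∫ x in K, Real.exp (-(c / 2)) * (w x - w x * ((U x - c) / 2)
          + ε * (w x * ((U x - c) / 2) ^ 2)) := by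
      rw [integral_const_mul, integral_add ((int (by fun_prop))) (int (by fun_prop)),
        integral_sub ((int (by fun_prop))) (int (by fun_prop)), hzero, integral_const_mul]
      ring
    rw [e1]
    refine setIntegral_mono_on (int (by fun_prop)) (int (by fun_prop)) hKc.measurableSet
      fun x hx => ?_
    have ht' : |-((U x - c) / 2)| ≤ 2 * B := by rw [abs_neg]; exact ht x hx
    have e2 := exp_lower (by linarith : (0 : ℝ) ≤ 2 * B) ht'
    have e3 : Real.exp (-S x - U x / 2)
        = Real.exp (-(c / 2)) * (w x * Real.exp (-((U x - c) / 2))) := by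
      simp only [hw]
      rw [← Real.exp_add, ← Real.exp_add]; congr 1; ring
    rw [e3]
    refine mul_le_mul_of_nonneg_left ?_ (Real.exp_pos _).le
    calc w x - w x * ((U x - c) / 2) + ε * (w x * ((U x - c) / 2) ^ 2)
        = w x * (1 + -((U x - c) / 2) + (-((U x - c) / 2)) ^ 2 / (4 + 2 * (2 * B))) := by
          rw [hε]; ring
      _ ≤ w x * Real.exp (-((U x - c) / 2)) := mul_le_mul_of_nonneg_left e2 (wpos x).le
  have hI3 : ∫ x in K, Real.exp (-S x + D x) ≤ W + Real.exp B * ∫ x in K, w x * D x := by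
    have e1 : W + Real.exp B * ∫ x in K, w x * D x
        = ∫ x in K, (w x + Real.exp B * (w x * D x)) := by
      rw [integral_add ((int (by fun_prop))) (int (by fun_prop)), integral_const_mul]
    rw [e1]
    refine setIntegral_mono_on (int (by fun_prop)) (int (by fun_prop)) hKc.measurableSet
      fun x hx => ?_
    have e2 := exp_upper (bD0 x hx) (bDB x)
    rw [Real.exp_add]
    calc Real.exp (-S x) * Real.exp (D x) ≤ w x * (1 + Real.exp B * D x) :=
          mul_le_mul_of_nonneg_left e2 (wpos x).le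
      _ = w x + Real.exp B * (w x * D x) := by ring
  have hQ0 : 0 ≤ Q := by
    rw [hQ]
    exact integral_nonneg fun x => mul_nonneg (wpos x).le (sq_nonneg _)
  have hD0 : 0 ≤ ∫ x in K, w x * D x :=
    setIntegral_nonneg hKc.measurableSet fun x hx => mul_nonneg (wpos x).le (bD0 x hx)
  have hsq : (W + ε * Q) ^ 2 ≤ (W + Real.exp B * ∫ x in K, w x * D x) ^ 2 := by
    have hA : 0 ≤ W + ε * Q := by positivity
    calc (W + ε * Q) ^ 2
        = (Real.exp (c / 2) * (W + ε * Q)) * (Real.exp (-(c / 2)) * (W + ε * Q)) := by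
          have : Real.exp (c / 2) * Real.exp (-(c / 2)) = 1 := by
            rw [← Real.exp_add]; simp
          linear_combination (-(W + ε * Q) ^ 2) * this
      _ ≤ (∫ x in K, Real.exp (-S x + U x / 2)) * (∫ x in K, Real.exp (-S x - U x / 2)) := by
          apply mul_le_mul hI1 hI2 (by positivity)
          exact integral_nonneg fun x => (Real.exp_pos _).le
      _ ≤ (∫ x in K, Real.exp (-S x + D x)) ^ 2 := hpl
      _ ≤ (W + Real.exp B * ∫ x in K, w x * D x) ^ 2 := by
          have : 0 ≤ ∫ x in K, Real.exp (-S x + D x) := integral_nonneg fun x => (Real.exp_pos _).le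
          gcongr
  have hlin : ε * Q ≤ Real.exp B * ∫ x in K, w x * D x := by
    have hA : 0 ≤ W + Real.exp B * ∫ x in K, w x * D x := by positivity
    have := abs_le_of_sq_le_sq hsq hA
    linarith [le_of_abs_le this]
  -- compare the weights with constants
  have hup : ∫ x in K, w x * D x ≤ Real.exp B * ∫ x in K, ((φ₀ x + φ₁ x) / 2 - φh x) := by
    rw [← integral_const_mul]
    refine setIntegral_mono_on (int (by fun_prop)) (int (by fun_prop)) hKc.measurableSet
      fun x hx => ?_
    have e1 : w x ≤ Real.exp B := by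
      simp only [hw]; apply Real.exp_le_exp.2
      have := (abs_le.1 (bS x hx)).1; linarith
    exact mul_le_mul e1 (min_le_left _ _) (bD0 x hx) (Real.exp_pos _).le
  have hlow : Real.exp (-B) / 4 * ∫ x in K, (φ₁ x - φ₀ x - (b - a + c)) ^ 2 ≤ Q := by
    rw [← integral_const_mul, hQ]
    refine setIntegral_mono_on (int (by fun_prop)) (int (by fun_prop)) hKc.measurableSet
      fun x hx => ?_
    have e1 : Real.exp (-B) ≤ w x := by
      simp only [hw]; apply Real.exp_le_exp.2
      have := (abs_le.1 (bS x hx)).2; linarith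
    calc Real.exp (-B) / 4 * (φ₁ x - φ₀ x - (b - a + c)) ^ 2
        = Real.exp (-B) * ((U x - c) / 2) ^ 2 := by simp only [hU]; ring
      _ ≤ w x * ((U x - c) / 2) ^ 2 := by gcongr
  refine ⟨b - a + c, ?_⟩
  set I := ∫ x in K, (φ₁ x - φ₀ x - (b - a + c)) ^ 2 with hI
  set J := ∫ x in K, ((φ₀ x + φ₁ x) / 2 - φh x) with hJ
  have hfin : ε * (Real.exp (-B) / 4 * I) ≤ Real.exp B * (Real.exp B * J) :=
    (mul_le_mul_of_nonneg_left hlow hεpos.le).trans
      (hlin.trans (mul_le_mul_of_nonneg_left hup (Real.exp_pos _).le))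
  have e5 : Real.exp (-(3 * B)) = Real.exp (-B) * Real.exp (-B) * Real.exp (-B) := by
    rw [← Real.exp_add, ← Real.exp_add]; congr 1; ring
  have e6 : Real.exp (-B) * Real.exp B = 1 := by rw [← Real.exp_add]; simp
  have e7 : Real.exp (-(3 * B)) / (16 * (1 + B)) * I
      = Real.exp (-B) * Real.exp (-B) * (ε * (Real.exp (-B) / 4 * I)) := by
    rw [e5, hε]
    field_simp
    ring
  rw [e7]
  calc Real.exp (-B) * Real.exp (-B) * (ε * (Real.exp (-B) / 4 * I))
      ≤ Real.exp (-B) * Real.exp (-B) * (Real.exp B * (Real.exp B * J)) :=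
        mul_le_mul_of_nonneg_left hfin (by positivity)
    _ = (Real.exp (-B) * Real.exp B) * (Real.exp (-B) * Real.exp B) * J := by ring
    _ = J := by rw [e6]; ring

/-- (C) strong convexity of the semi-dual functional (from Prekopa-Leindler). -/
theorem strong_convexity (d : ℕ) (hPL : PLHalf d) (K : Set (EuclideanSpace ℝ (Fin d)))
    (hKc : IsCompact K) (hKv : Convex ℝ K) (hKi : (interior K).Nonempty) (L : ℝ) :
    ∃ c : ℝ, 0 < c ∧ ∀ (ι : Type) [Fintype ι] [Nonempty ι] (m : ι → ℝ)
      (y : ι → EuclideanSpace ℝ (Fin d)) (ψ₀ ψ₁ : ι → ℝ),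
      (∀ i, ‖y i‖ ≤ L) → (∀ χ, semiDual (uniformProbOn K) m y ψ₀ ≤ semiDual (uniformProbOn K) m y χ) →
      ∃ a : ℝ, c * ∫ x, (phi y ψ₁ x - phi y ψ₀ x - a) ^ 2 ∂(uniformProbOn K) ≤
        semiDual (uniformProbOn K) m y ψ₁ - semiDual (uniformProbOn K) m y ψ₀ := by
  have hvol : 0 < volume K :=
    (isOpen_interior.measure_pos volume hKi).trans_le (measure_mono interior_subset)
  have hvolfin : volume K ≠ ∞ := hKc.measure_lt_top.ne
  set B : ℝ := |L| * Metric.diam K with hB
  have hB0 : 0 ≤ B := mul_nonneg (abs_nonneg _) Metric.diam_nonneg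
  refine ⟨2 * (Real.exp (-(3 * B)) / (16 * (1 + B))), by positivity, ?_⟩
  intro ι _ _ m y ψ₀ ψ₁ hy hmin
  set ψh : ι → ℝ := fun i => (ψ₀ i + ψ₁ i) / 2 with hψh
  have hlip : ∀ ψ : ι → ℝ, ∀ x ∈ K, ∀ x' ∈ K, phi y ψ x - phi y ψ x' ≤ B := by
    intro ψ x hx x' hx'
    have h1 := (lipschitzWith_phi y ψ (Real.toNNReal |L|) fun i => by
      rw [Real.coe_toNNReal _ (abs_nonneg L)]; exact (hy i).trans (le_abs_self L)).dist_le_mul x x'
    rw [Real.coe_toNNReal _ (abs_nonneg L), Real.dist_eq] at h1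
    have h2 : dist x x' ≤ Metric.diam K := Metric.dist_le_diam_of_mem hKc.isBounded hx hx'
    calc phi y ψ x - phi y ψ x' ≤ |phi y ψ x - phi y ψ x'| := le_abs_self _
      _ ≤ |L| * dist x x' := h1
      _ ≤ B := by rw [hB]; gcongr
  obtain ⟨a, ha⟩ := core hPL K hKc hKv (hKi.mono interior_subset) hvol B hB0
    (phi y ψ₀) (phi y ψ₁) (phi y ψh) (continuous_phi y _) (continuous_phi y _)
    (continuous_phi y _) (hlip ψ₀) (hlip ψ₁) (by
      intro x _ x' _
      refine phi_le fun i => ?_
      have h1 := le_phi y ψ₀ x i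
      have h2 := le_phi y ψ₁ x' i
      rw [inner_smul_left, inner_add_left]
      simp only [hψh, conj_trivial]
      linarith)
  refine ⟨a, ?_⟩
  have hres : ∀ f : EuclideanSpace ℝ (Fin d) → ℝ,
      ∫ x, f x ∂(uniformProbOn K) = (volume K).toReal⁻¹ * ∫ x in K, f x := by
    intro f
    rw [uniformProbOn, integral_smul_measure, smul_eq_mul, ENNReal.toReal_inv]
  have int : ∀ {F : EuclideanSpace ℝ (Fin d) → ℝ}, Continuous F → IntegrableOn F K volume :=
    fun hF => hF.continuousOn.integrableOn_compact hKc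
  have hV : 0 ≤ (volume K).toReal⁻¹ := by positivity
  have hsum : semiDual (uniformProbOn K) m y ψ₀ + semiDual (uniformProbOn K) m y ψ₁
      - 2 * semiDual (uniformProbOn K) m y ψh
      = 2 * ((volume K).toReal⁻¹ * ∫ x in K, ((phi y ψ₀ x + phi y ψ₁ x) / 2 - phi y ψh x)) := by
    unfold semiDual
    rw [hres, hres, hres, integral_sub, integral_div, integral_add]
    · have : ∑ i, m i * ψh i = (∑ i, m i * ψ₀ i + ∑ i, m i * ψ₁ i) / 2 := by
        rw [← Finset.sum_add_distrib, Finset.sum_div]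
        refine Finset.sum_congr rfl fun i _ => ?_
        simp only [hψh]; ring
      rw [this]; ring
    · exact int (continuous_phi y _)
    · exact int (continuous_phi y _)
    · exact int (((continuous_phi y _).add (continuous_phi y _)).div_const _)
    · exact int (continuous_phi y _)
  have hmin' := hmin ψh
  rw [hres]
  have hfin := mul_le_mul_of_nonneg_left ha hV
  have e : 2 * (Real.exp (-(3 * B)) / (16 * (1 + B))) *
      ((volume K).toReal⁻¹ * ∫ x in K, (phi y ψ₁ x - phi y ψ₀ x - a) ^ 2)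
      = 2 * ((volume K).toReal⁻¹ * (Real.exp (-(3 * B)) / (16 * (1 + B)) *
        ∫ x in K, (phi y ψ₁ x - phi y ψ₀ x - a) ^ 2)) := by ring
  rw [e]
  linarith

end Crest.Agent.R82.StrongConv
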