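import Mathlib
import Crest.Prelude.Def_QuadraticTransport
import Crest.Agent.R82.SemiDiscrete
import Crest.Agent.R82.Tilt
import Crest.Agent.R82.Mixed
import Crest.Agent.R82.StrongConv

/-! Row 82 (S0109), piece (F): stability of the semi-discrete potentials, from the mixed difference
estimate (E) and strong convexity (C). -/

set_option autoImplicit false
set_option linter.unusedSectionVars false
open MeasureTheory Set Filter Topology
open scoped ENNReal NNReal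
open Crest.AnalysisR.OT

namespace Crest.Agent.R82

/-- Bounded measurable functions. -/
structure Bd {X : Type*} [MeasurableSpace X] (ρ : Measure X) (f : X → ℝ) : Prop where
  meas : Measurable f
  bdd : ∃ B : ℝ, ∀ᵐ x ∂ρ, |f x| ≤ B

namespace Bd

variable {X : Type*} [MeasurableSpace X] {ρ : Measure X} {f g : X → ℝ}

theorem const (c : ℝ) : Bd ρ (fun _ => c) := ⟨measurable_const, |c|, Eventually.of_forall fun _ => le_rfl⟩

theorem add (hf : Bd ρ f) (hg : Bd ρ g) : Bd ρ (fun x => f x + g x) := by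
  obtain ⟨A, hA⟩ := hf.bdd
  obtain ⟨B, hB⟩ := hg.bdd
  refine ⟨hf.meas.add hg.meas, A + B, ?_⟩
  filter_upwards [hA, hB] with x h1 h2
  exact (abs_add_le _ _).trans (add_le_add h1 h2)

theorem sub (hf : Bd ρ f) (hg : Bd ρ g) : Bd ρ (fun x => f x - g x) := by
  obtain ⟨A, hA⟩ := hf.bdd
  obtain ⟨B, hB⟩ := hg.bdd
  refine ⟨hf.meas.sub hg.meas, A + B, ?_⟩
  filter_upwards [hA, hB] with x h1 h2
  exact (abs_sub _ _).trans (add_le_add h1 h2)

theorem mul (hf : Bd ρ f) (hg : Bd ρ g) : Bd ρ (fun x => f x * g x) := by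
  obtain ⟨A, hA⟩ := hf.bdd
  obtain ⟨B, hB⟩ := hg.bdd
  refine ⟨hf.meas.mul hg.meas, A * B, ?_⟩
  filter_upwards [hA, hB] with x h1 h2
  rw [abs_mul]
  exact mul_le_mul h1 h2 (abs_nonneg _) ((abs_nonneg _).trans h1)

theorem sq (hf : Bd ρ f) : Bd ρ (fun x => f x ^ 2) := by
  simpa only [pow_two] using hf.mul hf

theorem int [IsFiniteMeasure ρ] (hf : Bd ρ f) : Integrable f ρ := by
  obtain ⟨B, hB⟩ := hf.bdd
  exact Integrable.of_bound hf.meas.aestronglyMeasurable B (by simpa only [Real.norm_eq_abs] using hB)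

end Bd

set_option maxHeartbeats 1000000 in
/-- (F) from (E) and (C). -/
theorem potential_stability_of (d : ℕ) (K : Set (EuclideanSpace ℝ (Fin d))) (hKc : IsCompact K)
    (hKi : (interior K).Nonempty) {L C₀ c : ℝ} (hC₀ : 0 ≤ C₀) (hc : 0 < c)
    (hE : ∀ (ι : Type) [Fintype ι] [Nonempty ι] (m : ι → ℝ)
      (y z : ι → EuclideanSpace ℝ (Fin d)) (g : EuclideanSpace ℝ (Fin d) → ℝ),
      (∀ i, 0 < m i) → ∑ i, m i = 1 → Measurable g → (∀ x, |g x| ≤ 1 / 2) →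
      ∫ x, g x ∂(uniformProbOn K) = 0 →
      (TT (uniformProbOn K) m z - TT (uniformProbOn K) m y)
        - (TT (tilt K g) m z - TT (tilt K g) m y) ≤
      C₀ * √(∫ x, g x ^ 2 ∂(uniformProbOn K)) * √(∑ i, m i * ‖y i - z i‖ ^ 2))
    (hSC : ∀ (ι : Type) [Fintype ι] [Nonempty ι] (m : ι → ℝ)
      (y : ι → EuclideanSpace ℝ (Fin d)) (ψ₀ ψ₁ : ι → ℝ),
      (∀ i, ‖y i‖ ≤ L) → (∀ χ, semiDual (uniformProbOn K) m y ψ₀ ≤ semiDual (uniformProbOn K) m y χ) →
      ∃ a : ℝ, c * ∫ x, (phi y ψ₁ x - phi y ψ₀ x - a) ^ 2 ∂(uniformProbOn K) ≤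
        semiDual (uniformProbOn K) m y ψ₁ - semiDual (uniformProbOn K) m y ψ₀)
    (ι : Type) [Fintype ι] [Nonempty ι] (m : ι → ℝ)
      (y z : ι → EuclideanSpace ℝ (Fin d)) (ψ ψ' : ι → ℝ)
      (hm : ∀ i, 0 < m i) (hsum : ∑ i, m i = 1) (hy : ∀ i, ‖y i‖ ≤ L)
      (hψ : ∀ χ, semiDual (uniformProbOn K) m y ψ ≤ semiDual (uniformProbOn K) m y χ)
      (hψ' : ∀ χ, semiDual (uniformProbOn K) m z ψ' ≤ semiDual (uniformProbOn K) m z χ) :
      ∃ a : ℝ, ∫ x, (phi y ψ x - phi z ψ' x - a) ^ 2 ∂(uniformProbOn K) ≤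
        4 * C₀ ^ 2 * ∑ i, m i * ‖y i - z i‖ ^ 2 := by
  have hprob := uniform_isProb hKc hKi
  obtain ⟨R, hR0, hRK, hRρ⟩ := exists_bound hKc
  have hmem := uniform_ae_mem hKc
  set ρ : Measure (EuclideanSpace ℝ (Fin d)) := uniformProbOn K with hρdef
  -- boundedness of potentials
  have hbdphi : ∀ (w : ι → EuclideanSpace ℝ (Fin d)) (χ : ι → ℝ), Bd ρ (phi w χ) := by
    intro w χ
    refine ⟨measurable_phi w χ, ?_⟩
    obtain ⟨B, hB⟩ := (hKc.image (continuous_phi w χ)).isBounded.exists_norm_le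
    refine ⟨B, ?_⟩
    filter_upwards [hmem] with x hx
    exact hB _ ⟨x, hx, rfl⟩
  set a : ℝ := ∫ x, (phi y ψ x - phi z ψ' x) ∂ρ with ha
  refine ⟨a, ?_⟩
  set u : EuclideanSpace ℝ (Fin d) → ℝ := fun x => phi y ψ x - phi z ψ' x - a with hu
  have huB : Bd ρ u := ((hbdphi y ψ).sub (hbdphi z ψ')).sub (Bd.const a)
  have hucont : Continuous u := ((continuous_phi y ψ).sub (continuous_phi z ψ')).sub continuous_const
  obtain ⟨H, hH0, hH⟩ : ∃ H : ℝ, 0 < H ∧ ∀ x ∈ K, |u x| ≤ H := by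
    obtain ⟨B, hB⟩ := (hKc.image hucont).isBounded.exists_norm_le
    exact ⟨max B 1, by positivity, fun x hx => (hB _ ⟨x, hx, rfl⟩).trans (le_max_left _ _)⟩
  have hu0 : ∫ x, u x ∂ρ = 0 := by
    simp only [hu]
    rw [integral_sub ((hbdphi y ψ).sub (hbdphi z ψ')).int (integrable_const _), ← ha]
    simp
  set s : ℝ := min (c / 2) (1 / (2 * H)) with hs
  have hs0 : 0 < s := by positivity
  have hs1 : s ≤ c / 2 := min_le_left _ _
  have hs2 : s * H ≤ 1 / 2 := by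
    have : s ≤ 1 / (2 * H) := min_le_right _ _
    calc s * H ≤ 1 / (2 * H) * H := by gcongr
      _ = 1 / 2 := by field_simp
  set g : EuclideanSpace ℝ (Fin d) → ℝ := K.indicator (fun x => s * u x) with hg
  have hgm : Measurable g := (huB.meas.const_mul s).indicator hKc.measurableSet
  have hgb : ∀ x, |g x| ≤ 1 / 2 := by
    intro x
    by_cases hx : x ∈ K
    · rw [hg, indicator_of_mem hx, abs_mul, abs_of_pos hs0]
      exact le_trans (mul_le_mul_of_nonneg_left (hH x hx) hs0.le) hs2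
    · rw [hg, indicator_of_notMem hx]; norm_num
  have hgB : Bd ρ g := ⟨hgm, 1 / 2, Eventually.of_forall hgb⟩
  have hgu : ∀ᵐ x ∂ρ, g x = s * u x := by
    filter_upwards [hmem] with x hx
    rw [hg, indicator_of_mem hx]
  have hg0 : ∫ x, g x ∂ρ = 0 := by
    rw [integral_congr_ae hgu, integral_const_mul, hu0, mul_zero]
  set N : ℝ := ∫ x, u x ^ 2 ∂ρ with hN
  have hN0 : 0 ≤ N := integral_nonneg fun x => sq_nonneg _
  have hg2 : ∫ x, g x ^ 2 ∂ρ = s ^ 2 * N := by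
    rw [hN, ← integral_const_mul]
    refine integral_congr_ae ?_
    filter_upwards [hgu] with x hx
    rw [hx]; ring
  have hfin := tilt_isFinite hgb (K := K)
  have hRσ : ∀ᵐ x ∂(tilt K g), ‖x‖ ≤ R := (tilt_ac_uniform g) hRρ
  have hσ1 : (tilt K g).real univ = 1 := tilt_real_univ hgm hgb hg0
  have hρ1 : ρ.real univ = 1 := by simp
  -- the semi-dual functional of the perturbed source
  have hsd : ∀ (w : ι → EuclideanSpace ℝ (Fin d)) (χ : ι → ℝ),
      semiDual (tilt K g) m w χ = semiDual ρ m w χ + ∫ x, g x * phi w χ x ∂ρ := by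
    intro w χ
    unfold semiDual
    rw [integral_tilt hgm hgb]
    have : ∫ x, (1 + g x) • phi w χ x ∂ρ = ∫ x, phi w χ x ∂ρ + ∫ x, g x * phi w χ x ∂ρ := by
      rw [← integral_add (hbdphi w χ).int (hgB.mul (hbdphi w χ)).int]
      refine integral_congr_ae (Eventually.of_forall fun x => ?_)
      simp only [smul_eq_mul]; ring
    rw [← hρdef, this]; ring
  obtain ⟨ψs, hψs1, hψs2⟩ := exists_TT_eq (tilt K g) R hRσ y m hm (by rw [hsum, hσ1])
  have e1 : TT (tilt K g) m z ≤ TT ρ m z + ∫ x, g x * phi z ψ' x ∂ρ := by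
    have h1 := TT_le_semiDual hRσ z hm (by rw [hsum, hσ1]) ψ'
    rw [hsd] at h1
    rwa [TT_eq_of_isMin hψ']
  have e2 : TT ρ m y + ∫ x, g x * phi y ψs x ∂ρ ≤ TT (tilt K g) m y := by
    rw [hψs1, hsd]
    have := TT_le_semiDual hRρ y hm (by rw [hsum, hρ1]) ψs
    linarith
  have e3 := hE ι m y z g hm hsum hgm hgb hg0
  rw [hg2] at e3
  set δ : ℝ := √(∑ i, m i * ‖y i - z i‖ ^ 2) with hδ
  have hδ2 : δ ^ 2 = ∑ i, m i * ‖y i - z i‖ ^ 2 :=
    Real.sq_sqrt (Finset.sum_nonneg fun i _ => mul_nonneg (hm i).le (sq_nonneg _))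
  have hδ0 : 0 ≤ δ := Real.sqrt_nonneg _
  have hsq : √(s ^ 2 * N) = s * √N := by
    rw [Real.sqrt_mul (sq_nonneg s), Real.sqrt_sq hs0.le]
  rw [hsq] at e3
  -- strong convexity
  obtain ⟨b, hb⟩ := hSC ι m y ψ ψs hy hψ
  set w : EuclideanSpace ℝ (Fin d) → ℝ := fun x => phi y ψs x - phi y ψ x - b with hw
  have hwB : Bd ρ w := ((hbdphi y ψs).sub (hbdphi y ψ)).sub (Bd.const b)
  set X : ℝ := ∫ x, g x * phi y ψ x ∂ρ - ∫ x, g x * phi y ψs x ∂ρ with hX
  have e4 : c * ∫ x, w x ^ 2 ∂ρ ≤ X := by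
    have h1 := hψs2 ψ
    rw [hsd, hsd] at h1
    refine hb.trans ?_
    linarith
  have e5 : X = ∫ x, -(g x * w x) ∂ρ := by
    have h1 : ∫ x, -(g x * w x) ∂ρ = ∫ x, (g x * phi y ψ x - g x * phi y ψs x + b * g x) ∂ρ := by
      refine integral_congr_ae (Eventually.of_forall fun x => ?_)
      simp only [hw]; ring
    rw [h1, integral_add ((hgB.mul (hbdphi y ψ)).sub (hgB.mul (hbdphi y ψs))).int
      (hgB.int.const_mul b), integral_const_mul, hg0,
      integral_sub (hgB.mul (hbdphi y ψ)).int (hgB.mul (hbdphi y ψs)).int]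
    ring
  have e6 : X ≤ c / 2 * ∫ x, w x ^ 2 ∂ρ + (1 / (2 * c)) * (s ^ 2 * N) := by
    rw [e5, ← hg2, ← integral_const_mul, ← integral_const_mul,
      ← integral_add (hwB.sq.int.const_mul _) (hgB.sq.int.const_mul _)]
    refine integral_mono ?_ ((hwB.sq.int.const_mul _).add (hgB.sq.int.const_mul _)) fun x => ?_
    · exact (hgB.mul hwB).int.neg
    · have h1 : 0 ≤ (c * w x + g x) ^ 2 / (2 * c) := by positivity
      have h2 : (c * w x + g x) ^ 2 / (2 * c)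
          = c / 2 * w x ^ 2 + 1 / (2 * c) * g x ^ 2 + g x * w x := by
        field_simp; ring
      have h3 : -(g x * w x) ≤ c / 2 * w x ^ 2 + 1 / (2 * c) * g x ^ 2 := by linarith
      exact h3
  have e7 : X ≤ s ^ 2 * N / c := by
    have h1 : c / 2 * ∫ x, w x ^ 2 ∂ρ ≤ X / 2 := by linarith
    have h2 : (1 / (2 * c)) * (s ^ 2 * N) = s ^ 2 * N / c / 2 := by field_simp
    linarith
  -- the sum
  have e8 : ∫ x, g x * phi y ψ x ∂ρ - ∫ x, g x * phi z ψ' x ∂ρ = s * N := by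
    rw [← integral_sub (hgB.mul (hbdphi y ψ)).int (hgB.mul (hbdphi z ψ')).int]
    have h1 : ∫ x, (g x * phi y ψ x - g x * phi z ψ' x) ∂ρ = ∫ x, (s * u x ^ 2 + a * g x) ∂ρ := by
      refine integral_congr_ae ?_
      filter_upwards [hgu] with x hx
      rw [hx]; simp only [hu]; ring
    rw [h1, integral_add (huB.sq.int.const_mul s) (hgB.int.const_mul a), integral_const_mul,
      integral_const_mul, hg0]
    ring
  have e9 : s * N ≤ s ^ 2 * N / c + C₀ * (s * √N) * δ := by linarith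
  have e10 : N ≤ s * N / c + C₀ * √N * δ := by
    have h1 : s * N ≤ s * (s * N / c + C₀ * √N * δ) := by
      calc s * N ≤ s ^ 2 * N / c + C₀ * (s * √N) * δ := e9
        _ = s * (s * N / c + C₀ * √N * δ) := by ring
    exact le_of_mul_le_mul_left h1 hs0
  have e11 : s * N / c ≤ N / 2 := by
    rw [div_le_iff₀ hc]
    have h3 := mul_le_mul_of_nonneg_right hs1 hN0
    have h4 : N / 2 * c = c / 2 * N := by ring
    rw [h4]; exact h3
  have e12 : √N ≤ 2 * C₀ * δ := by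
    have h1 : √N * √N = N := Real.mul_self_sqrt hN0
    have h2 : √N * √N ≤ 2 * C₀ * δ * √N := by
      rw [h1]
      have h3 : 2 * C₀ * δ * √N = 2 * (C₀ * √N * δ) := by ring
      rw [h3]; linarith
    rcases eq_or_lt_of_le (Real.sqrt_nonneg N) with h | h
    · rw [← h]; positivity
    · exact le_of_mul_le_mul_right h2 h
  calc N = √N ^ 2 := (Real.sq_sqrt hN0).symm
    _ ≤ (2 * C₀ * δ) ^ 2 := by gcongr
    _ = 4 * C₀ ^ 2 * δ ^ 2 := by ring
    _ = 4 * C₀ ^ 2 * ∑ i, m i * ‖y i - z i‖ ^ 2 := by rw [hδ2]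

/-- (F), from the cell estimate (B) and Prekopa-Leindler. -/
theorem potential_stability_of_cell (d : ℕ) (hPL : StrongConv.PLHalf d)
    (K : Set (EuclideanSpace ℝ (Fin d))) (hKc : IsCompact K)
    (hKv : Convex ℝ K) (hKi : (interior K).Nonempty) (hB : ∃ C : ℝ, 0 ≤ C ∧ CellEstimate d K C)
    (L : ℝ) :
    ∃ C : ℝ, 0 ≤ C ∧ ∀ (ι : Type) [Fintype ι] [Nonempty ι] (m : ι → ℝ)
      (y z : ι → EuclideanSpace ℝ (Fin d)) (ψ ψ' : ι → ℝ),
      (∀ i, 0 < m i) → ∑ i, m i = 1 → (∀ i, ‖y i‖ ≤ L) → (∀ i, ‖z i‖ ≤ L) →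
      (∀ χ, semiDual (uniformProbOn K) m y ψ ≤ semiDual (uniformProbOn K) m y χ) →
      (∀ χ, semiDual (uniformProbOn K) m z ψ' ≤ semiDual (uniformProbOn K) m z χ) →
      ∃ a : ℝ, ∫ x, (phi y ψ x - phi z ψ' x - a) ^ 2 ∂(uniformProbOn K) ≤
        C * ∑ i, m i * ‖y i - z i‖ ^ 2 := by
  obtain ⟨C, hC, hcell⟩ := hB
  obtain ⟨c, hc, hSC⟩ := StrongConv.strong_convexity d hPL K hKc hKv hKi L
  refine ⟨4 * √C ^ 2, by positivity, ?_⟩
  intro ι _ _ m y z ψ ψ' hm hsum hy _ hψ hψ'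
  exact potential_stability_of d K hKc hKi (Real.sqrt_nonneg C) hc
    (mixed_difference_of_cell d K hKc hKi hC hcell) hSC ι m y z ψ ψ' hm hsum hy hψ hψ'

end Crest.Agent.R82
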