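import Crest.Agent.R82.CellMain
import Crest.Agent.R82.PL
import Crest.Agent.R82.Tilt
import Crest.Agent.R82.Mixed
import Crest.Agent.R82.PotStab

/-! Row 82 (S0109), piece (B), final form. -/

set_option autoImplicit false
open MeasureTheory Set
open scoped ENNReal NNReal
open Crest.AnalysisR.OT

namespace Crest.Agent.R82

/-- (B) barycentre estimate (from Prekopa-Leindler on the cells). -/
theorem cell_estimate (d : ℕ) (K : Set (EuclideanSpace ℝ (Fin d))) (hKc : IsCompact K)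
    (hKv : Convex ℝ K) (hKi : (interior K).Nonempty) :
    ∃ C : ℝ, 0 ≤ C ∧ ∀ (ι : Type) [Fintype ι] [Nonempty ι] (m : ι → ℝ)
      (y : ι → EuclideanSpace ℝ (Fin d)) (ψ₀ ψ₁ : ι → ℝ) (g : EuclideanSpace ℝ (Fin d) → ℝ),
      (∀ i, 0 < m i) → Function.Injective y → Measurable g → (∀ x, |g x| ≤ 1 / 2) →
      (∀ i, (uniformProbOn K).real (cell y ψ₀ i) = m i) →
      (∀ i, (tilt K g).real (cell y ψ₁ i) = m i) →
      ∑ i, (m i)⁻¹ * ‖(∫ x in cell y ψ₀ i, x ∂(uniformProbOn K))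
          - ∫ x in cell y ψ₁ i, x ∂(tilt K g)‖ ^ 2 ≤ C * ∫ x, g x ^ 2 ∂(uniformProbOn K) :=
  CellB.cell_estimate_of_PL (fun f g h hf hg hh H => Crest.Agent.R82.PL.prekopa_leindler_half d f g h hf hg hh H)
    hKc hKv hKi

theorem cell_estimate' (d : ℕ) (K : Set (EuclideanSpace ℝ (Fin d))) (hKc : IsCompact K)
    (hKv : Convex ℝ K) (hKi : (interior K).Nonempty) : ∃ C : ℝ, 0 ≤ C ∧ CellEstimate d K C :=
  cell_estimate d K hKc hKv hKi

/-- (F) stability of the potentials. -/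
theorem potential_stability (d : ℕ) (K : Set (EuclideanSpace ℝ (Fin d))) (hKc : IsCompact K)
    (hKv : Convex ℝ K) (hKi : (interior K).Nonempty) (L : ℝ) :
    ∃ C : ℝ, 0 ≤ C ∧ ∀ (ι : Type) [Fintype ι] [Nonempty ι] (m : ι → ℝ)
      (y z : ι → EuclideanSpace ℝ (Fin d)) (ψ ψ' : ι → ℝ),
      (∀ i, 0 < m i) → ∑ i, m i = 1 → (∀ i, ‖y i‖ ≤ L) → (∀ i, ‖z i‖ ≤ L) →
      (∀ χ, semiDual (uniformProbOn K) m y ψ ≤ semiDual (uniformProbOn K) m y χ) →
      (∀ χ, semiDual (uniformProbOn K) m z ψ' ≤ semiDual (uniformProbOn K) m z χ) →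
      ∃ a : ℝ, ∫ x, (phi y ψ x - phi z ψ' x - a) ^ 2 ∂(uniformProbOn K) ≤
        C * ∑ i, m i * ‖y i - z i‖ ^ 2 :=
  potential_stability_of_cell d
    (fun f g h hf hg hh H => Crest.Agent.R82.PL.prekopa_leindler_half d f g h hf hg hh H) K hKc hKv hKi
    (cell_estimate' d K hKc hKv hKi) L

end Crest.Agent.R82
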