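import Crest.Agent.R82.Cell

/-! Row 82 (S0109), piece (B): the barycentre estimate. -/

set_option autoImplicit false
set_option linter.unusedSectionVars false
open MeasureTheory Set Filter Topology
open scoped ENNReal NNReal
open Crest.AnalysisR.OT

namespace Crest.Agent.R82.CellB

variable {d : ℕ} {K : Set (EuclideanSpace ℝ (Fin d))}

lemma mid_mem {ι : Type} [Fintype ι] (hKv : Convex ℝ K) (y : ι → EuclideanSpace ℝ (Fin d))
    (ψ₀ ψ₁ : ι → ℝ) (i : ι) :
    ∀ x ∈ cell y ψ₀ i ∩ K, ∀ x' ∈ cell y ψ₁ i ∩ K,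
      (1 / 2 : ℝ) • (x + x') ∈ cell y (fun j => (ψ₀ j + ψ₁ j) / 2) i ∩ K := by
  intro x hx x' hx'
  refine ⟨fun j => ?_, ?_⟩
  · have h1 := hx.1 j
    have h2 := hx'.1 j
    simp only [inner_smul_left, inner_add_left, conj_trivial]
    linarith
  · have := hKv hx.2 hx'.2 (a := 1/2) (b := 1/2) (by norm_num) (by norm_num) (by norm_num)
    rw [smul_add]
    exact this

lemma sum_cells {ι : Type} [Fintype ι] [Nonempty ι] (hKc : IsCompact K)
    (hKi : (interior K).Nonempty) {y : ι → EuclideanSpace ℝ (Fin d)}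
    (hy : Function.Injective y) (ψ : ι → ℝ) {f : EuclideanSpace ℝ (Fin d) → ℝ}
    (hf : Integrable f (uniformProbOn K)) :
    ∑ i, ∫ x in cell y ψ i, f x ∂(uniformProbOn K) = ∫ x, f x ∂(uniformProbOn K) := by
  have := isProb hKc hKi
  exact (integral_eq_sum_of_ae_partition (measurableSet_cell y ψ)
    (cell_pairwise_aedisjoint rho_ac hy ψ)
    (Eventually.of_forall fun x => mem_iUnion.1 (iUnion_cell y ψ ▸ mem_univ x)) hf).symm

lemma sq3 (p q r : ℝ) : (p + q + r) ^ 2 ≤ 3 * (p ^ 2 + q ^ 2 + r ^ 2) := by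
  nlinarith [sq_nonneg (p - q), sq_nonneg (p - r), sq_nonneg (q - r)]

set_option maxHeartbeats 2000000 in
/-- (B) barycentre estimate. -/
theorem cell_estimate_of_PL (hPL : PLHalf d) (hKc : IsCompact K)
    (hKv : Convex ℝ K) (hKi : (interior K).Nonempty) :
    ∃ C : ℝ, 0 ≤ C ∧ ∀ (ι : Type) [Fintype ι] [Nonempty ι] (m : ι → ℝ)
      (y : ι → EuclideanSpace ℝ (Fin d)) (ψ₀ ψ₁ : ι → ℝ) (g : EuclideanSpace ℝ (Fin d) → ℝ),
      (∀ i, 0 < m i) → Function.Injective y → Measurable g → (∀ x, |g x| ≤ 1 / 2) →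
      (∀ i, (uniformProbOn K).real (cell y ψ₀ i) = m i) →
      (∀ i, ((uniformProbOn K).withDensity fun x => ENNReal.ofReal (1 + g x)).real
        (cell y ψ₁ i) = m i) →
      ∑ i, (m i)⁻¹ * ‖(∫ x in cell y ψ₀ i, x ∂(uniformProbOn K))
          - ∫ x in cell y ψ₁ i, x
            ∂((uniformProbOn K).withDensity fun x => ENNReal.ofReal (1 + g x))‖ ^ 2
        ≤ C * ∫ x, g x ^ 2 ∂(uniformProbOn K) := by
  have hprob := isProb hKc hKi
  obtain ⟨R0, hR0⟩ := hKc.isBounded.subset_closedBall 0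
  set R := max R0 1 with hRdef
  have hR : 1 ≤ R := le_max_right _ _
  have hRp : 0 < R := by linarith
  have hRK : ∀ x ∈ K, ‖x‖ ≤ R := by
    intro x hx
    have := hR0 hx
    rw [mem_closedBall_zero_iff] at this
    exact this.trans (le_max_left _ _)
  set κ := 1 / (1000 * R ^ 2) with hκdef
  have hκ : 0 < κ := by positivity
  have hκR : 1000 * κ * R ^ 2 = 1 := by rw [hκdef]; field_simp
  refine ⟨2000000 * R ^ 2, by positivity, ?_⟩
  intro ι _ _ m y ψ₀ ψ₁ g hm hy hg hgb hV hW
  set ρ := uniformProbOn K with hρ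
  set V := fun i => cell y ψ₀ i with hVd
  set W := fun i => cell y ψ₁ i with hWd
  set M := fun i => cell y (fun j => (ψ₀ j + ψ₁ j) / 2) i with hMd
  have mV : ∀ i, MeasurableSet (V i) := measurableSet_cell y ψ₀
  have mW : ∀ i, MeasurableSet (W i) := measurableSet_cell y ψ₁
  have mM : ∀ i, MeasurableSet (M i) := measurableSet_cell y _
  have hiwt : Integrable (wt κ) ρ := integrable_cont hKc hKi (continuous_wt κ)
  have hig : Integrable g ρ := integrable_of_bdd hKc hKi hg (fun x _ => hgb x)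
  have hig2 : Integrable (fun x => g x ^ 2) ρ := by
    refine integrable_of_bdd hKc hKi (hg.pow_const 2) (C := 1) (fun x _ => ?_)
    rw [abs_pow]
    have := hgb x
    nlinarith [abs_nonneg (g x)]
  have higa : Integrable (fun x => |g x|) ρ := hig.abs
  set a := fun i => ∫ x in V i, wt κ x ∂ρ with ha
  set b := fun i => ∫ x in W i, wt κ x ∂ρ with hb
  set c := fun i => ∫ x in M i, wt κ x ∂ρ with hc
  set w := fun i => ρ.real (W i) with hw
  set G := fun i => ∫ x in W i, g x ∂ρ with hG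
  set Ga := fun i => ∫ x in W i, |g x| ∂ρ with hGa
  set g2 := fun i => ∫ x in W i, g x ^ 2 ∂ρ with hg2
  have hg20 : ∀ i, 0 ≤ g2 i := fun i => integral_nonneg (fun x => sq_nonneg _)
  -- masses
  have hconst : ∀ (S : Set (EuclideanSpace ℝ (Fin d))) (r : ℝ), ∫ _ in S, r ∂ρ = ρ.real S * r := by
    intro S r
    rw [integral_const, smul_eq_mul, measureReal_restrict_apply_univ]
  have hmW : ∀ i, w i + G i = m i := by
    intro i
    have h1 := hW i
    rw [measureReal_def, withDensity_apply _ (mW i),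
      ← ofReal_integral_eq_lintegral_ofReal, ENNReal.toReal_ofReal] at h1
    · rw [integral_add (integrable_const _) hig.restrict, hconst, mul_one] at h1
      exact h1
    · exact integral_nonneg (fun x => by have := abs_le.mp (hgb x); simp only [Pi.zero_apply]; linarith)
    · exact ((integrable_const (1:ℝ)).add hig).restrict
    · exact Eventually.of_forall (fun x => by
        have := abs_le.mp (hgb x); simp only [Pi.zero_apply]; linarith)
  have hGaw : ∀ i, Ga i ≤ 1 / 2 * w i := by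
    intro i
    have := mono_K hKc (W i) higa (integrable_const (1/2 : ℝ)) (fun x _ => hgb x)
    rw [hconst] at this
    simp only [hGa, hw]; linarith
  have hGGa : ∀ i, |G i| ≤ Ga i := fun i => abs_integral_le_integral_abs
  have hw0 : ∀ i, 0 ≤ w i := fun i => measureReal_nonneg
  have hw2 : ∀ i, w i ≤ 2 * m i := by
    intro i
    have h1 := hmW i
    have h2 := hGaw i
    have h3 := (abs_le.mp (hGGa i)).1
    linarith
  have hw3 : ∀ i, 2 / 3 * m i ≤ w i := by
    intro i
    have h1 := hmW i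
    have h2 := hGaw i
    have h3 := (abs_le.mp (hGGa i)).2
    linarith
  have hCS : ∀ i, Ga i ^ 2 ≤ w i * g2 i := by
    intro i
    have := cs_set (ν := ρ.restrict (W i)) (f := fun x => |g x|) higa.restrict (by
      simp only [sq_abs]; exact hig2.restrict)
    rw [measureReal_restrict_apply_univ] at this
    simp only [sq_abs] at this
    exact this
  have hCS2 : ∀ i, Ga i ^ 2 ≤ 2 * m i * g2 i := fun i =>
    (hCS i).trans (mul_le_mul_of_nonneg_right (hw2 i) (hg20 i))
  -- bounds for a, b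
  have hwt1 : ∀ (S : Set (EuclideanSpace ℝ (Fin d))), ∫ x in S, wt κ x ∂ρ ≤ ρ.real S := by
    intro S
    have := mono_K hKc S hiwt (integrable_const (1:ℝ)) (fun x _ => wt_le κ hκ x)
    rw [hconst, mul_one] at this
    exact this
  have hwt2 : ∀ (S : Set (EuclideanSpace ℝ (Fin d))), 99 / 100 * ρ.real S ≤ ∫ x in S, wt κ x ∂ρ := by
    intro S
    have := mono_K hKc S (integrable_const (99/100 : ℝ)) hiwt
      (fun x hx => wt_ge hκ hR hκR (hRK x hx))
    rw [hconst] at this
    linarith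
  have ha1 : ∀ i, a i ≤ m i := fun i => by have := hwt1 (V i); rw [hV i] at this; exact this
  have ha2 : ∀ i, 99 / 100 * m i ≤ a i := fun i => by have := hwt2 (V i); rw [hV i] at this; exact this
  have hb1 : ∀ i, b i ≤ 2 * m i := fun i => (hwt1 (W i)).trans (hw2 i)
  have hb2 : ∀ i, 3 / 5 * m i ≤ b i := fun i => by
    have h1 := hwt2 (W i)
    have h2 := hw3 i
    have h3 := hm i
    simp only [hb]; simp only [hw] at h2
    linarith
  have ha0 : ∀ i, 0 < a i := fun i => by have := ha2 i; have := hm i; linarith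
  have hb0 : ∀ i, 0 < b i := fun i => by have := hb2 i; have := hm i; linarith
  -- vectors
  have hix : Integrable (fun x : EuclideanSpace ℝ (Fin d) => x) ρ := by
    refine Integrable.of_bound (by fun_prop) R ?_
    filter_upwards [ae_mem hKc] with x hx using hRK x hx
  have higx : Integrable (fun x : EuclideanSpace ℝ (Fin d) => g x • x) ρ := by
    refine Integrable.of_bound ?_ R ?_
    · exact (hg.smul measurable_id).aestronglyMeasurable
    · filter_upwards [ae_mem hKc] with x hx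
      rw [norm_smul, Real.norm_eq_abs]
      have h1 := hgb x
      have h2 := hRK x hx
      nlinarith [abs_nonneg (g x), norm_nonneg x]
  set X := fun i => ∫ x in V i, x ∂ρ with hX
  set Y := fun i => ∫ x in W i, x ∂ρ with hY
  set U := fun i => ∫ x in W i, g x • x ∂ρ with hU
  have hZ : ∀ i, ∫ x in W i, x ∂(ρ.withDensity fun x => ENNReal.ofReal (1 + g x)) = Y i + U i := by
    intro i
    rw [setIntegral_withDensity_eq_setIntegral_toReal_smul (by fun_prop) (by simp) _ (mW i)]
    have h1 : ∀ x, (ENNReal.ofReal (1 + g x)).toReal • x = x + g x • x := by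
      intro x
      rw [ENNReal.toReal_ofReal (by have := abs_le.mp (hgb x); linarith), add_smul, one_smul]
    simp_rw [h1]
    exact integral_add hix.restrict higx.restrict
  have hXn : ∀ i, ‖X i‖ ≤ R * m i := by
    intro i
    have h1 : ‖X i‖ ≤ ∫ x in V i, R ∂ρ := by
      refine (norm_integral_le_integral_norm _).trans ?_
      exact mono_K hKc (V i) hix.norm (integrable_const R) hRK
    rw [hconst, hV i] at h1
    linarith
  have hUn : ∀ i, ‖U i‖ ≤ R * Ga i := by
    intro i
    have h1 : ‖U i‖ ≤ ∫ x in W i, R * |g x| ∂ρ := by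
      refine (norm_integral_le_integral_norm _).trans ?_
      refine mono_K hKc (W i) higx.norm (higa.const_mul R) (fun x hx => ?_)
      rw [norm_smul, Real.norm_eq_abs, mul_comm]
      exact mul_le_mul_of_nonneg_right (hRK x hx) (abs_nonneg _)
    rw [integral_const_mul] at h1
    exact h1
  set DV := fun i => (a i)⁻¹ • X i - (b i)⁻¹ • Y i with hDV
  -- cell_key, scalar version
  set δ := fun i => m i / a i - w i / b i with hδ
  have hiw_int : ∀ (S : Set (EuclideanSpace ℝ (Fin d))) (r : ℝ),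
      ∫ x in S, iw κ x / r * wt κ x ∂ρ = ρ.real S / r := by
    intro S r
    have : ∀ x : EuclideanSpace ℝ (Fin d), iw κ x / r * wt κ x = 1 / r := by
      intro x; rw [div_mul_eq_mul_div, iw_mul_wt]
    simp_rw [this]
    rw [hconst]; ring
  have key1 : ∀ i, 2 * a i * b i / (a i + b i) * (1 + κ / 8 * (δ i / (2 * κ * R)) ^ 2) ≤ c i := by
    intro i
    have h := cell_key hPL hKc hKi hκ (mV i) (mW i) (mM i) (mid_mem hKv y ψ₀ ψ₁ i)
      (u := fun x => iw κ x / (2 * κ * R)) ((continuous_iw κ).div_const _) (by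
        intro x hx x' hx'
        have := iw_lip hκ hR hκR (hRK x hx) (hRK x' hx')
        rw [div_sub_div_same, div_le_iff₀ (by positivity)]
        linarith) (ha0 i) (hb0 i)
    rw [hiw_int, hiw_int, hV i] at h
    have e : δ i / (2 * κ * R) = m i / (2 * κ * R) / a i - w i / (2 * κ * R) / b i := by
      simp only [hδ]; field_simp
    rw [e]
    exact h
  have key2 : ∀ i, 2 * a i * b i / (a i + b i) * (1 + κ / 8 * (‖DV i‖ / 2) ^ 2) ≤ c i := by
    intro i
    set e : EuclideanSpace ℝ (Fin d) := (‖DV i‖)⁻¹ • DV i with he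
    have he1 : ‖e‖ ≤ 1 := by
      rw [he, norm_smul, norm_inv, norm_norm]
      by_cases h0 : ‖DV i‖ = 0
      · rw [h0]; simp
      · rw [inv_mul_cancel₀ h0]
    have he2 : inner ℝ (DV i) e = ‖DV i‖ := by
      rw [he, inner_smul_right, real_inner_self_eq_norm_sq]
      by_cases h0 : ‖DV i‖ = 0
      · rw [h0]; simp
      · field_simp
    have h := cell_key hPL hKc hKi hκ (mV i) (mW i) (mM i) (mid_mem hKv y ψ₀ ψ₁ i)
      (u := fun x => inner ℝ x e / 2 * iw κ x) (by
        have := continuous_iw κ (d := d)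
        fun_prop) (by
        intro x hx x' hx'
        exact iw_inner_lip hκ hR hκR he1 (hRK x hx) (hRK x' hx')) (ha0 i) (hb0 i)
    have hint : ∀ (S : Set (EuclideanSpace ℝ (Fin d))),
        ∫ x in S, inner ℝ x e / 2 * iw κ x * wt κ x ∂ρ = inner ℝ (∫ x in S, x ∂ρ) e / 2 := by
      intro S
      have h1 : ∀ x : EuclideanSpace ℝ (Fin d), inner ℝ x e / 2 * iw κ x * wt κ x
          = inner ℝ e x / 2 := by
        intro x; rw [mul_assoc, iw_mul_wt, mul_one, real_inner_comm]
      simp_rw [h1]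
      rw [integral_div, integral_inner hix.restrict, real_inner_comm]
    rw [hint, hint] at h
    have e3 : ‖DV i‖ / 2 = inner ℝ (X i) e / 2 / a i - inner ℝ (Y i) e / 2 / b i := by
      rw [← he2]
      simp only [hDV, inner_sub_left, inner_smul_left, conj_trivial]
      ring
    rw [e3]
    exact h
  -- totals
  have hΓa : ∑ i, a i = ∫ x, wt κ x ∂ρ := sum_cells hKc hKi hy ψ₀ hiwt
  have hΓb : ∑ i, b i = ∫ x, wt κ x ∂ρ := sum_cells hKc hKi hy ψ₁ hiwt
  have hΓc : ∑ i, c i ≤ ∫ x, wt κ x ∂ρ := (sum_cells hKc hKi hy _ hiwt).le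
  have hΓg : ∑ i, g2 i = ∫ x, g x ^ 2 ∂ρ := sum_cells hKc hKi hy ψ₁ hig2
  have hab : ∀ i, |b i - a i| ≤ b i * |δ i| + |G i| := by
    intro i
    have h1 : m i * (b i - a i) = a i * (b i * δ i - G i) := by
      have h2 : w i = m i - G i := by have := hmW i; linarith
      have ha' := (ha0 i).ne'
      have hb' := (hb0 i).ne'
      simp only [hδ]
      rw [h2]
      field_simp
      ring
    have h2 : m i * |b i - a i| ≤ a i * (b i * |δ i| + |G i|) := by
      have h3 : m i * |b i - a i| = |m i * (b i - a i)| := by rw [abs_mul, abs_of_pos (hm i)]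
      rw [h3, h1, abs_mul, abs_of_pos (ha0 i)]
      apply mul_le_mul_of_nonneg_left _ (ha0 i).le
      calc |b i * δ i - G i| ≤ |b i * δ i| + |G i| := abs_sub _ _
        _ = b i * |δ i| + |G i| := by rw [abs_mul, abs_of_pos (hb0 i)]
    have h3 : a i * (b i * |δ i| + |G i|) ≤ m i * (b i * |δ i| + |G i|) := by
      apply mul_le_mul_of_nonneg_right (ha1 i)
      have := hb0 i
      positivity
    exact le_of_mul_le_mul_left (h2.trans h3) (hm i)
  have hG2 : ∀ i, G i ^ 2 ≤ 2 * m i * g2 i := by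
    intro i
    refine le_trans ?_ (hCS2 i)
    rw [← sq_abs]
    exact pow_le_pow_left₀ (abs_nonneg _) (hGGa i) 2
  obtain ⟨f1, f2⟩ := alg_final hR hκR hm ha2 hb2 hb1 hΓa hΓb hΓc hG2 hg20 hab key1 key2
  -- final pointwise bound
  have hfin : ∀ i, (m i)⁻¹ * ‖X i - (Y i + U i)‖ ^ 2
      ≤ 36 * R ^ 2 * ((a i - b i) ^ 2 / (a i + b i)) + 12 * (m i * ‖DV i‖ ^ 2)
        + 6 * R ^ 2 * g2 i := by
    intro i
    have hmi := hm i
    have hai := ha0 i
    have hbi := hb0 i
    have h1 : X i - (Y i + U i) = ((a i - b i) / a i) • X i + b i • DV i - U i := by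
      simp only [hDV]
      rw [smul_sub, smul_smul, smul_smul, mul_inv_cancel₀ hbi.ne', one_smul, sub_div,
        div_self hai.ne', sub_smul, one_smul, div_eq_mul_inv]
      abel
    have h2 : ‖X i - (Y i + U i)‖ ≤ 2 * R * |a i - b i| + b i * ‖DV i‖ + R * Ga i := by
      rw [h1]
      refine (norm_sub_le _ _).trans (add_le_add ((norm_add_le _ _).trans (add_le_add ?_ ?_)) (hUn i))
      · rw [norm_smul, Real.norm_eq_abs, abs_div, abs_of_pos hai, div_mul_eq_mul_div,
          div_le_iff₀ hai]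
        have h3 := hXn i
        have h4 := ha2 i
        have h5 : R * m i ≤ 2 * R * a i := by nlinarith
        calc |a i - b i| * ‖X i‖ ≤ |a i - b i| * (2 * R * a i) :=
              mul_le_mul_of_nonneg_left (h3.trans h5) (abs_nonneg _)
          _ = 2 * R * |a i - b i| * a i := by ring
      · rw [norm_smul, Real.norm_eq_abs, abs_of_pos hbi]
    have h3 : ‖X i - (Y i + U i)‖ ^ 2
        ≤ 3 * (4 * R ^ 2 * (a i - b i) ^ 2 + b i ^ 2 * ‖DV i‖ ^ 2 + R ^ 2 * Ga i ^ 2) := by
      have h4 := pow_le_pow_left₀ (norm_nonneg _) h2 2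
      refine h4.trans ((sq3 _ _ _).trans (le_of_eq ?_))
      rw [mul_pow, mul_pow, mul_pow, mul_pow, sq_abs]
      ring
    have h5 : (a i - b i) ^ 2 ≤ 3 * m i * ((a i - b i) ^ 2 / (a i + b i)) := by
      rw [← mul_div_assoc, le_div_iff₀ (by positivity)]
      have : a i + b i ≤ 3 * m i := by have := ha1 i; have := hb1 i; linarith
      nlinarith [mul_le_mul_of_nonneg_left this (sq_nonneg (a i - b i))]
    have h6 : b i ^ 2 ≤ 4 * m i ^ 2 := by
      have := pow_le_pow_left₀ hbi.le (hb1 i) 2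
      nlinarith
    have h7 := hCS2 i
    rw [inv_mul_le_iff₀ hmi]
    refine h3.trans ?_
    have h8 : R ^ 2 * (a i - b i) ^ 2 ≤ R ^ 2 * (3 * m i * ((a i - b i) ^ 2 / (a i + b i))) :=
      mul_le_mul_of_nonneg_left h5 (by positivity)
    have h9 : b i ^ 2 * ‖DV i‖ ^ 2 ≤ 4 * m i ^ 2 * ‖DV i‖ ^ 2 :=
      mul_le_mul_of_nonneg_right h6 (by positivity)
    have h10 : R ^ 2 * Ga i ^ 2 ≤ R ^ 2 * (2 * m i * g2 i) :=
      mul_le_mul_of_nonneg_left h7 (by positivity)
    linarith
  calc ∑ i, (m i)⁻¹ * ‖(∫ x in cell y ψ₀ i, x ∂ρ)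
          - ∫ x in cell y ψ₁ i, x ∂(ρ.withDensity fun x => ENNReal.ofReal (1 + g x))‖ ^ 2
      = ∑ i, (m i)⁻¹ * ‖X i - (Y i + U i)‖ ^ 2 := by
        apply Finset.sum_congr rfl
        intro i _
        rw [← hZ i]
    _ ≤ ∑ i, (36 * R ^ 2 * ((a i - b i) ^ 2 / (a i + b i)) + 12 * (m i * ‖DV i‖ ^ 2)
        + 6 * R ^ 2 * g2 i) := Finset.sum_le_sum fun i _ => hfin i
    _ = 36 * R ^ 2 * ∑ i, (a i - b i) ^ 2 / (a i + b i) + 12 * ∑ i, m i * ‖DV i‖ ^ 2
        + 6 * R ^ 2 * ∑ i, g2 i := by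
        rw [Finset.sum_add_distrib, Finset.sum_add_distrib, Finset.mul_sum, Finset.mul_sum,
          Finset.mul_sum]
    _ ≤ 2000000 * R ^ 2 * ∑ i, g2 i := by
        have hg0 : 0 ≤ ∑ i, g2 i := Finset.sum_nonneg fun i _ => hg20 i
        have h1 : 36 * R ^ 2 * ∑ i, (a i - b i) ^ 2 / (a i + b i)
            ≤ 36 * R ^ 2 * (5 * ∑ i, g2 i) := mul_le_mul_of_nonneg_left f1 (by positivity)
        have h2 : 0 ≤ R ^ 2 * ∑ i, g2 i := by positivity
        nlinarith
    _ = _ := by rw [hΓg]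

end Crest.Agent.R82.CellB
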