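import Mathlib
import Crest.Prelude.Def_QuadraticTransport

/-! Fenchel-Young criterion for optimality of transport maps (row 82). -/

set_option autoImplicit false
set_option linter.unusedSectionVars false
set_option linter.style.haveILetI false
open MeasureTheory
open scoped ENNReal NNReal
open Crest.AnalysisR.OT

namespace Crest.Agent.R82.FY

variable {E : Type*} [NormedAddCommGroup E] [InnerProductSpace ℝ E] [MeasurableSpace E]
  [BorelSpace E] [SecondCountableTopology E]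

/-- Data: `ρ` carried by the ball of radius `R`, `μ` carried by a set `Y` in the ball of radius `L`. -/
structure Data (ρ μ : Measure E) (Y : Set E) (R L : ℝ) : Prop where
  probρ : IsProbabilityMeasure ρ
  probμ : IsProbabilityMeasure μ
  ballρ : ∀ᵐ x ∂ρ, ‖x‖ ≤ R
  Ynull : μ Yᶜ = 0
  ballY : ∀ y ∈ Y, ‖y‖ ≤ L

variable {ρ μ : Measure E} {Y : Set E} {R L : ℝ}

lemma Data.ae_mem (h : Data ρ μ Y R L) {S : E → E} (hS : Measurable S) (hmap : ρ.map S = μ) :
    ∀ᵐ x ∂ρ, S x ∈ Y := by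
  have : ∀ᵐ y ∂μ, y ∈ Y := by
    rw [ae_iff]; exact h.Ynull
  rw [← hmap] at this
  exact ae_of_ae_map hS.aemeasurable this

lemma Data.integrable_inner (h : Data ρ μ Y R L) {S : E → E} (hS : Measurable S)
    (hmap : ρ.map S = μ) : Integrable (fun x => inner ℝ x (S x)) ρ := by
  haveI := h.probρ
  refine Integrable.of_bound (C := R * L) ?_ ?_
  · exact (continuous_inner.measurable.comp (measurable_id.prodMk hS)).aestronglyMeasurable
  · filter_upwards [h.ballρ, h.ae_mem hS hmap] with x hx hy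
    calc ‖inner ℝ x (S x)‖ ≤ ‖x‖ * ‖S x‖ := norm_inner_le_norm _ _
      _ ≤ R * L := by
        apply mul_le_mul hx (h.ballY _ hy) (norm_nonneg _) ((norm_nonneg _).trans hx)

lemma Data.integrable_normSq (h : Data ρ μ Y R L) : Integrable (fun x => ‖x‖ ^ 2) ρ := by
  haveI := h.probρ
  refine Integrable.of_bound (C := R ^ 2) (by fun_prop) ?_
  filter_upwards [h.ballρ] with x hx
  rw [Real.norm_of_nonneg (by positivity)]
  gcongr

lemma Data.integrable_normSq' (h : Data ρ μ Y R L) : Integrable (fun x => ‖x‖ ^ 2) μ := by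
  haveI := h.probμ
  refine Integrable.of_bound (C := L ^ 2) (by fun_prop) ?_
  have : ∀ᵐ y ∂μ, y ∈ Y := by
    rw [ae_iff]; exact h.Ynull
  filter_upwards [this] with x hx
  rw [Real.norm_of_nonneg (by positivity)]
  gcongr
  exact h.ballY _ hx

lemma Data.real_cost (h : Data ρ μ Y R L) {S : E → E} (hS : Measurable S)
    (hmap : ρ.map S = μ) :
    (∫ x, ‖x‖ ^ 2 ∂ρ) + (∫ y, ‖y‖ ^ 2 ∂μ) - 2 * ∫ x, inner ℝ x (S x) ∂ρ =
      ∫ x, ‖x - S x‖ ^ 2 ∂ρ ∧ Integrable (fun x => ‖x - S x‖ ^ 2) ρ := by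
  have hi := h.integrable_inner hS hmap
  have hx := h.integrable_normSq
  have hy : Integrable (fun x => ‖S x‖ ^ 2) ρ := by
    have := h.integrable_normSq'
    rw [← hmap] at this
    exact this.comp_measurable hS
  have e1 : (∫ y, ‖y‖ ^ 2 ∂μ) = ∫ x, ‖S x‖ ^ 2 ∂ρ := by
    rw [← hmap, integral_map hS.aemeasurable]
    exact (measurable_norm.pow_const 2).aestronglyMeasurable
  have e3 : (fun x => ‖x - S x‖ ^ 2) = fun x => (‖x‖ ^ 2 + ‖S x‖ ^ 2) - 2 * inner ℝ x (S x) := by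
    funext x; rw [norm_sub_sq_real]; ring
  have hxy : Integrable (fun x => ‖x‖ ^ 2 + ‖S x‖ ^ 2) ρ := hx.add hy
  have h2 : Integrable (fun x => 2 * inner ℝ x (S x)) ρ := hi.const_mul 2
  constructor
  · rw [e3, integral_sub hxy h2, integral_add hx hy, integral_const_mul, e1]
  · rw [e3]; exact hxy.sub h2

lemma Data.cost_eq (h : Data ρ μ Y R L) {S : E → E} (hS : Measurable S)
    (hmap : ρ.map S = μ) :
    ∫⁻ x, ‖x - S x‖ₑ ^ 2 ∂ρ =
      ENNReal.ofReal ((∫ x, ‖x‖ ^ 2 ∂ρ) + (∫ y, ‖y‖ ^ 2 ∂μ) - 2 * ∫ x, inner ℝ x (S x) ∂ρ) := by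
  obtain ⟨e2, hint⟩ := h.real_cost hS hmap
  rw [e2, ofReal_integral_eq_lintegral_ofReal hint]
  · refine lintegral_congr fun x => ?_
    rw [ENNReal.ofReal_pow (norm_nonneg _), ofReal_norm]
  · exact Filter.Eventually.of_forall fun x => by positivity

/-- Potentials `φ, ψ` with `⟪x,y⟫ ≤ φ x + ψ y`. -/
structure Potentials (ρ μ : Measure E) (Y : Set E) (φ ψ : E → ℝ) : Prop where
  intφ : Integrable φ ρ
  intψ : Integrable ψ μ
  young : ∀ᵐ x ∂ρ, ∀ y ∈ Y, inner ℝ x y ≤ φ x + ψ y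

variable {φ ψ : E → ℝ}

lemma Potentials.integral_le (hP : Potentials ρ μ Y φ ψ) (h : Data ρ μ Y R L) {S : E → E}
    (hS : Measurable S) (hmap : ρ.map S = μ) :
    ∫ x, inner ℝ x (S x) ∂ρ ≤ (∫ x, φ x ∂ρ) + ∫ y, ψ y ∂μ := by
  have hψ : Integrable (fun x => ψ (S x)) ρ := by
    have := hP.intψ
    rw [← hmap] at this
    exact this.comp_measurable hS
  have e1 : (∫ y, ψ y ∂μ) = ∫ x, ψ (S x) ∂ρ := by
    rw [← hmap, integral_map hS.aemeasurable]
    rw [hmap]; exact hP.intψ.aestronglyMeasurable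
  rw [e1, ← integral_add hP.intφ hψ]
  refine integral_mono_ae (h.integrable_inner hS hmap) (hP.intφ.add hψ) ?_
  filter_upwards [hP.young, h.ae_mem hS hmap] with x hx hy
  exact hx _ hy

lemma Potentials.integral_eq (hP : Potentials ρ μ Y φ ψ) (_h : Data ρ μ Y R L) {S : E → E}
    (hS : Measurable S) (hmap : ρ.map S = μ) (heq : ∀ᵐ x ∂ρ, inner ℝ x (S x) = φ x + ψ (S x)) :
    ∫ x, inner ℝ x (S x) ∂ρ = (∫ x, φ x ∂ρ) + ∫ y, ψ y ∂μ := by
  have hψ : Integrable (fun x => ψ (S x)) ρ := by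
    have := hP.intψ
    rw [← hmap] at this
    exact this.comp_measurable hS
  have e1 : (∫ y, ψ y ∂μ) = ∫ x, ψ (S x) ∂ρ := by
    rw [← hmap, integral_map hS.aemeasurable]
    rw [hmap]; exact hP.intψ.aestronglyMeasurable
  rw [e1, ← integral_add hP.intφ hψ]
  exact integral_congr_ae heq

/-- A map satisfying the Fenchel-Young equality is optimal. -/
theorem optimal_of_eq (h : Data ρ μ Y R L) (hP : Potentials ρ μ Y φ ψ) {T : E → E}
    (hT : Measurable T) (hmap : ρ.map T = μ)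
    (heq : ∀ᵐ x ∂ρ, inner ℝ x (T x) = φ x + ψ (T x)) : IsOptimalMap ρ μ T := by
  refine ⟨hT, hmap, fun S hS hSmap => ?_⟩
  rw [h.cost_eq hT hmap, h.cost_eq hS hSmap]
  apply ENNReal.ofReal_le_ofReal
  have h1 := hP.integral_le h hS hSmap
  have h2 := hP.integral_eq h hT hmap heq
  linarith

/-- If some map satisfies the Fenchel-Young equality then every optimal map does. -/
theorem eq_of_optimal (h : Data ρ μ Y R L) (hP : Potentials ρ μ Y φ ψ) {T₀ : E → E}
    (hT₀ : Measurable T₀) (hmap₀ : ρ.map T₀ = μ)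
    (heq : ∀ᵐ x ∂ρ, inner ℝ x (T₀ x) = φ x + ψ (T₀ x)) {T : E → E} (hT : IsOptimalMap ρ μ T) :
    ∀ᵐ x ∂ρ, inner ℝ x (T x) = φ x + ψ (T x) := by
  obtain ⟨hTm, hTmap, hTopt⟩ := hT
  have hcost := hTopt T₀ hT₀ hmap₀
  rw [h.cost_eq hTm hTmap, h.cost_eq hT₀ hmap₀] at hcost
  -- costs are nonnegative reals
  have hnonneg : 0 ≤ (∫ x, ‖x‖ ^ 2 ∂ρ) + (∫ y, ‖y‖ ^ 2 ∂μ) - 2 * ∫ x, inner ℝ x (T₀ x) ∂ρ := by
    rw [(h.real_cost hT₀ hmap₀).1]; exact integral_nonneg fun x => by positivity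
  have hc := (ENNReal.ofReal_le_ofReal_iff hnonneg).1 hcost
  have h2 := hP.integral_eq h hT₀ hmap₀ heq
  have hψ : Integrable (fun x => ψ (T x)) ρ := by
    have := hP.intψ
    rw [← hTmap] at this
    exact this.comp_measurable hTm
  have e1 : (∫ y, ψ y ∂μ) = ∫ x, ψ (T x) ∂ρ := by
    rw [← hTmap, integral_map hTm.aemeasurable]
    rw [hTmap]; exact hP.intψ.aestronglyMeasurable
  have hle : (fun x => inner ℝ x (T x)) ≤ᵐ[ρ] fun x => φ x + ψ (T x) := by
    filter_upwards [hP.young, h.ae_mem hTm hTmap] with x hx hy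
    exact hx _ hy
  have hint : ∫ x, inner ℝ x (T x) ∂ρ = ∫ x, (φ x + ψ (T x)) ∂ρ := by
    have h3 := hP.integral_le h hTm hTmap
    rw [integral_add hP.intφ hψ, ← e1]
    linarith
  exact (integral_eq_iff_of_ae_le (h.integrable_inner hTm hTmap) (hP.intφ.add hψ) hle).1 hint

end Crest.Agent.R82.FY
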