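import Mathlib

/-! Row 82 (S0109), piece (H): an absolutely continuous finite measure on `ℝ^d` (`d ≥ 1`) can be
pushed forward to any finite measure of the same mass. -/

set_option autoImplicit false
open MeasureTheory Set Filter Topology ProbabilityTheory
open scoped ENNReal NNReal

namespace Crest.Agent.R82

/-- The cdf of an atomless probability measure is continuous. -/
theorem continuous_cdf (P : Measure ℝ) [IsProbabilityMeasure P] (hP : ∀ a, P {a} = 0) :
    Continuous (cdf P) := by
  rw [continuous_iff_continuousAt]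
  intro a
  rw [(cdf P).mono.continuousAt_iff_leftLim_eq_rightLim, StieltjesFunction.rightLim_eq]
  have h1 := (cdf P).measure_singleton a
  rw [measure_cdf, hP a] at h1
  have h2 : Function.leftLim (cdf P) a ≤ cdf P a := (cdf P).mono.leftLim_le le_rfl
  have h3 : cdf P a - Function.leftLim (cdf P) a ≤ 0 := by
    exact ENNReal.ofReal_eq_zero.1 h1.symm
  linarith

/-- Probability integral transform. -/
theorem map_cdf_eq (P : Measure ℝ) [IsProbabilityMeasure P] (hP : ∀ a, P {a} = 0) :
    P.map (fun x => (⟨cdf P x, cdf_nonneg P x, cdf_le_one P x⟩ : unitInterval)) = volume := by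
  have hcont := continuous_cdf P hP
  have hmeas : Measurable (fun x => (⟨cdf P x, cdf_nonneg P x, cdf_le_one P x⟩ : unitInterval)) :=
    (hcont.measurable).subtype_mk
  have : IsProbabilityMeasure
      (P.map (fun x => (⟨cdf P x, cdf_nonneg P x, cdf_le_one P x⟩ : unitInterval))) :=
    Measure.isProbabilityMeasure_map hmeas.aemeasurable
  refine Measure.ext_of_Iic _ _ fun a => ?_
  rw [Measure.map_apply hmeas measurableSet_Iic, unitInterval.volume_Iic]
  have hpre : (fun x => (⟨cdf P x, cdf_nonneg P x, cdf_le_one P x⟩ : unitInterval)) ⁻¹' Iic a =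
      {x | cdf P x ≤ a} := by
    ext x; simp [← Subtype.coe_le_coe]
  rw [hpre]
  by_cases ha1 : (a : ℝ) = 1
  · have : {x | cdf P x ≤ a} = univ := by
      ext x; simp only [mem_ofPred_eq, mem_univ, iff_true, ha1]; exact cdf_le_one P x
    rw [this, measure_univ, ha1, ENNReal.ofReal_one]
  have ha1' : (a : ℝ) < 1 := lt_of_le_of_ne a.2.2 ha1
  set A : Set ℝ := {x | cdf P x ≤ a} with hA
  have hAcl : IsClosed A := isClosed_le hcont continuous_const
  have hAbdd : BddAbove A := by
    obtain ⟨M, hM⟩ := ((tendsto_cdf_atTop P).eventually (lt_mem_nhds ha1')).exists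
    refine ⟨M, fun x hx => ?_⟩
    by_contra hlt
    push Not at hlt
    have := (cdf P).mono hlt.le
    have hx' : cdf P x ≤ a := hx
    linarith
  by_cases hne : A.Nonempty
  · have hmem : sSup A ∈ A := hAcl.csSup_mem hne hAbdd
    have hAeq : A = Iic (sSup A) := by
      ext x
      constructor
      · intro hx; exact le_csSup hAbdd hx
      · intro hx; exact ((cdf P).mono hx).trans hmem
    have hval : cdf P (sSup A) = a := by
      refine le_antisymm hmem ?_
      -- right limit
      have h1 : Tendsto (cdf P) (𝓝[>] (sSup A)) (𝓝 (cdf P (sSup A))) :=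
        (hcont.tendsto _).mono_left nhdsWithin_le_nhds
      refine ge_of_tendsto h1 ?_
      filter_upwards [self_mem_nhdsWithin] with x hx
      by_contra hlt
      push Not at hlt
      have : x ∈ A := hlt.le
      have := le_csSup hAbdd this
      exact absurd hx (not_lt.2 this)
    rw [hAeq, ← ofReal_cdf P, hval]
  · rw [not_nonempty_iff_eq_empty] at hne
    rw [hne, measure_empty]
    have : (a : ℝ) ≤ 0 := by
      refine ge_of_tendsto (tendsto_cdf_atBot P) (Eventually.of_forall fun x => ?_)
      by_contra hlt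
      push Not at hlt
      have : x ∈ A := hlt.le
      rw [hne] at this
      exact this
    rw [ENNReal.ofReal_of_nonpos this]

/-- Absolutely continuous finite measures can be pushed to any finite measure of equal mass. -/
theorem exists_map_eq {d : ℕ} (hd : 1 ≤ d) (σ μ : Measure (EuclideanSpace ℝ (Fin d)))
    [IsFiniteMeasure σ] (hσ : σ ≪ volume) (h : σ univ = μ univ) :
    ∃ f : EuclideanSpace ℝ (Fin d) → EuclideanSpace ℝ (Fin d), Measurable f ∧ σ.map f = μ := by
  by_cases h0 : σ univ = 0
  · refine ⟨id, measurable_id, ?_⟩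
    have hμ : μ univ = 0 := by rw [← h, h0]
    rw [Measure.measure_univ_eq_zero] at h0 hμ
    rw [h0, hμ, Measure.map_zero]
  set c := σ univ with hc
  have hcfin : c ≠ ∞ := measure_ne_top σ univ
  have hP : IsProbabilityMeasure (c⁻¹ • σ) :=
    ⟨by rw [Measure.smul_apply, smul_eq_mul, ← hc, ENNReal.inv_mul_cancel h0 hcfin]⟩
  have hQ : IsProbabilityMeasure (c⁻¹ • μ) :=
    ⟨by rw [Measure.smul_apply, smul_eq_mul, ← h, ENNReal.inv_mul_cancel h0 hcfin]⟩
  let k : Fin d := ⟨0, hd⟩
  have hcoord : Measurable fun x : EuclideanSpace ℝ (Fin d) => x k := by fun_prop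
  set P : Measure ℝ := (c⁻¹ • σ).map fun x => x k with hPdef
  have : IsProbabilityMeasure P := Measure.isProbabilityMeasure_map hcoord.aemeasurable
  have hatom : ∀ a, P {a} = 0 := by
    intro a
    rw [hPdef, Measure.map_apply hcoord (measurableSet_singleton a), Measure.smul_apply]
    have : σ ((fun x : EuclideanSpace ℝ (Fin d) => x k) ⁻¹' {a}) = 0 := by
      apply hσ
      have hmp := EuclideanSpace.volume_preserving_symm_measurableEquiv_toLp (Fin d)
      have : (fun x : EuclideanSpace ℝ (Fin d) => x k) ⁻¹' {a} =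
          (MeasurableEquiv.toLp 2 (Fin d → ℝ)).symm ⁻¹' {x : Fin d → ℝ | x k = a} := by
        ext x; simp
      rw [this, hmp.measure_preimage_equiv]
      exact Measure.pi_hyperplane (fun _ : Fin d => (volume : Measure ℝ)) k a
    rw [this, smul_zero]
  obtain ⟨g, hg, hgmap⟩ := (c⁻¹ • μ).exists_measurable_map_eq
  have hu := map_cdf_eq P hatom
  have hcont := continuous_cdf P hatom
  have hmeas : Measurable (fun x => (⟨cdf P x, cdf_nonneg P x, cdf_le_one P x⟩ : unitInterval)) :=
    (hcont.measurable).subtype_mk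
  refine ⟨fun x => g (⟨cdf P (x k), cdf_nonneg P _, cdf_le_one P _⟩ : unitInterval),
    hg.comp (hmeas.comp hcoord), ?_⟩
  have hmap : (c⁻¹ • σ).map (fun x => g (⟨cdf P (x k), cdf_nonneg P _, cdf_le_one P _⟩ : unitInterval)) =
      c⁻¹ • μ := by
    rw [← hgmap, ← hu, hPdef, Measure.map_map hmeas hcoord, Measure.map_map hg (hmeas.comp hcoord)]
    rfl
  rw [Measure.map_smul] at hmap
  have := congrArg (fun m => c • m) hmap
  simpa [smul_smul, ENNReal.mul_inv_cancel h0 hcfin] using this

end Crest.Agent.R82
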