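import Mathlib
import Crest.Prelude.Def_QuadraticTransport
import Crest.Agent.R82.SemiDiscrete
import Crest.Agent.R82.FY
import Crest.Agent.R82.MapEq

/-! Row 82 (S0109), piece (H): quantisation, labels and the duality gap of an optimal map. -/

set_option autoImplicit false
set_option linter.style.haveILetI false
open MeasureTheory Set Filter Topology
open scoped ENNReal NNReal
open Crest.AnalysisR.OT

namespace Crest.Agent.R82

section Quant

variable {E : Type*} [NormedAddCommGroup E] [MeasurableSpace E] [BorelSpace E]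

/-- Quantisation of a compact set. -/
theorem exists_quantisation {Y : Set E} (hY : IsCompact Y) (hYn : Y.Nonempty) {ε : ℝ}
    (hε : 0 < ε) :
    ∃ f : SimpleFunc E E, (∀ p, f p ∈ Y) ∧ ∀ p ∈ Y, ‖f p - p‖ ≤ ε := by
  obtain ⟨y₀, hy₀⟩ := hYn
  obtain ⟨t, htY, htf, hcov⟩ := hY.finite_cover_balls hε
  have key : ∀ t : Set E, t.Finite → t ⊆ Y → ∃ f : SimpleFunc E E, (∀ p, f p ∈ Y) ∧
      ∀ p ∈ ⋃ x ∈ t, Metric.ball x ε, ‖f p - p‖ ≤ ε := by
    intro t ht
    induction t, ht using Set.Finite.induction_on with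
    | empty =>
      intro _
      exact ⟨SimpleFunc.const E y₀, fun p => hy₀, fun p hp => by simp at hp⟩
    | @insert a s _ _ ih =>
      intro hsub
      obtain ⟨f, hf1, hf2⟩ := ih ((subset_insert a s).trans hsub)
      refine ⟨SimpleFunc.piecewise (Metric.ball a ε) measurableSet_ball (SimpleFunc.const E a) f,
        fun p => ?_, fun p hp => ?_⟩
      · rw [SimpleFunc.piecewise_apply]
        split_ifs
        · exact hsub (mem_insert a s)
        · exact hf1 p
      · rw [SimpleFunc.piecewise_apply]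
        split_ifs with h
        · simp only [SimpleFunc.const_apply]
          rw [Metric.mem_ball, dist_eq_norm] at h
          rw [norm_sub_rev]; exact h.le
        · refine hf2 p ?_
          simp only [mem_iUnion, mem_insert_iff, exists_prop] at hp ⊢
          obtain ⟨x, hx | hx, hpx⟩ := hp
          · subst hx; exact absurd hpx h
          · exact ⟨x, hx, hpx⟩
  obtain ⟨f, hf1, hf2⟩ := key t htf htY
  exact ⟨f, hf1, fun p hp => hf2 p (hcov hp)⟩

end Quant

section Labels

variable {Ω F : Type*} [MeasurableSpace Ω]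

open Classical in
/-- The labels: values taken with positive probability. -/
noncomputable def labels (P : Measure Ω) (f : SimpleFunc Ω F) : Finset F :=
  f.range.filter fun c => P.real (f ⁻¹' {c}) ≠ 0

/-- The mass of a label. -/
noncomputable def mass (P : Measure Ω) (f : SimpleFunc Ω F) (c : labels P f) : ℝ :=
  P.real (f ⁻¹' {(c : F)})

theorem mem_labels {P : Measure Ω} {f : SimpleFunc Ω F} {c : F} :
    c ∈ labels P f ↔ c ∈ f.range ∧ P.real (f ⁻¹' {c}) ≠ 0 := by
  classical
  unfold labels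
  simp

theorem mass_pos (P : Measure Ω) (f : SimpleFunc Ω F) (c : labels P f) : 0 < mass P f c :=
  lt_of_le_of_ne measureReal_nonneg (Ne.symm (mem_labels.1 c.2).2)

open Classical in
/-- Extension by zero of a function on the labels. -/
noncomputable def ext0 {P : Measure Ω} {f : SimpleFunc Ω F} (ψ : labels P f → ℝ) (c : F) : ℝ :=
  if h : c ∈ labels P f then ψ ⟨c, h⟩ else 0

theorem ext0_coe {P : Measure Ω} {f : SimpleFunc Ω F} (ψ : labels P f → ℝ) (c : labels P f) :
    ext0 ψ (c : F) = ψ c := by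
  unfold ext0
  rw [dif_pos c.2]

theorem sum_mass (P : Measure Ω) [IsProbabilityMeasure P] (f : SimpleFunc Ω F) (g : F → ℝ) :
    ∑ c : labels P f, mass P f c * g c = ∫ ω, g (f ω) ∂P := by
  classical
  have h1 : ∀ ω, g (f ω) = ∑ c ∈ f.range, (f ⁻¹' {c}).indicator (fun _ => g c) ω := by
    intro ω
    rw [Finset.sum_eq_single (f ω)]
    · simp
    · intro b _ hb
      rw [indicator_of_notMem]
      simpa using hb.symm
    · intro h; exact absurd (SimpleFunc.mem_range_self f ω) h
  have h2 : ∫ ω, g (f ω) ∂P = ∑ c ∈ f.range, P.real (f ⁻¹' {c}) * g c := by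
    rw [integral_congr_ae (Eventually.of_forall h1), integral_finsetSum]
    · refine Finset.sum_congr rfl fun c _ => ?_
      rw [integral_indicator_const _ (f.measurableSet_preimage _), smul_eq_mul]
    · intro c _
      exact (integrable_const (g c)).indicator (f.measurableSet_preimage _)
  rw [h2]
  refine (Finset.sum_coe_sort (labels P f) (fun c => P.real (f ⁻¹' {c}) * g c)).trans ?_
  refine Finset.sum_subset (fun c hc => (mem_labels.1 hc).1) fun c hc hc' => ?_
  have : P.real (f ⁻¹' {c}) = 0 := by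
    by_contra h
    exact hc' (mem_labels.2 ⟨hc, h⟩)
  rw [this, zero_mul]

theorem sum_mass_one (P : Measure Ω) [IsProbabilityMeasure P] (f : SimpleFunc Ω F) :
    ∑ c : labels P f, mass P f c = 1 := by
  have := sum_mass P f (fun _ => 1)
  simpa using this

theorem labels_nonempty (P : Measure Ω) [IsProbabilityMeasure P] (f : SimpleFunc Ω F) :
    Nonempty (labels P f) := by
  by_contra h
  rw [not_nonempty_iff] at h
  have := sum_mass_one P f
  rw [Finset.univ_eq_empty, Finset.sum_empty] at this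
  exact zero_ne_one this

/-- Almost every point has its value among the labels. -/
theorem ae_mem_labels (P : Measure Ω) [IsProbabilityMeasure P] (f : SimpleFunc Ω F) :
    ∀ᵐ ω ∂P, f ω ∈ labels P f := by
  classical
  have h : ∀ c ∈ f.range, ∀ᵐ ω ∂P, f ω = c → c ∈ labels P f := by
    intro c hc
    by_cases h : P.real (f ⁻¹' {c}) = 0
    · rw [measureReal_eq_zero_iff] at h
      have : ∀ᵐ ω ∂P, ω ∉ f ⁻¹' {c} := measure_eq_zero_iff_ae_notMem.1 h
      filter_upwards [this] with ω hω hfω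
      exact absurd hfω hω
    · exact Eventually.of_forall fun ω _ => mem_labels.2 ⟨hc, h⟩
  have h2 : ∀ᵐ ω ∂P, ∀ c ∈ f.range, f ω = c → c ∈ labels P f := by
    exact (ae_ball_iff (S := (f.range : Set F)) f.range.countable_toSet).2 h
  filter_upwards [h2] with ω hω
  exact hω _ (SimpleFunc.mem_range_self f ω) rfl

section Proj

variable {Ω' F' : Type*} [MeasurableSpace Ω'] {P : Measure Ω} {P' : Measure Ω'}
  {f : SimpleFunc Ω F} {f' : SimpleFunc Ω' F'} {T : Ω → Ω'} {pr : F → F'}

/-- The projection of labels along a measure preserving map. -/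
theorem pr_mem_labels [IsFiniteMeasure P] (hT : Measurable T) (hmap : P.map T = P')
    (hpr : ∀ ω, f' (T ω) = pr (f ω)) (c : labels P f) : pr c ∈ labels P' f' := by
  obtain ⟨h1, h2⟩ := mem_labels.1 c.2
  rw [SimpleFunc.mem_range] at h1
  obtain ⟨ω, hω⟩ := h1
  refine mem_labels.2 ⟨?_, ?_⟩
  · rw [← hω, ← hpr]; exact SimpleFunc.mem_range_self _ _
  · rw [← hmap, map_measureReal_apply hT (f'.measurableSet_preimage _)]
    have hsub : f ⁻¹' {(c : F)} ⊆ T ⁻¹' (f' ⁻¹' {pr c}) := by
      intro ω hω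
      simp only [mem_preimage, mem_singleton_iff] at hω ⊢
      rw [hpr, hω]
    have h3 := measureReal_mono (μ := P) hsub
    have h4 := mass_pos P f c
    unfold mass at h4
    linarith

/-- The projection of labels along a measure preserving map. -/
noncomputable def projL [IsFiniteMeasure P] (hT : Measurable T) (hmap : P.map T = P')
    (hpr : ∀ ω, f' (T ω) = pr (f ω)) (c : labels P f) : labels P' f' :=
  ⟨pr c, pr_mem_labels hT hmap hpr c⟩

theorem sum_projL [IsProbabilityMeasure P] (hT : Measurable T) (hmap : P.map T = P')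
    (hpr : ∀ ω, f' (T ω) = pr (f ω)) (g : labels P' f' → ℝ) :
    ∑ k, mass P' f' k * g k = ∑ i, mass P f i * g (projL hT hmap hpr i) := by
  have hP' : IsProbabilityMeasure P' := by
    rw [← hmap]; exact Measure.isProbabilityMeasure_map hT.aemeasurable
  have h1 : ∑ k, mass P' f' k * g k = ∑ k, mass P' f' k * ext0 g (k : F') := by
    simp_rw [ext0_coe]
  have h2 : ∑ i, mass P f i * g (projL hT hmap hpr i) =
      ∑ i : labels P f, mass P f i * (fun c => ext0 g (pr c)) (i : F) := by
    refine Finset.sum_congr rfl fun i _ => ?_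
    have : ext0 g (pr (i : F)) = g (projL hT hmap hpr i) := ext0_coe g (projL hT hmap hpr i)
    simp only [this]
  rw [h1, h2, sum_mass P' f' (ext0 g), sum_mass P f (fun c => ext0 g (pr c))]
  have h3 : AEStronglyMeasurable (fun ω => ext0 g (f' ω)) (P.map T) :=
    (f'.map (ext0 g)).measurable.aestronglyMeasurable
  have h4 := integral_map (f := fun ω => ext0 g (f' ω)) hT.aemeasurable h3
  have h5 : ∫ ω, ext0 g (f' ω) ∂P' = ∫ ω, ext0 g (f' ω) ∂(P.map T) := by
    generalize ext0 g = g'
    rw [hmap]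
  rw [h5, h4]
  simp_rw [hpr]

theorem projL_surjective [IsProbabilityMeasure P] (hT : Measurable T) (hmap : P.map T = P')
    (hpr : ∀ ω, f' (T ω) = pr (f ω)) : Function.Surjective (projL hT hmap hpr) := by
  classical
  intro k
  by_contra h
  push Not at h
  have h1 := sum_projL hT hmap hpr (fun j => if j = k then (1 : ℝ) else 0)
  simp only [mul_ite, mul_one, mul_zero, Finset.sum_ite_eq', Finset.mem_univ, if_true] at h1
  have h2 : ∑ i : labels P f, (if projL hT hmap hpr i = k then mass P f i else 0) = 0 :=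
    Finset.sum_eq_zero fun i _ => if_neg (h i)
  rw [h2] at h1
  exact (mass_pos P' f' k).ne' h1

end Proj

end Labels

section Comp

variable {E : Type*} [NormedAddCommGroup E] [InnerProductSpace ℝ E] [FiniteDimensional ℝ E]
  [MeasurableSpace E] [BorelSpace E]
variable {ι κ : Type*} [Fintype ι] [Fintype κ] [Nonempty ι] [Nonempty κ]

omit [FiniteDimensional ℝ E] [MeasurableSpace E] [BorelSpace E] in
theorem phi_comp (y : κ → E) (ψ : κ → ℝ) (p : ι → κ) (hp : Function.Surjective p) (x : E) :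
    phi (y ∘ p) (ψ ∘ p) x = phi y ψ x := by
  apply le_antisymm
  · exact phi_le fun i => le_phi y ψ x (p i)
  · refine phi_le fun k => ?_
    obtain ⟨i, rfl⟩ := hp k
    exact le_phi (y ∘ p) (ψ ∘ p) x i

/-- Minimality of the semi-dual functional is stable under splitting of labels. -/
theorem semiDual_min_comp {σ : Measure E} [IsFiniteMeasure σ] {R : ℝ}
    (hR : ∀ᵐ x ∂σ, ‖x‖ ≤ R) (y : κ → E) (m : κ → ℝ) (m' : ι → ℝ) (p : ι → κ)
    (hp : Function.Surjective p) (hm' : ∀ i, 0 ≤ m' i)
    (hm : ∀ g : κ → ℝ, ∑ k, m k * g k = ∑ i, m' i * g (p i)) {ψ : κ → ℝ}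
    (hψ : ∀ χ, semiDual σ m y ψ ≤ semiDual σ m y χ) (χ : ι → ℝ) :
    semiDual σ m' (y ∘ p) (ψ ∘ p) ≤ semiDual σ m' (y ∘ p) χ := by
  have hs : ∀ k, ∃ i, p i = k ∧ ∀ j, p j = k → χ i ≤ χ j := by
    intro k
    have hne : (Set.univ.image (fun i : {i // p i = k} => χ i)).Finite := Set.toFinite _
    obtain ⟨i₀, hi₀⟩ := hp k
    obtain ⟨⟨i, hi⟩, hmin⟩ := @Finite.exists_min {i // p i = k} ℝ _ ⟨⟨i₀, hi₀⟩⟩ _ (fun i => χ i)
    exact ⟨i, hi, fun j hj => hmin ⟨j, hj⟩⟩
  choose s hs1 hs2 using hs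
  have h1 : semiDual σ m' (y ∘ p) (ψ ∘ p) = semiDual σ m y ψ := by
    unfold semiDual
    simp_rw [phi_comp y ψ p hp]
    rw [hm ψ]
    rfl
  have h2 : semiDual σ m y (χ ∘ s) ≤ semiDual σ m' (y ∘ p) χ := by
    unfold semiDual
    refine add_le_add ?_ ?_
    · refine integral_mono (integrable_phi hR _ _) (integrable_phi hR _ _) fun x => ?_
      refine phi_le fun k => ?_
      have := le_phi (y ∘ p) χ x (s k)
      simpa [hs1 k] using this
    · rw [hm (χ ∘ s)]
      refine Finset.sum_le_sum fun i _ => ?_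
      exact mul_le_mul_of_nonneg_left (hs2 (p i) i rfl) (hm' i)
  rw [h1]
  exact (hψ _).trans h2

end Comp

section Unquant

variable {d : ℕ}

local notation "𝔼" => EuclideanSpace ℝ (Fin d)

theorem measure_eq_sum_of_ae_cover {Ω ι : Type*} [MeasurableSpace Ω] [Fintype ι] {P : Measure Ω}
    {A : ι → Set Ω} (hA : ∀ i, MeasurableSet (A i)) (hdisj : Pairwise (Function.onFun Disjoint A))
    (hcov : ∀ᵐ x ∂P, ∃ i, x ∈ A i) {B : Set Ω} (hB : MeasurableSet B) :
    P B = ∑ i, P (B ∩ A i) := by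
  have h1 : P B = P (B ∩ ⋃ i, A i) := by
    refine measure_congr ?_
    filter_upwards [hcov] with x hx
    have : x ∈ ⋃ i, A i := mem_iUnion.2 hx
    exact propext ⟨fun h => ⟨h, this⟩, fun h => h.1⟩
  rw [h1, inter_iUnion, measure_iUnion, tsum_fintype]
  · exact fun i j hij => (hdisj hij).mono inter_subset_right inter_subset_right
  · exact fun i => hB.inter (hA i)

/-- Un-quantisation of a semi-discrete optimal map. -/
theorem exists_unquantised (hd : 1 ≤ d) (ρ μ : Measure 𝔼) [IsProbabilityMeasure ρ]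
    [IsProbabilityMeasure μ] (hρ : ρ ≪ volume) (f : SimpleFunc 𝔼 𝔼) (ψ : labels μ f → ℝ)
    (hcell : ∀ c, ρ.real (cell (fun c : labels μ f => (c : 𝔼)) ψ c) = mass μ f c) :
    ∃ S : 𝔼 → 𝔼, Measurable S ∧ ρ.map S = μ ∧
      ∀ᵐ x ∂ρ, ∃ c : labels μ f, x ∈ cell (fun c : labels μ f => (c : 𝔼)) ψ c ∧ f (S x) = c := by
  classical
  set y : labels μ f → 𝔼 := fun c => (c : 𝔼) with hy
  have hyinj : Function.Injective y := Subtype.val_injective
  have hnotie := ae_no_tie hρ hyinj ψ
  haveI := labels_nonempty μ f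
  let A : labels μ f → Set 𝔼 := fun c => {x | ∀ j, j ≠ c → inner ℝ x (y j) - ψ j <
    inner ℝ x (y c) - ψ c}
  have hAm : ∀ c, MeasurableSet (A c) := by
    intro c
    have : A c = ⋂ j, ⋂ (_ : j ≠ c), {x | inner ℝ x (y j) - ψ j < inner ℝ x (y c) - ψ c} := by
      ext x; simp [A]
    rw [this]
    refine MeasurableSet.iInter fun j => MeasurableSet.iInter fun _ => ?_
    exact measurableSet_lt (by fun_prop) (by fun_prop)
  have hAsub : ∀ c, A c ⊆ cell y ψ c := by
    intro c x hx j
    by_cases hj : j = c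
    · rw [hj]
    · exact (hx j hj).le
  have hAdisj : Pairwise (Function.onFun Disjoint A) := by
    intro c c' hcc'
    rw [Function.onFun, Set.disjoint_left]
    intro x hx hx'
    exact absurd (hx c' hcc'.symm) (not_lt.2 (hx' c hcc').le)
  have hAae : ∀ c, A c =ᵐ[ρ] cell y ψ c := by
    intro c
    filter_upwards [hnotie] with x hx
    refine propext ⟨fun h => hAsub c h, fun h j hj => ?_⟩
    exact lt_of_le_of_ne (h j) (hx j c hj)
  have hAcov : ∀ᵐ x ∂ρ, ∃ c, x ∈ A c := by
    filter_upwards [hnotie] with x hx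
    obtain ⟨c, hc⟩ := mem_iUnion.1 (iUnion_cell y ψ ▸ mem_univ x)
    exact ⟨c, fun j hj => lt_of_le_of_ne (hc j) (hx j c hj)⟩
  have hAmass : ∀ c, ρ (A c) = μ (f ⁻¹' {(c : 𝔼)}) := by
    intro c
    rw [measure_congr (hAae c)]
    have := hcell c
    unfold mass at this
    rw [measureReal_def, measureReal_def] at this
    exact (ENNReal.toReal_eq_toReal_iff' (measure_ne_top _ _) (measure_ne_top _ _)).1 this
  -- maps on the cells
  have hg : ∀ c : labels μ f, ∃ g : 𝔼 → 𝔼, Measurable g ∧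
      (ρ.restrict (A c)).map g = μ.restrict (f ⁻¹' {(c : 𝔼)}) := by
    intro c
    refine exists_map_eq hd _ _ ((Measure.restrict_le_self.absolutelyContinuous).trans hρ) ?_
    rw [Measure.restrict_apply_univ, Measure.restrict_apply_univ, hAmass]
  choose g hgm hgmap using hg
  let S : 𝔼 → 𝔼 := fun x => ∑ c, (A c).indicator (g c) x
  have hSm : Measurable S :=
    Finset.measurable_fun_sum _ fun c _ => (hgm c).indicator (hAm c)
  have hSA : ∀ c, ∀ x ∈ A c, S x = g c x := by
    intro c x hx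
    simp only [S]
    rw [Finset.sum_eq_single c]
    · rw [indicator_of_mem hx]
    · intro b _ hb
      rw [indicator_of_notMem]
      intro hxb
      exact Set.disjoint_left.1 (hAdisj hb) hxb hx
    · intro h; exact absurd (Finset.mem_univ c) h
  refine ⟨S, hSm, ?_, ?_⟩
  · ext B hB
    rw [Measure.map_apply hSm hB, measure_eq_sum_of_ae_cover hAm hAdisj hAcov (hSm hB)]
    have h1 : ∀ c, ρ (S ⁻¹' B ∩ A c) = μ (B ∩ f ⁻¹' {(c : 𝔼)}) := by
      intro c
      have h2 : S ⁻¹' B ∩ A c = g c ⁻¹' B ∩ A c := by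
        ext x
        simp only [mem_inter_iff, mem_preimage]
        constructor
        · rintro ⟨h, hx⟩; exact ⟨by rwa [← hSA c x hx], hx⟩
        · rintro ⟨h, hx⟩; exact ⟨by rwa [hSA c x hx], hx⟩
      rw [h2, ← Measure.restrict_apply (hgm c hB), ← Measure.map_apply (hgm c) hB, hgmap c,
        Measure.restrict_apply hB]
    simp_rw [h1]
    refine (measure_eq_sum_of_ae_cover (A := fun c : labels μ f => f ⁻¹' {(c : 𝔼)})
      (fun c => f.measurableSet_preimage _) ?_ ?_ hB).symm
    · intro c c' hcc'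
      rw [Function.onFun, Set.disjoint_left]
      intro p hp hp'
      simp only [mem_preimage, mem_singleton_iff] at hp hp'
      exact hcc' (Subtype.ext (hp.symm.trans hp'))
    · filter_upwards [ae_mem_labels μ f] with p hp
      exact ⟨⟨f p, hp⟩, rfl⟩
  · have h3 : ∀ c : labels μ f, ∀ᵐ x ∂ρ, x ∈ A c → f (S x) = c := by
      intro c
      have h4 : ∀ᵐ p ∂((ρ.restrict (A c)).map (g c)), p ∈ f ⁻¹' {(c : 𝔼)} := by
        rw [hgmap c]
        exact ae_restrict_mem (f.measurableSet_preimage _)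
      have h5 := ae_of_ae_map (hgm c).aemeasurable h4
      rw [ae_restrict_iff' (hAm c)] at h5
      filter_upwards [h5] with x hx hxA
      rw [hSA c x hxA]
      exact hx hxA
    filter_upwards [hAcov, ae_all_iff.2 h3] with x ⟨c, hc⟩ hx
    exact ⟨c, hAsub c hc, hx c hc⟩

/-- An optimal map maximises the correlation. -/
theorem inner_le_of_optimal {ρ μ : Measure 𝔼} {Y : Set 𝔼} {R L : ℝ} (h : FY.Data ρ μ Y R L)
    {T : 𝔼 → 𝔼} (hT : IsOptimalMap ρ μ T) {S : 𝔼 → 𝔼} (hS : Measurable S) (hmap : ρ.map S = μ) :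
    ∫ x, inner ℝ x (S x) ∂ρ ≤ ∫ x, inner ℝ x (T x) ∂ρ := by
  obtain ⟨hTm, hTmap, hTopt⟩ := hT
  have hcost := hTopt S hS hmap
  rw [h.cost_eq hTm hTmap, h.cost_eq hS hmap] at hcost
  have hnonneg : 0 ≤ (∫ x, ‖x‖ ^ 2 ∂ρ) + (∫ y, ‖y‖ ^ 2 ∂μ) - 2 * ∫ x, inner ℝ x (S x) ∂ρ := by
    rw [(h.real_cost hS hmap).1]; exact integral_nonneg fun x => by positivity
  have hc := (ENNReal.ofReal_le_ofReal_iff hnonneg).1 hcost
  linarith

theorem integrable_simple {Ω : Type*} [MeasurableSpace Ω] (P : Measure Ω) [IsFiniteMeasure P]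
    (f : SimpleFunc Ω ℝ) : Integrable (fun ω => f ω) P := by
  obtain ⟨C, hC⟩ := f.exists_forall_norm_le
  exact Integrable.of_bound f.measurable.aestronglyMeasurable C
    (Eventually.of_forall fun x => hC x)

/-- The duality gap of an optimal map with respect to a quantised problem. -/
theorem gap_le (hd : 1 ≤ d) {ρ μ : Measure 𝔼} {Y : Set 𝔼} {R L : ℝ} (h : FY.Data ρ μ Y R L)
    (hR : 0 ≤ R) (hρ : ρ ≪ volume) (f : SimpleFunc 𝔼 𝔼) {ε : ℝ}
    (hf : ∀ p ∈ Y, ‖f p - p‖ ≤ ε) (hfY : ∀ p, f p ∈ Y) (ψ : labels μ f → ℝ)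
    (hmin : ∀ χ, semiDual ρ (mass μ f) (fun c : labels μ f => (c : 𝔼)) ψ ≤
      semiDual ρ (mass μ f) (fun c : labels μ f => (c : 𝔼)) χ)
    {T : 𝔼 → 𝔼} (hT : IsOptimalMap ρ μ T) :
    Integrable (fun x => phi (fun c : labels μ f => (c : 𝔼)) ψ x + ext0 ψ (f (T x))
      - inner ℝ x (f (T x))) ρ ∧
    ∫ x, (phi (fun c : labels μ f => (c : 𝔼)) ψ x + ext0 ψ (f (T x))
      - inner ℝ x (f (T x))) ∂ρ ≤ 2 * R * ε := by
  have hprobρ := h.probρ
  have hprobμ := h.probμ
  have hne := labels_nonempty μ f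
  have hTm := hT.1
  have hTmap := hT.2.1
  obtain ⟨S, hSm, hSmap, hS⟩ := exists_unquantised hd ρ μ hρ f ψ
    (fun c => cell_mass_of_isMin hρ h.ballρ Subtype.val_injective (mass μ f) ψ hmin c)
  set y : labels μ f → 𝔼 := fun c => (c : 𝔼) with hy
  have iphi := integrable_phi h.ballρ y ψ
  have iu : ∀ U : 𝔼 → 𝔼, Measurable U → Integrable (fun x => ext0 ψ (f (U x))) ρ := by
    intro U hU
    exact integrable_simple ρ ((f.map (ext0 ψ)).comp U hU)
  have iin : ∀ U : 𝔼 → 𝔼, Measurable U → Integrable (fun x => inner ℝ x (f (U x))) ρ := by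
    intro U hU
    refine Integrable.of_bound (C := R * L) ?_ ?_
    · exact (continuous_inner.measurable.comp
        (measurable_id.prodMk (f.measurable.comp hU))).aestronglyMeasurable
    · filter_upwards [h.ballρ] with x hx
      refine (norm_inner_le_norm _ _).trans ?_
      exact mul_le_mul hx (h.ballY _ (hfY _)) (norm_nonneg _) hR
  have iinT := h.integrable_inner hTm hTmap
  have iinS := h.integrable_inner hSm hSmap
  have eu : ∫ x, ext0 ψ (f (S x)) ∂ρ = ∫ x, ext0 ψ (f (T x)) ∂ρ := by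
    have hm : ∀ ν : Measure 𝔼, AEStronglyMeasurable (fun p => ext0 ψ (f p)) ν :=
      fun ν => (f.map (ext0 ψ)).measurable.aestronglyMeasurable
    have h1 := integral_map (μ := ρ) (f := fun p => ext0 ψ (f p)) hSm.aemeasurable (hm _)
    have h2 := integral_map (μ := ρ) (f := fun p => ext0 ψ (f p)) hTm.aemeasurable (hm _)
    rw [← h1, ← h2]
    generalize ext0 ψ = ψ'
    rw [hSmap, hTmap]
  -- lower bound for `S`
  have hlow : ∫ x, (phi y ψ x + ext0 ψ (f (S x)) - R * ε) ∂ρ ≤ ∫ x, inner ℝ x (S x) ∂ρ := by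
    refine integral_mono_ae ((iphi.add (iu S hSm)).sub (integrable_const _)) iinS ?_
    filter_upwards [hS, h.ae_mem hSm hSmap, h.ballρ] with x ⟨c, hc1, hc2⟩ hxY hxR
    have e1 := phi_eq_of_mem_cell hc1
    have e2 : ext0 ψ (f (S x)) = ψ c := by rw [hc2, ext0_coe]
    have e3 : inner ℝ x (S x) = inner ℝ x (y c) - inner ℝ x (f (S x) - S x) := by
      rw [inner_sub_right, hc2]; simp [hy]
    have e4 : inner ℝ x (f (S x) - S x) ≤ R * ε :=
      (real_inner_le_norm _ _).trans (mul_le_mul hxR (hf _ hxY) (norm_nonneg _) hR)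
    simp only [hy] at e1 e3
    simp only [hy]
    rw [e1, e2, e3]
    linarith
  have hup : ∫ x, (inner ℝ x (T x) - R * ε) ∂ρ ≤ ∫ x, inner ℝ x (f (T x)) ∂ρ := by
    refine integral_mono_ae (iinT.sub (integrable_const _)) (iin T hTm) ?_
    filter_upwards [h.ae_mem hTm hTmap, h.ballρ] with x hxY hxR
    have e4 : inner ℝ x (T x - f (T x)) ≤ R * ε := by
      refine (real_inner_le_norm _ _).trans (mul_le_mul hxR ?_ (norm_nonneg _) hR)
      rw [norm_sub_rev]; exact hf _ hxY
    rw [inner_sub_right] at e4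
    linarith
  have hopt := inner_le_of_optimal h hT hSm hSmap
  have ea : ∀ U : 𝔼 → 𝔼, Measurable U → Integrable (fun x => phi y ψ x + ext0 ψ (f (U x))) ρ :=
    fun U hU => iphi.add (iu U hU)
  rw [integral_sub (ea S hSm) (integrable_const _), integral_add iphi (iu S hSm), eu,
    integral_const, probReal_univ, one_smul] at hlow
  rw [integral_sub iinT (integrable_const _), integral_const, probReal_univ, one_smul] at hup
  refine ⟨(ea T hTm).sub (iin T hTm), ?_⟩
  rw [integral_sub (ea T hTm) (iin T hTm), integral_add iphi (iu T hTm)]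
  linarith

end Unquant

end Crest.Agent.R82
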