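import Mathlib

/-! Row 82 (S0109), piece (H): near-subgradients of a convex Lipschitz function are close to its
gradient in the mean. -/

set_option autoImplicit false
open MeasureTheory Set Filter Topology
open scoped ENNReal NNReal

namespace Crest.Agent.R82

section Pointwise

variable {E : Type*} [NormedAddCommGroup E] [InnerProductSpace ℝ E] [CompleteSpace E]

/-- A convex function lies above its tangent planes. -/
theorem convex_tangent {φ : E → ℝ} (hφ : ConvexOn ℝ univ φ) {x g : E} (hg : HasGradientAt φ g x)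
    (w : E) : φ x + inner ℝ w g ≤ φ (x + w) := by
  -- the restriction to the line
  have hline : ConvexOn ℝ univ (fun s : ℝ => φ (x + s • w)) := by
    have := hφ.comp_affineMap (AffineMap.lineMap x (x + w))
    refine ⟨convex_univ, fun s _ t _ a b ha hb hab => ?_⟩
    have h1 := this.2 (mem_univ s) (mem_univ t) ha hb hab
    simp only [Function.comp_apply, AffineMap.lineMap_apply, vsub_eq_sub, add_sub_cancel_left,
      vadd_eq_add] at h1
    simpa [add_comm] using h1
  have hder : HasDerivAt (fun s : ℝ => φ (x + s • w)) (inner ℝ w g) 0 := by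
    have h1 : HasFDerivAt φ (InnerProductSpace.toDual ℝ E g) (x + (0 : ℝ) • w) := by
      simpa using hg.hasFDerivAt
    have h2 : HasDerivAt (fun s : ℝ => x + s • w) w 0 := by
      simpa using ((hasDerivAt_id (0 : ℝ)).smul_const w).const_add x
    have h3 := h1.comp_hasDerivAt (0 : ℝ) h2
    have h4 : (InnerProductSpace.toDual ℝ E g) w = inner ℝ w g := by
      rw [InnerProductSpace.toDual_apply_apply, real_inner_comm]
    rw [h4] at h3
    exact h3
  have h := hline.le_slope_of_hasDerivAt (mem_univ 0) (mem_univ 1) one_pos hder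
  simp [slope_def_field] at h
  linarith

/-- Pointwise estimate. -/
theorem near_subgradient_pointwise {φ : E → ℝ} (hφ : ConvexOn ℝ univ φ) {x g y v : E} {e t : ℝ}
    (hg : HasGradientAt φ g x)
    (hsub : ∀ x', inner ℝ x' y ≤ φ x' + (e + inner ℝ x y - φ x)) (ht : 0 < t) :
    t * |inner ℝ v (y - g)| ≤ (φ (x + t • v) + φ (x - t • v) - 2 * φ x) + e := by
  have h1 := hsub (x + t • v)
  have h2 := hsub (x - t • v)
  have h3 := convex_tangent hφ hg (t • v)
  have h4 := convex_tangent hφ hg (-(t • v))
  rw [← sub_eq_add_neg] at h4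
  simp only [inner_add_left, inner_sub_left, inner_smul_left, conj_trivial, inner_neg_left,
    inner_sub_right] at h1 h2 h3 h4 ⊢
  have : t * |inner ℝ v y - inner ℝ v g| = |t * inner ℝ v y - t * inner ℝ v g| := by
    rw [← mul_sub, abs_mul, abs_of_pos ht]
  rw [this]
  rw [abs_le]
  constructor <;> linarith

end Pointwise

section Integral

variable {d : ℕ}

local notation "𝔼" => EuclideanSpace ℝ (Fin d)

/-- Second differences of a Lipschitz function have small mean. -/
theorem integral_second_diff_le {K : Set 𝔼} (hK : IsCompact K) {φ : 𝔼 → ℝ} {L : ℝ≥0}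
    (hLip : LipschitzWith L φ) {v : 𝔼} (hv : ‖v‖ ≤ 1) {t : ℝ} (ht : 0 < t) :
    ∫ x in K, (φ (x + t • v) + φ (x - t • v) - 2 * φ x) ≤
      2 * L * t * (volume.real (Metric.cthickening t K) - volume.real K) := by
  set Ψ : 𝔼 → ℝ := fun x => φ (x + t • v) - φ x with hΨ
  have hcont : Continuous φ := hLip.continuous
  have hΨc : Continuous Ψ := by fun_prop
  have hΨb : ∀ x, |Ψ x| ≤ L * t := by
    intro x
    have := hLip.dist_le_mul (x + t • v) x
    rw [Real.dist_eq, dist_eq_norm, add_sub_cancel_left, norm_smul, Real.norm_of_nonneg ht.le] at this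
    refine this.trans ?_
    have : t * ‖v‖ ≤ t * 1 := by gcongr
    have hL : (0 : ℝ) ≤ L := L.2
    nlinarith
  set K' : Set 𝔼 := (fun x => x - t • v) '' K with hK'
  have hK'c : IsCompact K' := hK.image (by fun_prop)
  have hsub : K' ⊆ Metric.cthickening t K := by
    rintro _ ⟨x, hx, rfl⟩
    refine Metric.mem_cthickening_of_dist_le _ x t K hx ?_
    rw [dist_eq_norm, sub_sub_cancel_left, norm_neg, norm_smul, Real.norm_of_nonneg ht.le]
    nlinarith
  have hsub2 : K ⊆ Metric.cthickening t K := Metric.self_subset_cthickening K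
  have hfin : volume (Metric.cthickening t K) ≠ ∞ :=
    (hK.cthickening).measure_lt_top.ne
  have hmc : MeasurableSet (Metric.cthickening t K) := Metric.isClosed_cthickening.measurableSet
  have hvol : volume K' = volume K := by
    have : K' = (fun x => x + t • v) ⁻¹' K := by
      ext x
      simp only [hK', mem_image, mem_preimage]
      constructor
      · rintro ⟨y, hy, rfl⟩; simpa using hy
      · intro h; exact ⟨x + t • v, h, by simp⟩
    rw [this, measure_preimage_add_right]
  -- the shifted integral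
  have hshift : ∫ x in K, Ψ (x - t • v) = ∫ x in K', Ψ x := by
    have hmp : MeasurePreserving (fun x : 𝔼 => x - t • v) volume volume :=
      measurePreserving_sub_right volume (t • v)
    have hemb : MeasurableEmbedding (fun x : 𝔼 => x - t • v) :=
      measurableEmbedding_subRight (t • v)
    exact (hmp.setIntegral_image_emb hemb Ψ K).symm
  have hint : ∀ A : Set 𝔼, volume A ≠ ∞ → ∀ f : 𝔼 → ℝ, Continuous f → (∃ C, ∀ x, |f x| ≤ C) →
      IntegrableOn f A volume := by
    intro A hA f hf ⟨C, hC⟩
    refine Measure.integrableOn_of_bounded hA hf.aestronglyMeasurable (M := C) ?_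
    exact Eventually.of_forall fun x => hC x
  have hΨC : ∃ C, ∀ x, |Ψ x| ≤ C := ⟨_, hΨb⟩
  have hΨC' : ∃ C, ∀ x, |Ψ (x - t • v)| ≤ C := ⟨_, fun x => hΨb _⟩
  have hKf : volume K ≠ ∞ := hK.measure_lt_top.ne
  have hK'f : volume K' ≠ ∞ := by rw [hvol]; exact hKf
  have e1 : ∫ x in K, (φ (x + t • v) + φ (x - t • v) - 2 * φ x) =
      (∫ x in K, Ψ x) - ∫ x in K', Ψ x := by
    rw [← hshift, ← integral_sub (hint K hKf Ψ hΨc hΨC)
      (hint K hKf (fun x => Ψ (x - t • v)) (by fun_prop) hΨC')]
    refine setIntegral_congr_fun hK.measurableSet fun x _ => ?_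
    simp only [hΨ, sub_add_cancel]
    ring
  rw [e1]
  have hLt : 0 ≤ (L : ℝ) * t := by positivity
  -- compare with the thickening
  have a1 : ∫ x in K, (Ψ x + L * t) ≤ ∫ x in Metric.cthickening t K, (Ψ x + L * t) := by
    refine setIntegral_mono_set ?_ ?_ hsub2.eventuallyLE
    · exact hint _ hfin _ (by fun_prop) ⟨L * t + L * t, fun x => by
        refine (abs_add_le _ _).trans (add_le_add (hΨb x) ?_)
        rw [abs_of_nonneg hLt]⟩
    · refine Eventually.of_forall fun x => ?_
      have := (abs_le.1 (hΨb x)).1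
      simp only [Pi.zero_apply]
      linarith
  have a2 : ∫ x in K', (L * t - Ψ x) ≤ ∫ x in Metric.cthickening t K, (L * t - Ψ x) := by
    refine setIntegral_mono_set ?_ ?_ hsub.eventuallyLE
    · exact hint _ hfin _ (by fun_prop) ⟨L * t + L * t, fun x => by
        refine (abs_sub _ _).trans (add_le_add ?_ (hΨb x))
        rw [abs_of_nonneg hLt]⟩
    · refine Eventually.of_forall fun x => ?_
      have := (abs_le.1 (hΨb x)).2
      simp only [Pi.zero_apply]
      linarith
  have b1 : ∫ x in K, (Ψ x + L * t) = (∫ x in K, Ψ x) + volume.real K * (L * t) := by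
    rw [integral_add (hint K hKf Ψ hΨc hΨC) (hint K hKf _ (by fun_prop) ⟨|L * t|, fun x => le_rfl⟩),
      setIntegral_const, smul_eq_mul]
  have b2 : ∫ x in K', (L * t - Ψ x) = volume.real K * (L * t) - ∫ x in K', Ψ x := by
    rw [integral_sub (hint K' hK'f _ (by fun_prop) ⟨|L * t|, fun x => le_rfl⟩)
      (hint K' hK'f Ψ hΨc hΨC), setIntegral_const, smul_eq_mul]
    congr 2
    rw [measureReal_def, hvol, measureReal_def]
  have b3 : (∫ x in Metric.cthickening t K, (Ψ x + L * t)) +
      ∫ x in Metric.cthickening t K, (L * t - Ψ x) =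
      volume.real (Metric.cthickening t K) * (2 * (L * t)) := by
    rw [integral_add (hint _ hfin Ψ hΨc hΨC) (hint _ hfin _ (by fun_prop) ⟨|L * t|, fun x => le_rfl⟩),
      integral_sub (hint _ hfin _ (by fun_prop) ⟨|L * t|, fun x => le_rfl⟩)
      (hint _ hfin Ψ hΨc hΨC), setIntegral_const, smul_eq_mul]
    ring
  rw [b1] at a1
  rw [b2] at a2
  nlinarith

/-- The gradient of a Lipschitz function is bounded. -/
theorem norm_gradient_le {φ : 𝔼 → ℝ} {L : ℝ≥0} (hLip : LipschitzWith L φ) {x g : 𝔼}
    (hg : HasGradientAt φ g x) : ‖g‖ ≤ L := by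
  have h := hg.hasFDerivAt.le_of_lipschitz hLip
  rwa [LinearIsometryEquiv.norm_map] at h

/-- Near-subgradients of a convex Lipschitz function are close to its gradient in mean square. -/
theorem near_subgradient {K : Set 𝔼} (hK : IsCompact K) {φ : 𝔼 → ℝ} {L : ℝ≥0}
    (hφ : ConvexOn ℝ univ φ) (hLip : LipschitzWith L φ) {S G : 𝔼 → 𝔼} {e : 𝔼 → ℝ}
    (hG : ∀ᵐ x ∂(volume.restrict K), HasGradientAt φ (G x) x) (he : IntegrableOn e K volume)
    (hS : ∀ᵐ x ∂(volume.restrict K), ‖S x‖ ≤ L)
    (hsub : ∀ᵐ x ∂(volume.restrict K), ∀ x',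
      inner ℝ x' (S x) ≤ φ x' + (e x + inner ℝ x (S x) - φ x)) {t : ℝ} (ht : 0 < t) :
    ∫ x in K, ‖S x - G x‖ ^ 2 ≤ 2 * L * (d * (2 * L *
      (volume.real (Metric.cthickening t K) - volume.real K) + (∫ x in K, e x) / t)) := by
  have hcont : Continuous φ := hLip.continuous
  have hKf : volume K ≠ ∞ := hK.measure_lt_top.ne
  let v : Fin d → 𝔼 := fun i => EuclideanSpace.single i (1 : ℝ)
  have hv : ∀ i, ‖v i‖ ≤ 1 := fun i => by simp [v]
  let F : Fin d → 𝔼 → ℝ := fun i x =>
    2 * L * (((φ (x + t • v i) + φ (x - t • v i) - 2 * φ x) + e x) / t)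
  have hFc : ∀ i, IntegrableOn (fun x => φ (x + t • v i) + φ (x - t • v i) - 2 * φ x) K volume := by
    intro i
    exact (Continuous.continuousOn (by fun_prop)).integrableOn_compact hK
  have hF : ∀ i, IntegrableOn (F i) K volume := by
    intro i
    exact (((hFc i).add he).div_const t).const_mul _
  have hle : ∀ᵐ x ∂(volume.restrict K), ‖S x - G x‖ ^ 2 ≤ ∑ i, F i x := by
    filter_upwards [hG, hS, hsub] with x hGx hSx hsx
    rw [EuclideanSpace.norm_sq_eq]
    refine Finset.sum_le_sum fun i _ => ?_
    have h1 := near_subgradient_pointwise (v := v i) hφ hGx hsx ht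
    have h2 : inner ℝ (v i) (S x - G x) = (S x - G x) i := by
      simp [v, EuclideanSpace.inner_single_left]
    rw [h2] at h1
    have h3 : ‖S x - G x‖ ≤ 2 * L := by
      have := norm_sub_le (S x) (G x)
      have h4 := norm_gradient_le hLip hGx
      linarith
    have h5 : |(S x - G x) i| ≤ 2 * L := by
      have := PiLp.norm_apply_le (S x - G x) i
      rw [Real.norm_eq_abs] at this
      linarith
    have h6 : |(S x - G x) i| ≤ ((φ (x + t • v i) + φ (x - t • v i) - 2 * φ x) + e x) / t := by
      rw [le_div_iff₀ ht]; linarith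
    rw [Real.norm_eq_abs, sq]
    exact mul_le_mul h5 h6 (abs_nonneg _) (by positivity)
  have hint := integral_mono_of_nonneg (Eventually.of_forall fun x => by positivity)
    (integrable_finsetSum _ fun i _ => hF i) hle
  refine hint.trans ?_
  rw [integral_finsetSum _ fun i _ => hF i]
  have hbound : ∀ i, ∫ x in K, F i x ≤ 2 * L * (2 * L *
      (volume.real (Metric.cthickening t K) - volume.real K) + (∫ x in K, e x) / t) := by
    intro i
    simp only [F]
    rw [integral_const_mul, integral_div, integral_add (hFc i) he, add_div]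
    have h := integral_second_diff_le hK hLip (hv i) ht
    have h' : (∫ x in K, (φ (x + t • v i) + φ (x - t • v i) - 2 * φ x)) / t ≤
        2 * L * (volume.real (Metric.cthickening t K) - volume.real K) := by
      rw [div_le_iff₀ ht]; linarith
    have hL : (0 : ℝ) ≤ 2 * L := by positivity
    gcongr
  calc ∑ i, ∫ x in K, F i x ≤ ∑ _i : Fin d, 2 * L * (2 * L *
      (volume.real (Metric.cthickening t K) - volume.real K) + (∫ x in K, e x) / t) :=
        Finset.sum_le_sum fun i _ => hbound i
    _ = _ := by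
      rw [Finset.sum_const, Finset.card_univ, Fintype.card_fin, nsmul_eq_mul]; ring

end Integral

end Crest.Agent.R82
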