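import Mathlib
import Crest.Agent.R82.NearSub

/-! Row 82 (S0109), piece (G): interpolation inequality for gradients of convex Lipschitz
functions, by a translation argument. -/

set_option autoImplicit false
open MeasureTheory Set Filter Topology
open scoped ENNReal NNReal

namespace Crest.Agent.R82.GradInterp

open Crest.Agent.R82

variable {d : ℕ}

local notation "𝔼" => EuclideanSpace ℝ (Fin d)

/-- Volume growth of the parallel bodies of a convex body. -/
theorem thickening_growth {K : Set 𝔼} (hKc : IsCompact K) (hKv : Convex ℝ K)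
    (hKi : (interior K).Nonempty) :
    ∃ c : ℝ, 0 ≤ c ∧ ∀ t : ℝ, 0 < t → t ≤ 1 →
      volume.real (Metric.cthickening t K) - volume.real K ≤ c * t := by
  obtain ⟨x₀, hx₀⟩ := hKi
  rw [mem_interior_iff_mem_nhds, Metric.mem_nhds_iff] at hx₀
  obtain ⟨r', hr', hball'⟩ := hx₀
  set r := r' / 2 with hr
  have hrpos : 0 < r := by positivity
  have hball : Metric.closedBall x₀ r ⊆ K :=
    (Metric.closedBall_subset_ball (by rw [hr]; linarith)).trans hball'
  have hkey : ∀ t : ℝ, 0 < t → Metric.cthickening t K ⊆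
      AffineMap.homothety x₀ (1 + t / r) '' K := by
    intro t ht x hx
    rw [hKc.cthickening_eq_biUnion_closedBall ht.le] at hx
    simp only [mem_iUnion, Metric.mem_closedBall, exists_prop] at hx
    obtain ⟨y, hyK, hxy⟩ := hx
    set s := t / r with hs
    have hspos : 0 < s := by positivity
    have h1s : (0 : ℝ) < 1 + s := by positivity
    refine ⟨x₀ + (1 + s)⁻¹ • (x - x₀), ?_, ?_⟩
    · have hp : x₀ + s⁻¹ • (x - y) ∈ K := by
        apply hball
        rw [Metric.mem_closedBall, dist_eq_norm, add_sub_cancel_left, norm_smul,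
          Real.norm_of_nonneg (by positivity), ← dist_eq_norm]
        have : s⁻¹ * t = r := by rw [hs]; field_simp
        calc s⁻¹ * dist x y ≤ s⁻¹ * t := by gcongr
          _ = r := this
      have hconv := hKv hyK hp (a := (1 + s)⁻¹) (b := s * (1 + s)⁻¹) (by positivity)
        (by positivity) (by field_simp)
      convert hconv using 1
      have e1 : (s * (1 + s)⁻¹) • (s⁻¹ • (x - y)) = (1 + s)⁻¹ • (x - y) := by
        rw [smul_smul]; congr 1; field_simp
      rw [smul_add, e1]
      have e2 : x₀ = (1 + s)⁻¹ • x₀ + (s * (1 + s)⁻¹) • x₀ := by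
        rw [← add_smul]
        have : (1 + s)⁻¹ + s * (1 + s)⁻¹ = 1 := by field_simp
        rw [this, one_smul]
      nth_rewrite 1 [e2]
      simp only [smul_sub]
      abel
    · rw [AffineMap.homothety_apply]
      simp only [vsub_eq_sub, add_sub_cancel_left, vadd_eq_add]
      rw [smul_smul, mul_inv_cancel₀ h1s.ne', one_smul]
      abel
  refine ⟨volume.real K * (r⁻¹ * (d * (1 + r⁻¹) ^ d)), by positivity, ?_⟩
  intro t ht ht1
  have h1 : volume.real (Metric.cthickening t K) ≤ (1 + t / r) ^ d * volume.real K := by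
    have h2 := measure_mono (μ := (volume : Measure 𝔼)) (hkey t ht)
    rw [Measure.addHaar_image_homothety, finrank_euclideanSpace, Fintype.card_fin,
      abs_of_nonneg (by positivity)] at h2
    rw [measureReal_def, measureReal_def]
    have h3 := ENNReal.toReal_mono (ENNReal.mul_ne_top ENNReal.ofReal_ne_top
      hKc.measure_lt_top.ne) h2
    rwa [ENNReal.toReal_mul, ENNReal.toReal_ofReal (by positivity)] at h3
  have h4 : (1 + t / r) ^ d - 1 ≤ t * (r⁻¹ * (d * (1 + r⁻¹) ^ d)) := by
    have h5 := mul_geom_sum (1 + t / r) d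
    rw [← h5]
    have h6 : ∑ i ∈ Finset.range d, (1 + t / r) ^ i ≤ d * (1 + r⁻¹) ^ d := by
      have : ∀ i ∈ Finset.range d, (1 + t / r) ^ i ≤ (1 + r⁻¹) ^ d := by
        intro i hi
        have h7 : 1 + t / r ≤ 1 + r⁻¹ := by
          rw [div_eq_mul_inv]
          have : t * r⁻¹ ≤ 1 * r⁻¹ := by gcongr
          linarith
        calc (1 + t / r) ^ i ≤ (1 + r⁻¹) ^ i := by gcongr
          _ ≤ (1 + r⁻¹) ^ d := by
            refine pow_le_pow_right₀ ?_ (Finset.mem_range.1 hi).le
            have : 0 < r⁻¹ := by positivity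
            linarith
      calc ∑ i ∈ Finset.range d, (1 + t / r) ^ i ≤ ∑ _i ∈ Finset.range d, (1 + r⁻¹) ^ d :=
            Finset.sum_le_sum this
        _ = d * (1 + r⁻¹) ^ d := by simp
    have e : (1 + t / r - 1) = t * r⁻¹ := by rw [div_eq_mul_inv]; ring
    rw [e, mul_assoc]
    gcongr
  have h0 : 0 ≤ volume.real K := measureReal_nonneg
  nlinarith

/-- The part of `K` moved out of `K` by a short translation. -/
theorem shift_defect {K : Set 𝔼} (hKc : IsCompact K) {v : 𝔼} {t : ℝ}
    (hv : ‖v‖ ≤ t) :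
    volume.real (K \ ((fun x => x + v) ⁻¹' K)) ≤
      volume.real (Metric.cthickening t K) - volume.real K := by
  set K' : Set 𝔼 := (fun x => x + v) ⁻¹' K with hK'
  have hK'm : MeasurableSet K' := (measurable_add_const v) hKc.measurableSet
  have hvol : volume K' = volume K := measure_preimage_add_right volume v K
  have hKf : volume K ≠ ∞ := hKc.measure_lt_top.ne
  have hK'f : volume K' ≠ ∞ := by rw [hvol]; exact hKf
  have hcf : volume (Metric.cthickening t K) ≠ ∞ := hKc.cthickening.measure_lt_top.ne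
  have hsub : K' ⊆ Metric.cthickening t K := by
    intro x hx
    refine Metric.mem_cthickening_of_dist_le _ (x + v) t K hx ?_
    rw [dist_eq_norm, sub_add_cancel_left, norm_neg]
    exact hv
  have h1 : volume.real (K \ K') = volume.real K - volume.real (K ∩ K') := by
    have := measureReal_inter_add_sdiff (μ := (volume : Measure 𝔼)) (s := K) hK'm hKf
    linarith
  have h2 : volume.real (K' \ K) = volume.real K' - volume.real (K' ∩ K) := by
    have := measureReal_inter_add_sdiff (μ := (volume : Measure 𝔼)) (s := K') hKc.measurableSet hK'f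
    linarith
  have h3 : volume.real K' = volume.real K := by rw [measureReal_def, hvol, measureReal_def]
  have h4 : volume.real (K' \ K) ≤ volume.real (Metric.cthickening t K \ K) :=
    measureReal_mono (sdiff_subset_sdiff_left hsub)
      (measure_ne_top_of_subset sdiff_subset hcf)
  have h5 : volume.real (Metric.cthickening t K \ K) =
      volume.real (Metric.cthickening t K) - volume.real K := by
    have := measureReal_inter_add_sdiff (μ := (volume : Measure 𝔼)) (s := Metric.cthickening t K)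
      hKc.measurableSet hcf
    rw [inter_eq_self_of_subset_right (Metric.self_subset_cthickening K)] at this
    linarith
  rw [inter_comm] at h2
  linarith

/-- Pointwise bound. -/
theorem pointwise {φ φ' : 𝔼 → ℝ} (hφ : ConvexOn ℝ univ φ) (hφ' : ConvexOn ℝ univ φ')
    {x g g' v : 𝔼} (hg : HasGradientAt φ g x) (hg' : HasGradientAt φ' g' x) :
    |inner ℝ v (g - g')| ≤ |φ (x + v) - φ' (x + v)| + |φ (x - v) - φ' (x - v)| + |φ x - φ' x|
      + (φ' (x + v) + φ' (x - v) - 2 * φ' x) := by
  have h1 := convex_tangent hφ hg v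
  have h2 := convex_tangent hφ hg (-v)
  have h3 := convex_tangent hφ' hg' v
  have h4 := convex_tangent hφ' hg' (-v)
  rw [← sub_eq_add_neg] at h2 h4
  simp only [inner_neg_left, inner_sub_right] at h1 h2 h3 h4 ⊢
  have a1 := abs_nonneg (φ (x + v) - φ' (x + v))
  have a2 := abs_nonneg (φ (x - v) - φ' (x - v))
  have a3 := neg_abs_le (φ x - φ' x)
  have a4 := le_abs_self (φ (x + v) - φ' (x + v))
  have a5 := le_abs_self (φ (x - v) - φ' (x - v))
  rw [abs_le]
  constructor <;> linarith

theorem shifted_integral_le {K : Set 𝔼} (hKc : IsCompact K) {u : 𝔼 → ℝ} (hu : Continuous u)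
    (hu0 : ∀ x, 0 ≤ u x) (v : 𝔼) :
    IntegrableOn (((fun x => x + v) ⁻¹' K).indicator fun x => u (x + v)) K volume ∧
      ∫ x in K, ((fun x => x + v) ⁻¹' K).indicator (fun x => u (x + v)) x ≤ ∫ x in K, u x := by
  set K' : Set 𝔼 := (fun x => x + v) ⁻¹' K with hK'
  have hK'm : MeasurableSet K' := (measurable_add_const v) hKc.measurableSet
  have hK'c : IsCompact K' := (Homeomorph.addRight v).isCompact_preimage.2 hKc
  have hcont : Continuous fun x => u (x + v) := by fun_prop
  have i1 : IntegrableOn (fun x => u (x + v)) K volume := hcont.continuousOn.integrableOn_compact hKc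
  have i2 : IntegrableOn (fun x => u (x + v)) K' volume :=
    hcont.continuousOn.integrableOn_compact hK'c
  refine ⟨i1.indicator hK'm, ?_⟩
  rw [setIntegral_indicator hK'm]
  have h1 : ∫ x in K ∩ K', u (x + v) ≤ ∫ x in K', u (x + v) :=
    setIntegral_mono_set i2 (Eventually.of_forall fun x => hu0 _) inter_subset_right.eventuallyLE
  have h2 : ∫ x in K', u (x + v) = ∫ x in K, u x :=
    (measurePreserving_add_right volume v).setIntegral_preimage_emb
      (measurableEmbedding_addRight v) u K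
  linarith

theorem compl_integral_le {K : Set 𝔼} (hKc : IsCompact K) {v : 𝔼} {t : ℝ}
    (hv : ‖v‖ ≤ t) :
    IntegrableOn ((((fun x => x + v) ⁻¹' K)ᶜ).indicator fun _ => (1 : ℝ)) K volume ∧
      ∫ x in K, (((fun x => x + v) ⁻¹' K)ᶜ).indicator (fun _ => (1 : ℝ)) x ≤
        volume.real (Metric.cthickening t K) - volume.real K := by
  have hK'm : MeasurableSet (((fun x => x + v) ⁻¹' K)ᶜ) :=
    ((measurable_add_const v) hKc.measurableSet).compl
  have hKf : volume K ≠ ∞ := hKc.measure_lt_top.ne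
  refine ⟨(integrableOn_const hKf).indicator hK'm, ?_⟩
  rw [setIntegral_indicator hK'm, setIntegral_const, smul_eq_mul, mul_one, ← Set.sdiff_eq]
  exact shift_defect hKc hv

theorem numeric {W R t b a1 a2 a3 : ℝ} (hW0 : 0 ≤ W) (hWR : W ≤ 2 * R) (hb : 0 ≤ b)
    (ht : 0 < t) (hp : t * W ≤ a1 + a2 + a3 + b) :
    W ^ 2 ≤ 3 / t ^ 2 * (a1 ^ 2 + a2 ^ 2 + a3 ^ 2) + 4 * R / t * b := by
  have hR : 0 ≤ R := by linarith
  obtain ⟨q, hq⟩ : ∃ q, q = t * W := ⟨_, rfl⟩
  rw [← hq] at hp
  have hq0 : 0 ≤ q := by rw [hq]; positivity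
  have hqR : q ≤ 2 * R * t := by rw [hq]; nlinarith
  have hqb : q * b ≤ 2 * R * t * b := mul_le_mul_of_nonneg_right hqR hb
  have m1 : q * q ≤ q * (a1 + a2 + a3 + b) := mul_le_mul_of_nonneg_left hp hq0
  have m2 : 2 * (q * (a1 + a2 + a3)) ≤ q ^ 2 + (a1 + a2 + a3) ^ 2 := by
    nlinarith [sq_nonneg (q - (a1 + a2 + a3))]
  have m3 : q * (a1 + a2 + a3 + b) = q * (a1 + a2 + a3) + q * b := by ring
  have hqq : q ^ 2 ≤ (a1 + a2 + a3) ^ 2 + 4 * R * t * b := by
    rw [m3] at m1
    have : q ^ 2 = q * q := sq q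
    linarith
  have h3a : (a1 + a2 + a3) ^ 2 ≤ 3 * (a1 ^ 2 + a2 ^ 2 + a3 ^ 2) := by
    nlinarith [sq_nonneg (a1 - a2), sq_nonneg (a1 - a3), sq_nonneg (a2 - a3)]
  have hW' : W ^ 2 = q ^ 2 / t ^ 2 := by
    rw [hq, mul_pow]; field_simp
  rw [hW']
  have e : 3 / t ^ 2 * (a1 ^ 2 + a2 ^ 2 + a3 ^ 2) + 4 * R / t * b =
      (3 * (a1 ^ 2 + a2 ^ 2 + a3 ^ 2) + 4 * R * t * b) / t ^ 2 := by
    field_simp
  rw [e]
  apply div_le_div_of_nonneg_right _ (by positivity)
  linarith

/-- The bound in one direction. -/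
theorem dir_bound {K : Set 𝔼} (hKc : IsCompact K) {R : ℝ≥0} {φ φ' : 𝔼 → ℝ}
    (hφ : ConvexOn ℝ univ φ) (hφ' : ConvexOn ℝ univ φ') (hL : LipschitzWith R φ)
    (hL' : LipschitzWith R φ') {G G' : 𝔼 → 𝔼}
    (hG : ∀ᵐ x ∂(volume.restrict K), HasGradientAt φ (G x) x)
    (hG' : ∀ᵐ x ∂(volume.restrict K), HasGradientAt φ' (G' x) x) {v : 𝔼} (hv : ‖v‖ ≤ 1) {t : ℝ}
    (ht : 0 < t) :
    ∃ F : 𝔼 → ℝ, IntegrableOn F K volume ∧
      (∀ᵐ x ∂(volume.restrict K), (inner ℝ v (G x - G' x)) ^ 2 ≤ F x) ∧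
      ∫ x in K, F x ≤ 9 / t ^ 2 * (∫ x in K, (φ x - φ' x) ^ 2) +
        16 * R ^ 2 * (volume.real (Metric.cthickening t K) - volume.real K) := by
  have hc : Continuous φ := hL.continuous
  have hc' : Continuous φ' := hL'.continuous
  set V : 𝔼 := t • v with hV
  have hVt : ‖V‖ ≤ t := by
    rw [hV, norm_smul, Real.norm_of_nonneg ht.le]; nlinarith
  have hVt' : ‖-V‖ ≤ t := by rw [norm_neg]; exact hVt
  set u : 𝔼 → ℝ := fun x => (φ x - φ' x) ^ 2 with hu
  have huc : Continuous u := by fun_prop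
  have hu0 : ∀ x, 0 ≤ u x := fun x => by positivity
  set K1 : Set 𝔼 := (fun x => x + V) ⁻¹' K with hK1
  set K2 : Set 𝔼 := (fun x => x + -V) ⁻¹' K with hK2
  set b : 𝔼 → ℝ := fun x => φ' (x + t • v) + φ' (x - t • v) - 2 * φ' x with hb
  have hbc : Continuous b := by fun_prop
  obtain ⟨i1, l1⟩ := shifted_integral_le hKc huc hu0 V
  obtain ⟨i2, l2⟩ := shifted_integral_le hKc huc hu0 (-V)
  have i3 : IntegrableOn u K volume := huc.continuousOn.integrableOn_compact hKc
  have i4 : IntegrableOn b K volume := hbc.continuousOn.integrableOn_compact hKc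
  have l4 : ∫ x in K, b x ≤ 2 * R * t *
      (volume.real (Metric.cthickening t K) - volume.real K) :=
    integral_second_diff_le hKc hL' hv ht
  obtain ⟨i5, l5⟩ := compl_integral_le hKc hVt
  obtain ⟨i6, l6⟩ := compl_integral_le hKc hVt'
  rw [← hK1] at i1 l1 i5 l5
  rw [← hK2] at i2 l2 i6 l6
  set F1 : 𝔼 → ℝ := K1.indicator fun x => u (x + V) with hF1
  set F2 : 𝔼 → ℝ := K2.indicator fun x => u (x + -V) with hF2
  set F5 : 𝔼 → ℝ := (K1ᶜ).indicator fun _ => (1 : ℝ) with hF5
  set F6 : 𝔼 → ℝ := (K2ᶜ).indicator fun _ => (1 : ℝ) with hF6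
  have j123 : IntegrableOn (fun x => F1 x + F2 x + u x) K volume := (i1.add i2).add i3
  have j56 : IntegrableOn (fun x => F5 x + F6 x) K volume := i5.add i6
  refine ⟨fun x => 3 / t ^ 2 * (F1 x + F2 x + u x) + 4 * R / t * b x +
    4 * R ^ 2 * (F5 x + F6 x), ?_, ?_, ?_⟩
  · exact ((j123.const_mul _).add (i4.const_mul _)).add (j56.const_mul _)
  · filter_upwards [hG, hG'] with x hx hx'
    have hp := pointwise (v := V) hφ hφ' hx hx'
    have hb0 : 0 ≤ b x := by
      have h3 := convex_tangent hφ' hx' (t • v)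
      have h4 := convex_tangent hφ' hx' (-(t • v))
      rw [← sub_eq_add_neg] at h4
      simp only [inner_neg_left] at h4
      simp only [hb]
      linarith
    have e1 : inner ℝ V (G x - G' x) = t * inner ℝ v (G x - G' x) := by
      rw [hV, inner_smul_left, conj_trivial]
    rw [e1, abs_mul, abs_of_pos ht] at hp
    set W := inner ℝ v (G x - G' x) with hW
    have hWb : |W| ≤ 2 * R := by
      have h1 : |W| ≤ ‖v‖ * ‖G x - G' x‖ := abs_real_inner_le_norm _ _
      have h2 := norm_sub_le (G x) (G' x)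
      have h3 := norm_gradient_le hL hx
      have h4 := norm_gradient_le hL' hx'
      have h5 := norm_nonneg (G x - G' x)
      nlinarith [norm_nonneg v]
    have hW2 : W ^ 2 = |W| ^ 2 := (sq_abs W).symm
    rw [hW2]
    have hR0 : (0 : ℝ) ≤ R := R.2
    have hF1' : 0 ≤ F1 x := indicator_nonneg (fun _ _ => hu0 _) _
    have hF2' : 0 ≤ F2 x := indicator_nonneg (fun _ _ => hu0 _) _
    have hF5' : 0 ≤ F5 x := indicator_nonneg (fun _ _ => zero_le_one) _
    have hF6' : 0 ≤ F6 x := indicator_nonneg (fun _ _ => zero_le_one) _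
    have hWabs := abs_nonneg W
    by_cases hx1 : x ∈ K1
    · by_cases hx2 : x ∈ K2
      · have f1 : F1 x = u (x + V) := indicator_of_mem hx1 _
        have f2 : F2 x = u (x + -V) := indicator_of_mem hx2 _
        have hkey : |W| ^ 2 ≤ 3 / t ^ 2 * (F1 x + F2 x + u x) + 4 * R / t * b x := by
          have h := numeric hWabs hWb hb0 ht hp
          rw [sq_abs (φ (x + V) - φ' (x + V)), sq_abs (φ (x - V) - φ' (x - V)),
            sq_abs (φ x - φ' x)] at h
          rw [f1, f2, ← sub_eq_add_neg]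
          exact h
        have : 0 ≤ 4 * (R : ℝ) ^ 2 * (F5 x + F6 x) := by positivity
        linarith
      · have f6 : F6 x = 1 := indicator_of_mem (by exact hx2) _
        have h1 : |W| ^ 2 ≤ (2 * R) ^ 2 := by gcongr
        have h2 : 0 ≤ 3 / t ^ 2 * (F1 x + F2 x + u x) := by
          have := hu0 x
          positivity
        have h3 : 0 ≤ 4 * R / t * b x := by positivity
        have h4 : (2 * (R : ℝ)) ^ 2 ≤ 4 * R ^ 2 * (F5 x + F6 x) := by
          rw [f6]; nlinarith [sq_nonneg (R : ℝ)]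
        linarith
    · have f5 : F5 x = 1 := indicator_of_mem (by exact hx1) _
      have h1 : |W| ^ 2 ≤ (2 * R) ^ 2 := by gcongr
      have h2 : 0 ≤ 3 / t ^ 2 * (F1 x + F2 x + u x) := by
        have := hu0 x
        positivity
      have h3 : 0 ≤ 4 * R / t * b x := by positivity
      have h4 : (2 * (R : ℝ)) ^ 2 ≤ 4 * R ^ 2 * (F5 x + F6 x) := by
        rw [f5]; nlinarith [sq_nonneg (R : ℝ)]
      linarith
  · have e1 : ∫ x in K, (3 / t ^ 2 * (F1 x + F2 x + u x) + 4 * R / t * b x +
        4 * R ^ 2 * (F5 x + F6 x)) = 3 / t ^ 2 * ((∫ x in K, F1 x) + (∫ x in K, F2 x) +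
        ∫ x in K, u x) + 4 * R / t * (∫ x in K, b x) + 4 * R ^ 2 * ((∫ x in K, F5 x) +
        ∫ x in K, F6 x) := by
      have k1 : IntegrableOn (fun x => 3 / t ^ 2 * (F1 x + F2 x + u x)) K volume :=
        j123.const_mul _
      have k2 : IntegrableOn (fun x => 4 * R / t * b x) K volume := i4.const_mul _
      have k3 : IntegrableOn (fun x => 4 * (R : ℝ) ^ 2 * (F5 x + F6 x)) K volume :=
        j56.const_mul _
      have k12 : IntegrableOn (fun x => 3 / t ^ 2 * (F1 x + F2 x + u x) + 4 * R / t * b x) K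
        volume := k1.add k2
      have j12 : IntegrableOn (fun x => F1 x + F2 x) K volume := i1.add i2
      rw [integral_add k12 k3, integral_add k1 k2, integral_const_mul, integral_const_mul,
        integral_const_mul, integral_add j12 i3, integral_add i1 i2, integral_add i5 i6]
    rw [e1]
    have hR0 : (0 : ℝ) ≤ R := R.2
    have m1 : 3 / t ^ 2 * ((∫ x in K, F1 x) + (∫ x in K, F2 x) + ∫ x in K, u x) ≤
        3 / t ^ 2 * ((∫ x in K, u x) + (∫ x in K, u x) + ∫ x in K, u x) := by gcongr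
    have m2 : 4 * R / t * (∫ x in K, b x) ≤ 4 * R / t * (2 * R * t *
      (volume.real (Metric.cthickening t K) - volume.real K)) := by gcongr
    have m3 : 4 * (R : ℝ) ^ 2 * ((∫ x in K, F5 x) + ∫ x in K, F6 x) ≤ 4 * R ^ 2 *
      ((volume.real (Metric.cthickening t K) - volume.real K) +
        (volume.real (Metric.cthickening t K) - volume.real K)) := by gcongr
    have m4 : 4 * R / t * (2 * R * t *
      (volume.real (Metric.cthickening t K) - volume.real K)) = 8 * R ^ 2 *
      (volume.real (Metric.cthickening t K) - volume.real K) := by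
      field_simp; ring
    have m5 : 3 / t ^ 2 * ((∫ x in K, u x) + (∫ x in K, u x) + ∫ x in K, u x) =
      9 / t ^ 2 * ∫ x in K, u x := by ring
    rw [m4] at m2
    rw [m5] at m1
    linarith

/-- The bound at scale `t`. -/
theorem scale_bound {K : Set 𝔼} (hKc : IsCompact K) {R : ℝ≥0} {φ φ' : 𝔼 → ℝ}
    (hφ : ConvexOn ℝ univ φ) (hφ' : ConvexOn ℝ univ φ') (hL : LipschitzWith R φ)
    (hL' : LipschitzWith R φ') {G G' : 𝔼 → 𝔼}
    (hG : ∀ᵐ x ∂(volume.restrict K), HasGradientAt φ (G x) x)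
    (hG' : ∀ᵐ x ∂(volume.restrict K), HasGradientAt φ' (G' x) x) {t : ℝ} (ht : 0 < t) :
    ∫ x in K, ‖G x - G' x‖ ^ 2 ≤ d * (9 / t ^ 2 * (∫ x in K, (φ x - φ' x) ^ 2) +
        16 * R ^ 2 * (volume.real (Metric.cthickening t K) - volume.real K)) := by
  have hv : ∀ i : Fin d, ‖(EuclideanSpace.single i (1 : ℝ) : 𝔼)‖ ≤ 1 := fun i => by simp
  have h := fun i : Fin d => dir_bound hKc hφ hφ' hL hL' hG hG' (hv i) ht
  choose F hF1 hF2 hF3 using h
  have hle : ∀ᵐ x ∂(volume.restrict K), ‖G x - G' x‖ ^ 2 ≤ ∑ i, F i x := by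
    filter_upwards [ae_all_iff.2 hF2] with x hx
    rw [EuclideanSpace.norm_sq_eq]
    refine Finset.sum_le_sum fun i _ => ?_
    have h1 := hx i
    have h2 : inner ℝ (EuclideanSpace.single i (1 : ℝ) : 𝔼) (G x - G' x) = (G x - G' x) i := by
      simp [EuclideanSpace.inner_single_left]
    rw [h2] at h1
    rwa [Real.norm_eq_abs, sq_abs]
  have hint := integral_mono_of_nonneg (Eventually.of_forall fun x => by positivity)
    (integrable_finsetSum _ fun i _ => hF1 i) hle
  refine hint.trans ?_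
  rw [integral_finsetSum _ fun i _ => hF1 i]
  refine (Finset.sum_le_sum fun i _ => hF3 i).trans ?_
  rw [Finset.sum_const, Finset.card_univ, Fintype.card_fin, nsmul_eq_mul]

/-- **Interpolation inequality for gradients of convex Lipschitz functions.** -/
theorem grad_interp (d : ℕ) (K : Set (EuclideanSpace ℝ (Fin d))) (hKc : IsCompact K)
    (hKv : Convex ℝ K) (R : ℝ≥0) :
    ∃ C : ℝ, 0 ≤ C ∧ ∀ φ φ' : EuclideanSpace ℝ (Fin d) → ℝ,
      ConvexOn ℝ Set.univ φ → ConvexOn ℝ Set.univ φ' → LipschitzWith R φ → LipschitzWith R φ' →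
      ∀ G G' : EuclideanSpace ℝ (Fin d) → EuclideanSpace ℝ (Fin d),
        (∀ᵐ x ∂(volume.restrict K), HasGradientAt φ (G x) x) →
        (∀ᵐ x ∂(volume.restrict K), HasGradientAt φ' (G' x) x) →
        ∫ x in K, ‖G x - G' x‖ ^ 2 ≤ C * (∫ x in K, (φ x - φ' x) ^ 2) ^ (1 / 3 : ℝ) := by
  by_cases hKi : (interior K).Nonempty
  · obtain ⟨c, hc0, hc⟩ := thickening_growth hKc hKv hKi
    refine ⟨d * (9 + 16 * R ^ 2 * c) + 4 * R ^ 2 * volume.real K, by positivity, ?_⟩
    intro φ φ' hφ hφ' hL hL' G G' hG hG'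
    set δ := ∫ x in K, (φ x - φ' x) ^ 2 with hδ
    have hδ0 : 0 ≤ δ := integral_nonneg fun x => by positivity
    have hX : ∀ t : ℝ, 0 < t → t ≤ 1 → ∫ x in K, ‖G x - G' x‖ ^ 2 ≤
        d * (9 / t ^ 2 * δ + 16 * R ^ 2 * (c * t)) := by
      intro t ht ht1
      refine (scale_bound hKc hφ hφ' hL hL' hG hG' ht).trans ?_
      have := hc t ht ht1
      gcongr
    rcases eq_or_lt_of_le hδ0 with h0 | hpos
    · -- `δ = 0`
      rw [← h0, Real.zero_rpow (by norm_num), mul_zero]
      have hlim : Tendsto (fun t : ℝ => d * (16 * (R : ℝ) ^ 2 * (c * t))) (𝓝[>] (0 : ℝ)) (𝓝 0) := by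
        have h1 : Tendsto (fun t : ℝ => t) (𝓝[>] (0 : ℝ)) (𝓝 0) :=
          tendsto_id.mono_left nhdsWithin_le_nhds
        have := ((h1.const_mul c).const_mul (16 * (R : ℝ) ^ 2)).const_mul (d : ℝ)
        simpa using this
      refine ge_of_tendsto hlim ?_
      have hev : ∀ᶠ t in 𝓝[>] (0 : ℝ), t ∈ Set.Ioc (0 : ℝ) 1 :=
        Ioc_mem_nhdsGT one_pos
      filter_upwards [hev] with t ht
      have := hX t ht.1 ht.2
      rw [← h0, mul_zero, zero_add] at this
      exact this
    · rcases le_or_gt δ 1 with h1 | h1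
      · set t := δ ^ (1 / 3 : ℝ) with ht
        have htpos : 0 < t := Real.rpow_pos_of_pos hpos _
        have ht1 : t ≤ 1 := Real.rpow_le_one hδ0 h1 (by norm_num)
        have ht3 : t ^ 3 = δ := by
          rw [ht, ← Real.rpow_natCast, ← Real.rpow_mul hδ0]
          norm_num
        have h2 := hX t htpos ht1
        have e : 9 / t ^ 2 * δ = 9 * t := by
          rw [← ht3]; field_simp
        rw [e] at h2
        have h3 : 0 ≤ 4 * (R : ℝ) ^ 2 * volume.real K * t := by positivity
        calc ∫ x in K, ‖G x - G' x‖ ^ 2 ≤ d * (9 * t + 16 * R ^ 2 * (c * t)) := h2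
          _ ≤ (d * (9 + 16 * R ^ 2 * c) + 4 * R ^ 2 * volume.real K) * t := by
            have : (d * (9 + 16 * R ^ 2 * c) + 4 * R ^ 2 * volume.real K) * t =
              d * (9 * t + 16 * R ^ 2 * (c * t)) + 4 * (R : ℝ) ^ 2 * volume.real K * t := by ring
            rw [this]; linarith
      · have hb : ∫ x in K, ‖G x - G' x‖ ^ 2 ≤ 4 * R ^ 2 * volume.real K := by
          have h2 : ∫ x in K, ‖G x - G' x‖ ^ 2 ≤ ∫ _x in K, 4 * (R : ℝ) ^ 2 := by
            refine integral_mono_of_nonneg (Eventually.of_forall fun x => by positivity)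
              (integrableOn_const hKc.measure_lt_top.ne) ?_
            filter_upwards [hG, hG'] with x hx hx'
            have h3 := norm_gradient_le hL hx
            have h4 := norm_gradient_le hL' hx'
            have h5 := norm_sub_le (G x) (G' x)
            have h6 : ‖G x - G' x‖ ≤ 2 * R := by linarith
            calc ‖G x - G' x‖ ^ 2 ≤ (2 * (R : ℝ)) ^ 2 := by gcongr
              _ = 4 * (R : ℝ) ^ 2 := by ring
          rw [setIntegral_const, smul_eq_mul] at h2
          linarith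
        have h7 : 1 ≤ δ ^ (1 / 3 : ℝ) := Real.one_le_rpow h1.le (by norm_num)
        have h8 : 0 ≤ (d : ℝ) * (9 + 16 * R ^ 2 * c) := by positivity
        have h9 : 0 ≤ 4 * (R : ℝ) ^ 2 * volume.real K := by positivity
        nlinarith
  · -- empty interior: null set
    have hK0 : volume K = 0 := by
      have h1 := hKv.addHaar_frontier (volume : Measure (EuclideanSpace ℝ (Fin d)))
      rw [not_nonempty_iff_eq_empty] at hKi
      rwa [frontier, hKi, sdiff_empty, hKc.isClosed.closure_eq] at h1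
    refine ⟨0, le_rfl, ?_⟩
    intro φ φ' _ _ _ _ G G' _ _
    rw [Measure.restrict_eq_zero.2 hK0]
    simp

end Crest.Agent.R82.GradInterp
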