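import Mathlib
import Crest.Prelude.Def_QuadraticTransport
import Crest.Agent.R82.SemiDiscrete
import Crest.Agent.R82.FY
import Crest.Agent.R82.Gap
import Crest.Agent.R82.NearSub

/-! Row 82 (S0109), piece (H): from semi-discrete stability to general targets. -/

set_option autoImplicit false
set_option linter.style.haveILetI false
open MeasureTheory Set Filter Topology
open scoped ENNReal NNReal
open Crest.AnalysisR.OT

namespace Crest.Agent.R82

variable {d : ℕ}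

local notation "𝔼" => EuclideanSpace ℝ (Fin d)

/-- Statement (F): stability of potentials. -/
def PotStab (d : ℕ) (K : Set (EuclideanSpace ℝ (Fin d))) (L : ℝ) : Prop :=
    ∃ C : ℝ, 0 ≤ C ∧ ∀ (ι : Type) [Fintype ι] [Nonempty ι] (m : ι → ℝ)
      (y z : ι → EuclideanSpace ℝ (Fin d)) (ψ ψ' : ι → ℝ),
      (∀ i, 0 < m i) → ∑ i, m i = 1 → (∀ i, ‖y i‖ ≤ L) → (∀ i, ‖z i‖ ≤ L) →
      (∀ χ, semiDual (uniformProbOn K) m y ψ ≤ semiDual (uniformProbOn K) m y χ) →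
      (∀ χ, semiDual (uniformProbOn K) m z ψ' ≤ semiDual (uniformProbOn K) m z χ) →
      ∃ a : ℝ, ∫ x, (phi y ψ x - phi z ψ' x - a) ^ 2 ∂(uniformProbOn K) ≤
        C * ∑ i, m i * ‖y i - z i‖ ^ 2

/-- Statement (G): gradient interpolation. -/
def GradInterp (d : ℕ) (K : Set (EuclideanSpace ℝ (Fin d))) (R : ℝ≥0) : Prop :=
    ∃ C : ℝ, 0 ≤ C ∧ ∀ φ φ' : EuclideanSpace ℝ (Fin d) → ℝ,
      ConvexOn ℝ Set.univ φ → ConvexOn ℝ Set.univ φ' → LipschitzWith R φ → LipschitzWith R φ' →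
      ∀ G G' : EuclideanSpace ℝ (Fin d) → EuclideanSpace ℝ (Fin d),
        (∀ᵐ x ∂(volume.restrict K), HasGradientAt φ (G x) x) →
        (∀ᵐ x ∂(volume.restrict K), HasGradientAt φ' (G' x) x) →
        ∫ x in K, ‖G x - G' x‖ ^ 2 ≤ C * (∫ x in K, (φ x - φ' x) ^ 2) ^ (1 / 3 : ℝ)

section Uniform

variable {K : Set (EuclideanSpace ℝ (Fin d))}

theorem vol_pos (hKi : (interior K).Nonempty) : volume K ≠ 0 :=
  (Measure.measure_pos_of_nonempty_interior volume hKi).ne'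

theorem integral_uniform (f : 𝔼 → ℝ) :
    ∫ x, f x ∂(uniformProbOn K) = (volume.real K)⁻¹ * ∫ x in K, f x := by
  unfold uniformProbOn
  rw [integral_smul_measure, ENNReal.toReal_inv, smul_eq_mul]
  rfl

theorem uniform_prob (hKc : IsCompact K) (hKi : (interior K).Nonempty) :
    IsProbabilityMeasure (uniformProbOn K) := by
  constructor
  unfold uniformProbOn
  rw [Measure.smul_apply, Measure.restrict_apply_univ, smul_eq_mul,
    ENNReal.inv_mul_cancel (vol_pos hKi) hKc.measure_lt_top.ne]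

theorem uniformProbOn_ac : (uniformProbOn K : Measure 𝔼) ≪ volume := by
  unfold uniformProbOn
  exact (Measure.smul_absolutelyContinuous).trans Measure.restrict_le_self.absolutelyContinuous

theorem ae_uniform_iff (hKc : IsCompact K) (p : 𝔼 → Prop) :
    (∀ᵐ x ∂(uniformProbOn K), p x) ↔ ∀ᵐ x ∂(volume.restrict K), p x := by
  unfold uniformProbOn
  rw [ae_iff, ae_iff, Measure.smul_apply, smul_eq_mul, mul_eq_zero]
  have : (volume K)⁻¹ ≠ 0 := ENNReal.inv_ne_zero.2 hKc.measure_lt_top.ne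
  simp [this]

theorem ae_uniform_norm_le (hKc : IsCompact K) {R : ℝ} (hR : ∀ x ∈ K, ‖x‖ ≤ R) :
    ∀ᵐ x ∂(uniformProbOn K), ‖x‖ ≤ R := by
  rw [ae_uniform_iff hKc]
  filter_upwards [ae_restrict_mem hKc.measurableSet] with x hx using hR x hx

theorem integrable_uniform_iff (hKc : IsCompact K) (hKi : (interior K).Nonempty) (f : 𝔼 → ℝ) :
    Integrable f (uniformProbOn K) ↔ IntegrableOn f K volume := by
  unfold uniformProbOn IntegrableOn
  rw [integrable_smul_measure]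
  · exact ENNReal.inv_ne_zero.2 hKc.measure_lt_top.ne
  · exact ENNReal.inv_ne_top.2 (vol_pos hKi)

end Uniform

/-- Rademacher: gradients of a Lipschitz function exist almost everywhere. -/
theorem ae_hasGradientAt {φ : 𝔼 → ℝ} {L : ℝ≥0} (hφ : LipschitzWith L φ) (K : Set 𝔼) :
    ∀ᵐ x ∂(volume.restrict K), HasGradientAt φ (gradient φ x) x := by
  have h := hφ.ae_differentiableAt (μ := (volume : Measure 𝔼))
  filter_upwards [ae_restrict_of_ae h] with x hx using hx.hasGradientAt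

theorem measurable_gradient (φ : 𝔼 → ℝ) : Measurable (gradient φ) := by
  unfold gradient
  exact (LinearIsometryEquiv.continuous _).measurable.comp (measurable_fderiv ℝ φ)

/-- Semi-discrete stability of gradients. -/
theorem discrete_stab {K : Set 𝔼} (hKc : IsCompact K) (hKi : (interior K).Nonempty) {L : ℝ≥0}
    (hF : PotStab d K L) (hG : GradInterp d K L) :
    ∃ C : ℝ, 0 ≤ C ∧ ∀ (ι : Type) [Fintype ι] [Nonempty ι] (m : ι → ℝ)
      (y z : ι → EuclideanSpace ℝ (Fin d)) (ψ ψ' : ι → ℝ),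
      (∀ i, 0 < m i) → ∑ i, m i = 1 → (∀ i, ‖y i‖ ≤ L) → (∀ i, ‖z i‖ ≤ L) →
      (∀ χ, semiDual (uniformProbOn K) m y ψ ≤ semiDual (uniformProbOn K) m y χ) →
      (∀ χ, semiDual (uniformProbOn K) m z ψ' ≤ semiDual (uniformProbOn K) m z χ) →
      ∫ x in K, ‖gradient (phi y ψ) x - gradient (phi z ψ') x‖ ^ 2 ≤
        C * (∑ i, m i * ‖y i - z i‖ ^ 2) ^ (1 / 3 : ℝ) := by
  obtain ⟨C₁, hC₁, hF⟩ := hF
  obtain ⟨C₂, hC₂, hG⟩ := hG
  have hvol : 0 < volume.real K := by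
    rw [measureReal_def]
    exact ENNReal.toReal_pos (vol_pos hKi) hKc.measure_lt_top.ne
  refine ⟨C₂ * (volume.real K * C₁) ^ (1 / 3 : ℝ), by positivity, ?_⟩
  intro ι _ _ m y z ψ ψ' hm hsum hy hz h1 h2
  obtain ⟨a, ha⟩ := hF ι m y z ψ ψ' hm hsum hy hz h1 h2
  have hl1 : LipschitzWith L (phi y ψ) := lipschitzWith_phi y ψ L hy
  have hl2 : LipschitzWith L (phi z ψ') := lipschitzWith_phi z ψ' L hz
  have hl3 : LipschitzWith L (fun x => phi z ψ' x + a) := by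
    intro x x'
    simpa using hl2 x x'
  have hc3 : ConvexOn ℝ univ (fun x => phi z ψ' x + a) :=
    (convexOn_phi z ψ').add_const a
  have hg1 := ae_hasGradientAt hl1 K
  have hg2 := ae_hasGradientAt hl2 K
  have hg3 : ∀ᵐ x ∂(volume.restrict K),
      HasGradientAt (fun x => phi z ψ' x + a) (gradient (phi z ψ') x) x := by
    filter_upwards [hg2] with x hx
    have := hx.hasFDerivAt.add_const a
    exact this
  refine (hG _ _ (convexOn_phi y ψ) hc3 hl1 hl3 _ _ hg1 hg3).trans ?_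
  rw [mul_assoc, ← Real.mul_rpow (by positivity)
    (Finset.sum_nonneg fun i _ => mul_nonneg (hm i).le (by positivity))]
  rw [integral_uniform, inv_mul_le_iff₀ hvol] at ha
  have e1 : ∫ x in K, (phi y ψ x - (phi z ψ' x + a)) ^ 2 =
      ∫ x in K, (phi y ψ x - phi z ψ' x - a) ^ 2 := by
    refine integral_congr_ae (Eventually.of_forall fun x => ?_)
    simp only; ring
  rw [e1]
  gcongr
  linarith

theorem data_of {K : Set 𝔼} (hKc : IsCompact K) (hKi : (interior K).Nonempty) {R : ℝ}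
    (hR : ∀ x ∈ K, ‖x‖ ≤ R) {Y : Set 𝔼} {L : ℝ≥0} (hL : ∀ y ∈ Y, ‖y‖ ≤ L) {μ : Measure 𝔼}
    (hμ : IsProbabilityOn Y μ) : FY.Data (uniformProbOn K) μ Y R L where
  probρ := uniform_prob hKc hKi
  probμ := hμ.1
  ballρ := ae_uniform_norm_le hKc hR
  Ynull := hμ.2
  ballY := hL

/-- The quantised optimal map is close to the gradient of the semi-discrete potential. -/
theorem map_close (hd : 1 ≤ d) {K : Set 𝔼} (hKc : IsCompact K) (hKi : (interior K).Nonempty)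
    {R : ℝ} (hR0 : 0 ≤ R) (hR : ∀ x ∈ K, ‖x‖ ≤ R) {Y : Set 𝔼} {L : ℝ≥0}
    (hL : ∀ y ∈ Y, ‖y‖ ≤ L) {μ : Measure 𝔼} (hμ : IsProbabilityOn Y μ) (f : SimpleFunc 𝔼 𝔼)
    {ε : ℝ} (hf : ∀ p ∈ Y, ‖f p - p‖ ≤ ε) (hfY : ∀ p, f p ∈ Y) (ψ : labels μ f → ℝ)
    (hmin : ∀ χ, semiDual (uniformProbOn K) (mass μ f) (fun c : labels μ f => (c : 𝔼)) ψ ≤
      semiDual (uniformProbOn K) (mass μ f) (fun c : labels μ f => (c : 𝔼)) χ)
    {T : 𝔼 → 𝔼} (hT : IsOptimalMap (uniformProbOn K) μ T) {t : ℝ} (ht : 0 < t) :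
    ∫ x in K, ‖f (T x) - gradient (phi (fun c : labels μ f => (c : 𝔼)) ψ) x‖ ^ 2 ≤
      2 * L * (d * (2 * L * (volume.real (Metric.cthickening t K) - volume.real K)
        + (volume.real K * (2 * R * ε)) / t)) := by
  have hdata := data_of hKc hKi hR hL hμ
  have hprobμ := hμ.1
  have hne := labels_nonempty μ f
  have hvol : 0 < volume.real K := by
    rw [measureReal_def]
    exact ENNReal.toReal_pos (vol_pos hKi) hKc.measure_lt_top.ne
  obtain ⟨hint, hgap⟩ := gap_le hd hdata hR0 uniformProbOn_ac f hf hfY ψ hmin hT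
  set y : labels μ f → 𝔼 := fun c => (c : 𝔼) with hy
  have hyL : ∀ c, ‖y c‖ ≤ L := by
    intro c
    obtain ⟨h1, -⟩ := mem_labels.1 c.2
    rw [SimpleFunc.mem_range] at h1
    obtain ⟨p, hp⟩ := h1
    simp only [hy]
    rw [← hp]
    exact hL _ (hfY p)
  have hlip : LipschitzWith L (phi y ψ) := lipschitzWith_phi y ψ L hyL
  have hlab : ∀ᵐ x ∂(uniformProbOn K), f (T x) ∈ labels μ f := by
    have := ae_mem_labels μ f
    rw [← hT.2.1] at this
    have h2 := ae_of_ae_map hT.1.aemeasurable this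
    rwa [hT.2.1] at h2
  rw [ae_uniform_iff hKc] at hlab
  rw [integrable_uniform_iff hKc hKi] at hint
  have hsub : ∀ᵐ x ∂(volume.restrict K), ∀ x', inner ℝ x' (f (T x)) ≤ phi y ψ x' +
      ((phi y ψ x + ext0 ψ (f (T x)) - inner ℝ x (f (T x))) + inner ℝ x (f (T x)) - phi y ψ x) := by
    filter_upwards [hlab] with x hx x'
    have h1 := le_phi y ψ x' ⟨f (T x), hx⟩
    have h2 : ext0 ψ (f (T x)) = ψ ⟨f (T x), hx⟩ := ext0_coe ψ ⟨f (T x), hx⟩
    rw [h2]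
    simp only [hy] at h1 ⊢
    linarith
  have hS : ∀ᵐ x ∂(volume.restrict K), ‖f (T x)‖ ≤ L :=
    Eventually.of_forall fun x => hL _ (hfY _)
  have hmain := near_subgradient hKc (convexOn_phi y ψ) hlip (ae_hasGradientAt hlip K) hint hS
    hsub ht
  refine hmain.trans ?_
  rw [integral_uniform, inv_mul_le_iff₀ hvol] at hgap
  gcongr

/-- The conclusion of `discrete_stab`. -/
def GradStab (d : ℕ) (K : Set (EuclideanSpace ℝ (Fin d))) (L : ℝ) (C : ℝ) : Prop :=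
    ∀ (ι : Type) [Fintype ι] [Nonempty ι] (m : ι → ℝ)
      (y z : ι → EuclideanSpace ℝ (Fin d)) (ψ ψ' : ι → ℝ),
      (∀ i, 0 < m i) → ∑ i, m i = 1 → (∀ i, ‖y i‖ ≤ L) → (∀ i, ‖z i‖ ≤ L) →
      (∀ χ, semiDual (uniformProbOn K) m y ψ ≤ semiDual (uniformProbOn K) m y χ) →
      (∀ χ, semiDual (uniformProbOn K) m z ψ' ≤ semiDual (uniformProbOn K) m z χ) →
      ∫ x in K, ‖gradient (phi y ψ) x - gradient (phi z ψ') x‖ ^ 2 ≤
        C * (∑ i, m i * ‖y i - z i‖ ^ 2) ^ (1 / 3 : ℝ)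

theorem norm_sq_five (a b c e f g : 𝔼) :
    ‖a - g‖ ^ 2 ≤ 5 * (‖b - a‖ ^ 2 + ‖b - c‖ ^ 2 + ‖c - e‖ ^ 2 + ‖f - e‖ ^ 2 + ‖f - g‖ ^ 2) := by
  have h : ‖a - g‖ ≤ ‖b - a‖ + ‖b - c‖ + ‖c - e‖ + ‖f - e‖ + ‖f - g‖ := by
    have e1 : a - g = (a - b) + (b - c) + (c - e) + (e - f) + (f - g) := by abel
    rw [e1]
    have h1 := norm_add_le ((a - b) + (b - c) + (c - e) + (e - f)) (f - g)
    have h2 := norm_add_le ((a - b) + (b - c) + (c - e)) (e - f)
    have h3 := norm_add_le ((a - b) + (b - c)) (c - e)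
    have h4 := norm_add_le (a - b) (b - c)
    rw [norm_sub_rev a b] at h4
    rw [norm_sub_rev e f] at h2
    linarith
  have h0 := norm_nonneg (a - g)
  nlinarith [sq_nonneg (‖b - a‖ - ‖b - c‖), sq_nonneg (‖b - a‖ - ‖c - e‖),
    sq_nonneg (‖b - a‖ - ‖f - e‖), sq_nonneg (‖b - a‖ - ‖f - g‖), sq_nonneg (‖b - c‖ - ‖c - e‖),
    sq_nonneg (‖b - c‖ - ‖f - e‖), sq_nonneg (‖b - c‖ - ‖f - g‖), sq_nonneg (‖c - e‖ - ‖f - e‖),
    sq_nonneg (‖c - e‖ - ‖f - g‖), sq_nonneg (‖f - e‖ - ‖f - g‖), norm_nonneg (b - a),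
    norm_nonneg (b - c), norm_nonneg (c - e), norm_nonneg (f - e), norm_nonneg (f - g)]

/-- Stability at scale `ε`. -/
theorem stab_eps (hd : 1 ≤ d) {K : Set 𝔼} (hKc : IsCompact K) (hKi : (interior K).Nonempty)
    {R : ℝ} (hR0 : 0 ≤ R) (hR : ∀ x ∈ K, ‖x‖ ≤ R) {Y : Set 𝔼} (hYc : IsCompact Y)
    (hYn : Y.Nonempty) {L : ℝ≥0} (hL : ∀ y ∈ Y, ‖y‖ ≤ L) {C : ℝ} (hC0 : 0 ≤ C)
    (hC : GradStab d K L C) {μ ν : Measure 𝔼} (hμ : IsProbabilityOn Y μ)
    (hν : IsProbabilityOn Y ν) {Tμ Tν : 𝔼 → 𝔼} (hTμ : IsOptimalMap (uniformProbOn K) μ Tμ)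
    (hTν : IsOptimalMap (uniformProbOn K) ν Tν) {π : Measure (𝔼 × 𝔼)}
    (hπ : IsPairCoupling μ ν π) {ε t : ℝ} (hε : 0 < ε) (ht : 0 < t) :
    ∫ x in K, ‖Tμ x - Tν x‖ ^ 2 ≤ 5 * (2 * (volume.real K * ε ^ 2) +
      2 * (2 * L * (d * (2 * L * (volume.real (Metric.cthickening t K) - volume.real K)
        + (volume.real K * (2 * R * ε)) / t))) +
      C * (3 * (∫ p, ‖p.1 - p.2‖ ^ 2 ∂π + 2 * ε ^ 2)) ^ (1 / 3 : ℝ)) := by
  classical
  obtain ⟨f, hfY, hf⟩ := exists_quantisation hYc hYn hε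
  have hprobμ := hμ.1
  have hprobν := hν.1
  have hprobρ := uniform_prob hKc hKi
  have hneμ := labels_nonempty μ f
  have hneν := labels_nonempty ν f
  have hball := ae_uniform_norm_le hKc hR
  have hvol : 0 < volume.real K := by
    rw [measureReal_def]
    exact ENNReal.toReal_pos (vol_pos hKi) hKc.measure_lt_top.ne
  have hprobπ : IsProbabilityMeasure π := by
    constructor
    have h1 : (π.map Prod.fst) univ = 1 := by rw [hπ.1]; exact measure_univ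
    rwa [Measure.map_apply measurable_fst MeasurableSet.univ, preimage_univ] at h1
  obtain ⟨ψ, hψ⟩ := exists_min_semiDual (uniformProbOn K) R hball
    (fun c : labels μ f => (c : 𝔼)) (mass μ f) (mass_pos μ f)
    (by rw [sum_mass_one, probReal_univ])
  obtain ⟨ψ', hψ'⟩ := exists_min_semiDual (uniformProbOn K) R hball
    (fun c : labels ν f => (c : 𝔼)) (mass ν f) (mass_pos ν f)
    (by rw [sum_mass_one, probReal_univ])
  have hclose := map_close hd hKc hKi hR0 hR hL hμ f hf hfY ψ hψ hTμ ht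
  have hclose' := map_close hd hKc hKi hR0 hR hL hν f hf hfY ψ' hψ' hTν ht
  set G := gradient (phi (fun c : labels μ f => (c : 𝔼)) ψ) with hG
  set G' := gradient (phi (fun c : labels ν f => (c : 𝔼)) ψ') with hG'
  -- the pair quantisation
  let f2 : SimpleFunc (𝔼 × 𝔼) (𝔼 × 𝔼) :=
    (f.comp Prod.fst measurable_fst).pair (f.comp Prod.snd measurable_snd)
  have hf2 : ∀ p, f2 p = (f p.1, f p.2) := fun p => rfl
  have hne2 := labels_nonempty π f2
  have hpr1 : ∀ ω : 𝔼 × 𝔼, f (Prod.fst ω) = Prod.fst (f2 ω) := fun ω => rfl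
  have hpr2 : ∀ ω : 𝔼 × 𝔼, f (Prod.snd ω) = Prod.snd (f2 ω) := fun ω => rfl
  let p1 : labels π f2 → labels μ f := projL (P := π) measurable_fst hπ.1 hpr1
  let p2 : labels π f2 → labels ν f := projL (P := π) measurable_snd hπ.2 hpr2
  have hp1s : Function.Surjective p1 := projL_surjective (P := π) measurable_fst hπ.1 hpr1
  have hp2s : Function.Surjective p2 := projL_surjective (P := π) measurable_snd hπ.2 hpr2
  have hmin1 := semiDual_min_comp hball (fun c : labels μ f => (c : 𝔼)) (mass μ f) (mass π f2) p1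
    hp1s (fun i => (mass_pos π f2 i).le)
    (fun g => sum_projL (P := π) measurable_fst hπ.1 hpr1 g) hψ
  have hmin2 := semiDual_min_comp hball (fun c : labels ν f => (c : 𝔼)) (mass ν f) (mass π f2) p2
    hp2s (fun i => (mass_pos π f2 i).le)
    (fun g => sum_projL (P := π) measurable_snd hπ.2 hpr2 g) hψ'
  have hlabL : ∀ (P : Measure 𝔼) (c : labels P f), ‖(c : 𝔼)‖ ≤ L := by
    intro P c
    obtain ⟨h1, -⟩ := mem_labels.1 c.2
    rw [SimpleFunc.mem_range] at h1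
    obtain ⟨p, hp⟩ := h1
    rw [← hp]
    exact hL _ (hfY p)
  have hstab := hC (labels π f2) (mass π f2) ((fun c : labels μ f => (c : 𝔼)) ∘ p1)
    ((fun c : labels ν f => (c : 𝔼)) ∘ p2) (ψ ∘ p1) (ψ' ∘ p2) (mass_pos π f2) (sum_mass_one π f2)
    (fun i => hlabL μ (p1 i)) (fun i => hlabL ν (p2 i)) hmin1 hmin2
  have e1 : phi ((fun c : labels μ f => (c : 𝔼)) ∘ p1) (ψ ∘ p1) =
      phi (fun c : labels μ f => (c : 𝔼)) ψ := funext fun x => phi_comp _ ψ p1 hp1s x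
  have e2 : phi ((fun c : labels ν f => (c : 𝔼)) ∘ p2) (ψ' ∘ p2) =
      phi (fun c : labels ν f => (c : 𝔼)) ψ' := funext fun x => phi_comp _ ψ' p2 hp2s x
  rw [e1, e2, ← hG, ← hG'] at hstab
  have e3 : ∑ i : labels π f2, mass π f2 i * ‖((fun c : labels μ f => (c : 𝔼)) ∘ p1) i -
      ((fun c : labels ν f => (c : 𝔼)) ∘ p2) i‖ ^ 2 = ∫ p, ‖f p.1 - f p.2‖ ^ 2 ∂π := by
    have := sum_mass π f2 (fun q => ‖q.1 - q.2‖ ^ 2)
    simp only [hf2] at this
    rw [← this]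
    rfl
  rw [e3] at hstab
  -- boundedness on `Y × Y`
  have hYY : ∀ᵐ p ∂π, p.1 ∈ Y ∧ p.2 ∈ Y := by
    have h1 : ∀ᵐ y ∂(π.map Prod.fst), y ∈ Y := by rw [hπ.1, ae_iff]; exact hμ.2
    have h2 : ∀ᵐ y ∂(π.map Prod.snd), y ∈ Y := by rw [hπ.2, ae_iff]; exact hν.2
    filter_upwards [ae_of_ae_map measurable_fst.aemeasurable h1,
      ae_of_ae_map measurable_snd.aemeasurable h2] with p h3 h4
    exact ⟨h3, h4⟩
  have icost : Integrable (fun p : 𝔼 × 𝔼 => ‖p.1 - p.2‖ ^ 2) π := by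
    refine Integrable.of_bound (C := (2 * L) ^ 2) (by fun_prop) ?_
    filter_upwards [hYY] with p hp
    rw [Real.norm_of_nonneg (by positivity)]
    have h1 := norm_sub_le p.1 p.2
    have h2 := hL _ hp.1
    have h3 := hL _ hp.2
    gcongr
    linarith
  have ifcost : Integrable (fun p : 𝔼 × 𝔼 => ‖f p.1 - f p.2‖ ^ 2) π := by
    have h1 := integrable_simple π (f2.map fun q : 𝔼 × 𝔼 => ‖q.1 - q.2‖ ^ 2)
    simp only [SimpleFunc.map_apply, hf2] at h1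
    exact h1
  have hcost : ∫ p, ‖f p.1 - f p.2‖ ^ 2 ∂π ≤ 3 * (∫ p, ‖p.1 - p.2‖ ^ 2 ∂π + 2 * ε ^ 2) := by
    have h1 : ∫ p, ‖f p.1 - f p.2‖ ^ 2 ∂π ≤ ∫ p, 3 * (‖p.1 - p.2‖ ^ 2 + 2 * ε ^ 2) ∂π := by
      refine integral_mono_ae ifcost ((icost.add (integrable_const _)).const_mul 3) ?_
      filter_upwards [hYY] with p hp
      have h2 : ‖f p.1 - f p.2‖ ≤ ‖f p.1 - p.1‖ + ‖p.1 - p.2‖ + ‖f p.2 - p.2‖ := by
        have e : f p.1 - f p.2 = (f p.1 - p.1) + (p.1 - p.2) + (p.2 - f p.2) := by abel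
        rw [e]
        have h5 := norm_add_le ((f p.1 - p.1) + (p.1 - p.2)) (p.2 - f p.2)
        have h6 := norm_add_le (f p.1 - p.1) (p.1 - p.2)
        rw [norm_sub_rev p.2 (f p.2)] at h5
        linarith
      have h3 := hf _ hp.1
      have h4 := hf _ hp.2
      have h7 : ‖f p.1 - f p.2‖ ≤ ‖p.1 - p.2‖ + 2 * ε := by linarith
      have h8 := norm_nonneg (f p.1 - f p.2)
      have h9 := norm_nonneg (p.1 - p.2)
      have h10 : ‖f p.1 - f p.2‖ ^ 2 ≤ (‖p.1 - p.2‖ + 2 * ε) ^ 2 := by gcongr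
      nlinarith [sq_nonneg (‖p.1 - p.2‖ - ε)]
    refine h1.trans (le_of_eq ?_)
    rw [integral_const_mul, integral_add icost (integrable_const _), integral_const,
      probReal_univ, one_smul]
  have hstab' : ∫ x in K, ‖G x - G' x‖ ^ 2 ≤
      C * (3 * (∫ p, ‖p.1 - p.2‖ ^ 2 ∂π + 2 * ε ^ 2)) ^ (1 / 3 : ℝ) := by
    refine hstab.trans ?_
    gcongr
  -- integrability on `K`
  have hKfin : volume K ≠ ∞ := hKc.measure_lt_top.ne
  have hmemμ : ∀ᵐ x ∂(volume.restrict K), Tμ x ∈ Y := by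
    rw [← ae_uniform_iff hKc]
    exact (data_of hKc hKi hR hL hμ).ae_mem hTμ.1 hTμ.2.1
  have hmemν : ∀ᵐ x ∂(volume.restrict K), Tν x ∈ Y := by
    rw [← ae_uniform_iff hKc]
    exact (data_of hKc hKi hR hL hν).ae_mem hTν.1 hTν.2.1
  have hlip : LipschitzWith L (phi (fun c : labels μ f => (c : 𝔼)) ψ) :=
    lipschitzWith_phi _ ψ L (hlabL μ)
  have hlip' : LipschitzWith L (phi (fun c : labels ν f => (c : 𝔼)) ψ') :=
    lipschitzWith_phi _ ψ' L (hlabL ν)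
  have hGb : ∀ᵐ x ∂(volume.restrict K), ‖G x‖ ≤ L := by
    filter_upwards [ae_hasGradientAt hlip K] with x hx using norm_gradient_le hlip hx
  have hGb' : ∀ᵐ x ∂(volume.restrict K), ‖G' x‖ ≤ L := by
    filter_upwards [ae_hasGradientAt hlip' K] with x hx using norm_gradient_le hlip' hx
  have hint : ∀ U V : 𝔼 → 𝔼, Measurable U → Measurable V →
      (∀ᵐ x ∂(volume.restrict K), ‖U x‖ ≤ L) → (∀ᵐ x ∂(volume.restrict K), ‖V x‖ ≤ L) →
      IntegrableOn (fun x => ‖U x - V x‖ ^ 2) K volume := by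
    intro U V hU hV hUb hVb
    refine Measure.integrableOn_of_bounded (M := (2 * L) ^ 2) hKfin
      ((hU.sub hV).norm.pow_const 2).aestronglyMeasurable ?_
    filter_upwards [hUb, hVb] with x h1 h2
    rw [Real.norm_of_nonneg (by positivity)]
    have h3 := norm_sub_le (U x) (V x)
    gcongr
    linarith
  have mG : Measurable G := measurable_gradient _
  have mG' : Measurable G' := measurable_gradient _
  have mfμ : Measurable fun x => f (Tμ x) := f.measurable.comp hTμ.1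
  have mfν : Measurable fun x => f (Tν x) := f.measurable.comp hTν.1
  have bfμ : ∀ᵐ x ∂(volume.restrict K), ‖f (Tμ x)‖ ≤ L := Eventually.of_forall fun x => hL _ (hfY _)
  have bfν : ∀ᵐ x ∂(volume.restrict K), ‖f (Tν x)‖ ≤ L := Eventually.of_forall fun x => hL _ (hfY _)
  have bTμ : ∀ᵐ x ∂(volume.restrict K), ‖Tμ x‖ ≤ L := hmemμ.mono fun x hx => hL _ hx
  have bTν : ∀ᵐ x ∂(volume.restrict K), ‖Tν x‖ ≤ L := hmemν.mono fun x hx => hL _ hx
  have i1 := hint (fun x => f (Tμ x)) Tμ mfμ hTμ.1 bfμ bTμ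
  have i2 := hint (fun x => f (Tμ x)) G mfμ mG bfμ hGb
  have i3 := hint G G' mG mG' hGb hGb'
  have i4 := hint (fun x => f (Tν x)) G' mfν mG' bfν hGb'
  have i5 := hint (fun x => f (Tν x)) Tν mfν hTν.1 bfν bTν
  have j1 : ∫ x in K, ‖f (Tμ x) - Tμ x‖ ^ 2 ≤ volume.real K * ε ^ 2 := by
    have : ∫ x in K, ‖f (Tμ x) - Tμ x‖ ^ 2 ≤ ∫ _x in K, ε ^ 2 := by
      refine integral_mono_ae i1 (integrableOn_const hKfin) ?_
      filter_upwards [hmemμ] with x hx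
      have := hf _ hx
      gcongr
    rwa [setIntegral_const, smul_eq_mul] at this
  have j5 : ∫ x in K, ‖f (Tν x) - Tν x‖ ^ 2 ≤ volume.real K * ε ^ 2 := by
    have : ∫ x in K, ‖f (Tν x) - Tν x‖ ^ 2 ≤ ∫ _x in K, ε ^ 2 := by
      refine integral_mono_ae i5 (integrableOn_const hKfin) ?_
      filter_upwards [hmemν] with x hx
      have := hf _ hx
      gcongr
    rwa [setIntegral_const, smul_eq_mul] at this
  have k12 := i1.add i2
  have k123 := k12.add i3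
  have k1234 := k123.add i4
  have k12345 := k1234.add i5
  have hfinal : ∫ x in K, ‖Tμ x - Tν x‖ ^ 2 ≤ ∫ x in K, 5 * (‖f (Tμ x) - Tμ x‖ ^ 2 +
      ‖f (Tμ x) - G x‖ ^ 2 + ‖G x - G' x‖ ^ 2 + ‖f (Tν x) - G' x‖ ^ 2 +
      ‖f (Tν x) - Tν x‖ ^ 2) := by
    refine integral_mono_of_nonneg (Eventually.of_forall fun x => by positivity)
      (k12345.const_mul 5) (Eventually.of_forall fun x => ?_)
    exact norm_sq_five (Tμ x) (f (Tμ x)) (G x) (G' x) (f (Tν x)) (Tν x)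
  refine hfinal.trans ?_
  have hsplit : ∫ x in K, (‖f (Tμ x) - Tμ x‖ ^ 2 +
      ‖f (Tμ x) - G x‖ ^ 2 + ‖G x - G' x‖ ^ 2 + ‖f (Tν x) - G' x‖ ^ 2 +
      ‖f (Tν x) - Tν x‖ ^ 2) = (∫ x in K, ‖f (Tμ x) - Tμ x‖ ^ 2) +
      (∫ x in K, ‖f (Tμ x) - G x‖ ^ 2) + (∫ x in K, ‖G x - G' x‖ ^ 2) +
      (∫ x in K, ‖f (Tν x) - G' x‖ ^ 2) + ∫ x in K, ‖f (Tν x) - Tν x‖ ^ 2 := by
    have s1 := integral_add k1234 i5
    have s2 := integral_add k123 i4
    have s3 := integral_add k12 i3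
    have s4 := integral_add i1 i2
    simp only [Pi.add_apply] at s1 s2 s3 s4
    rw [s1, s2, s3, s4]
  rw [integral_const_mul, hsplit]
  have := hstab'
  linarith

/-- The limit `ε → 0`. -/
theorem stab_limit (hd : 1 ≤ d) {K : Set 𝔼} (hKc : IsCompact K) (hKi : (interior K).Nonempty)
    {R : ℝ} (hR0 : 0 ≤ R) (hR : ∀ x ∈ K, ‖x‖ ≤ R) {Y : Set 𝔼} (hYc : IsCompact Y)
    (hYn : Y.Nonempty) {L : ℝ≥0} (hL : ∀ y ∈ Y, ‖y‖ ≤ L) {C : ℝ} (hC0 : 0 ≤ C)
    (hC : GradStab d K L C) {μ ν : Measure 𝔼} (hμ : IsProbabilityOn Y μ)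
    (hν : IsProbabilityOn Y ν) {Tμ Tν : 𝔼 → 𝔼} (hTμ : IsOptimalMap (uniformProbOn K) μ Tμ)
    (hTν : IsOptimalMap (uniformProbOn K) ν Tν) {π : Measure (𝔼 × 𝔼)}
    (hπ : IsPairCoupling μ ν π) :
    ∫ x in K, ‖Tμ x - Tν x‖ ^ 2 ≤ 5 * (C * (3 * ∫ p, ‖p.1 - p.2‖ ^ 2 ∂π) ^ (1 / 3 : ℝ)) := by
  set c₀ := ∫ p, ‖p.1 - p.2‖ ^ 2 ∂π with hc₀
  -- apply with `ε = t ^ 2`
  have hev : ∀ᶠ t in 𝓝[>] (0 : ℝ), ∫ x in K, ‖Tμ x - Tν x‖ ^ 2 ≤
      5 * (2 * (volume.real K * (t ^ 2) ^ 2) +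
      2 * (2 * L * (d * (2 * L * (volume.real (Metric.cthickening t K) - volume.real K)
        + (volume.real K * (2 * R * t))))) +
      C * (3 * (c₀ + 2 * (t ^ 2) ^ 2)) ^ (1 / 3 : ℝ)) := by
    filter_upwards [self_mem_nhdsWithin] with t ht
    have ht' : 0 < t := ht
    have h := stab_eps hd hKc hKi hR0 hR hYc hYn hL hC0 hC hμ hν hTμ hTν hπ
      (ε := t ^ 2) (t := t) (by positivity) ht'
    have e : volume.real K * (2 * R * t ^ 2) / t = volume.real K * (2 * R * t) := by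
      field_simp
    rw [e] at h
    exact h
  refine ge_of_tendsto ?_ hev
  have hth : Tendsto (fun t => volume.real (Metric.cthickening t K)) (𝓝[>] (0 : ℝ))
      (𝓝 (volume.real K)) := by
    have h1 := tendsto_measure_cthickening_of_isCompact (μ := (volume : Measure 𝔼)) hKc
    have h2 := (ENNReal.tendsto_toReal hKc.measure_lt_top.ne).comp h1
    exact h2.mono_left nhdsWithin_le_nhds
  have ht : Tendsto (fun t : ℝ => t) (𝓝[>] (0 : ℝ)) (𝓝 0) := tendsto_id.mono_left nhdsWithin_le_nhds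
  have ht4 : Tendsto (fun t : ℝ => (t ^ 2) ^ 2) (𝓝[>] (0 : ℝ)) (𝓝 0) := by
    have := (ht.pow 2).pow 2
    simpa using this
  have hrp : Tendsto (fun t : ℝ => (3 * (c₀ + 2 * (t ^ 2) ^ 2)) ^ (1 / 3 : ℝ)) (𝓝[>] (0 : ℝ))
      (𝓝 ((3 * c₀) ^ (1 / 3 : ℝ))) := by
    have h1 : Tendsto (fun t : ℝ => 3 * (c₀ + 2 * (t ^ 2) ^ 2)) (𝓝[>] (0 : ℝ))
        (𝓝 (3 * (c₀ + 2 * 0))) := (tendsto_const_nhds.add (ht4.const_mul 2)).const_mul 3
    rw [mul_zero, add_zero] at h1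
    exact h1.rpow_const (Or.inr (by norm_num))
  have hA : Tendsto (fun t : ℝ => 2 * (volume.real K * (t ^ 2) ^ 2)) (𝓝[>] (0 : ℝ)) (𝓝 0) := by
    have := (ht4.const_mul (volume.real K)).const_mul 2
    simpa using this
  have hB : Tendsto (fun t : ℝ => 2 * (2 * L * (d * (2 * L *
      (volume.real (Metric.cthickening t K) - volume.real K)
        + (volume.real K * (2 * R * t)))))) (𝓝[>] (0 : ℝ)) (𝓝 0) := by
    have h1 : Tendsto (fun t => 2 * (L : ℝ) * (volume.real (Metric.cthickening t K)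
        - volume.real K)) (𝓝[>] (0 : ℝ)) (𝓝 0) := by
      have := (hth.sub_const (volume.real K)).const_mul (2 * (L : ℝ))
      simpa using this
    have h2 : Tendsto (fun t : ℝ => volume.real K * (2 * R * t)) (𝓝[>] (0 : ℝ)) (𝓝 0) := by
      have := (ht.const_mul (2 * R)).const_mul (volume.real K)
      simpa using this
    have h3 := (((h1.add h2).const_mul (d : ℝ)).const_mul (2 * (L : ℝ))).const_mul 2
    simpa using h3
  have hCt := hrp.const_mul C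
  have := ((hA.add hB).add hCt).const_mul 5
  simpa using this

/-- **Final reduction**: S0109 from (F) and (G). -/
theorem result_of (hd : 1 ≤ d) {K : Set 𝔼} (hKc : IsCompact K) (hKi : (interior K).Nonempty)
    {Y : Set 𝔼} (hYc : IsCompact Y) (hYn : Y.Nonempty)
    (hF : ∀ L : ℝ, PotStab d K L) (hG : ∀ L : ℝ≥0, GradInterp d K L) :
    ∃ C : ℝ≥0, ∀ μ ν : Measure (EuclideanSpace ℝ (Fin d)), IsProbabilityOn Y μ →
      IsProbabilityOn Y ν →
      ∀ Tμ Tν : EuclideanSpace ℝ (Fin d) → EuclideanSpace ℝ (Fin d),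
        IsOptimalMap (uniformProbOn K) μ Tμ → IsOptimalMap (uniformProbOn K) ν Tν →
        ∀ π : Measure (EuclideanSpace ℝ (Fin d) × EuclideanSpace ℝ (Fin d)),
          IsPairCoupling μ ν π →
          ∫⁻ x, ‖Tμ x - Tν x‖ₑ ^ 2 ∂(uniformProbOn K) ≤ C * quadCost π ^ (1 / 3 : ℝ) := by
  obtain ⟨R, hR⟩ : ∃ R : ℝ, ∀ x ∈ K, ‖x‖ ≤ R := hKc.isBounded.exists_norm_le
  have hKn : K.Nonempty := hKi.mono interior_subset
  have hR0 : 0 ≤ R := by
    obtain ⟨x, hx⟩ := hKn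
    exact (norm_nonneg x).trans (hR x hx)
  obtain ⟨L', hL'⟩ : ∃ L : ℝ, ∀ y ∈ Y, ‖y‖ ≤ L := hYc.isBounded.exists_norm_le
  have hL'0 : 0 ≤ L' := by
    obtain ⟨y, hy⟩ := hYn
    exact (norm_nonneg y).trans (hL' y hy)
  lift L' to ℝ≥0 using hL'0
  rename' L' => L, hL' => hL
  obtain ⟨C, hC0, hC⟩ := discrete_stab hKc hKi (hF L) (hG L)
  have hvol : 0 < volume.real K := by
    rw [measureReal_def]
    exact ENNReal.toReal_pos (vol_pos hKi) hKc.measure_lt_top.ne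
  refine ⟨((volume.real K)⁻¹ * (5 * C * (3 : ℝ) ^ (1 / 3 : ℝ))).toNNReal, ?_⟩
  intro μ ν hμ hν Tμ Tν hTμ hTν π hπ
  have hlim := stab_limit hd hKc hKi hR0 hR hYc hYn hL hC0 hC hμ hν hTμ hTν hπ
  have hprobμ := hμ.1
  have hprobρ := uniform_prob hKc hKi
  have hprobπ : IsProbabilityMeasure π := by
    constructor
    have h1 : (π.map Prod.fst) univ = 1 := by rw [hπ.1]; exact measure_univ
    rwa [Measure.map_apply measurable_fst MeasurableSet.univ, preimage_univ] at h1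
  have hYY : ∀ᵐ p ∂π, p.1 ∈ Y ∧ p.2 ∈ Y := by
    have h1 : ∀ᵐ y ∂(π.map Prod.fst), y ∈ Y := by rw [hπ.1, ae_iff]; exact hμ.2
    have h2 : ∀ᵐ y ∂(π.map Prod.snd), y ∈ Y := by rw [hπ.2, ae_iff]; exact hν.2
    filter_upwards [ae_of_ae_map measurable_fst.aemeasurable h1,
      ae_of_ae_map measurable_snd.aemeasurable h2] with p h3 h4
    exact ⟨h3, h4⟩
  have icost : Integrable (fun p : 𝔼 × 𝔼 => ‖p.1 - p.2‖ ^ 2) π := by
    refine Integrable.of_bound (C := (2 * L) ^ 2) (by fun_prop) ?_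
    filter_upwards [hYY] with p hp
    rw [Real.norm_of_nonneg (by positivity)]
    have h1 := norm_sub_le p.1 p.2
    have h2 := hL _ hp.1
    have h3 := hL _ hp.2
    gcongr
    linarith
  have hmemμ : ∀ᵐ x ∂(uniformProbOn K), Tμ x ∈ Y :=
    (data_of hKc hKi hR hL hμ).ae_mem hTμ.1 hTμ.2.1
  have hmemν : ∀ᵐ x ∂(uniformProbOn K), Tν x ∈ Y :=
    (data_of hKc hKi hR hL hν).ae_mem hTν.1 hTν.2.1
  have iT : Integrable (fun x => ‖Tμ x - Tν x‖ ^ 2) (uniformProbOn K) := by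
    refine Integrable.of_bound (C := (2 * L) ^ 2)
      ((hTμ.1.sub hTν.1).norm.pow_const 2).aestronglyMeasurable ?_
    filter_upwards [hmemμ, hmemν] with x h1 h2
    rw [Real.norm_of_nonneg (by positivity)]
    have h3 := norm_sub_le (Tμ x) (Tν x)
    have h4 := hL _ h1
    have h5 := hL _ h2
    gcongr
    linarith
  have e1 : ∫⁻ x, ‖Tμ x - Tν x‖ₑ ^ 2 ∂(uniformProbOn K) =
      ENNReal.ofReal (∫ x, ‖Tμ x - Tν x‖ ^ 2 ∂(uniformProbOn K)) := by
    rw [ofReal_integral_eq_lintegral_ofReal iT (Eventually.of_forall fun x => by positivity)]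
    refine lintegral_congr fun x => ?_
    rw [ENNReal.ofReal_pow (norm_nonneg _), ofReal_norm]
  have e2 : quadCost π = ENNReal.ofReal (∫ p, ‖p.1 - p.2‖ ^ 2 ∂π) := by
    unfold quadCost
    rw [ofReal_integral_eq_lintegral_ofReal icost (Eventually.of_forall fun x => by positivity)]
    refine lintegral_congr fun x => ?_
    rw [ENNReal.ofReal_pow (norm_nonneg _), ofReal_norm]
  have hc0 : 0 ≤ ∫ p, ‖p.1 - p.2‖ ^ 2 ∂π := integral_nonneg fun p => by positivity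
  rw [e1, e2, ENNReal.ofReal_rpow_of_nonneg hc0 (by norm_num)]
  have e3 : (((volume.real K)⁻¹ * (5 * C * (3 : ℝ) ^ (1 / 3 : ℝ))).toNNReal : ℝ≥0∞) =
      ENNReal.ofReal ((volume.real K)⁻¹ * (5 * C * (3 : ℝ) ^ (1 / 3 : ℝ))) := rfl
  rw [e3, ← ENNReal.ofReal_mul (by positivity)]
  apply ENNReal.ofReal_le_ofReal
  rw [integral_uniform]
  rw [Real.mul_rpow (by norm_num) hc0] at hlim
  rw [mul_assoc]
  refine mul_le_mul_of_nonneg_left ?_ (by positivity)
  linarith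

end Crest.Agent.R82
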